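import Vale.Agent.P088.MathlibUsed
import Mathlib.Analysis.Calculus.IteratedDeriv.Lemmas

/-!
# P088: the Denjoy-Carleman theorem (Bang), due to helper349
-/

open Set Filter Topology

set_option linter.all false

namespace Vale.Agent.P088.R2.H455

variable {E : Type*} [NormedAddCommGroup E] [NormedSpace ℝ E]

/-- The step of Bang's argument: `D j` are successive one sided derivatives on `[0,l]`. -/
theorem bang_step {l : ℝ} {D : ℕ → ℝ → E} {M : ℕ → ℝ} (hM : ∀ k, 0 < M k)
    (hlog : ∀ k, M (k + 1) ^ 2 ≤ M k * M (k + 2))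
    (hc : ∀ k, ContinuousOn (D k) (Icc 0 l))
    (hd : ∀ k, ∀ x ∈ Ico 0 l, HasDerivWithinAt (D k) (D (k + 1) x) (Ici x) x)
    (hb : ∀ k, ∀ x ∈ Icc 0 l, ‖D k x‖ ≤ M k)
    (n : ℕ) {x : ℝ} (hx : x ∈ Icc 0 l)
    (hP : ∀ j, ‖D j x‖ ≤ Real.exp (j - (n + 1 : ℕ)) * M j)
    {y : ℝ} (hy : y ∈ Icc x l) (hyx : y - x ≤ M n / (Real.exp 1 * M (n + 1))) :
    ∀ j, ‖D j y‖ ≤ Real.exp (j - n) * M j := by
  -- monotone ratios
  have hratio : ∀ i j, i ≤ j → M (i + 1) * M j ≤ M (j + 1) * M i := by
    intro i j hij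
    induction j, hij using Nat.le_induction with
    | base => linarith
    | succ j hij ih =>
      have h1 := hlog j
      have h2 : M (i + 1) * M j * M (j + 1) ≤ M (j + 1) * M i * M (j + 1) :=
        mul_le_mul_of_nonneg_right ih (hM _).le
      have h3 : M (j + 1) ^ 2 * M i ≤ M j * M (j + 2) * M i :=
        mul_le_mul_of_nonneg_right h1 (hM _).le
      have h4 : M j * (M (i + 1) * M (j + 1)) ≤ M j * (M (j + 1 + 1) * M i) := by
        have : M (j + 1 + 1) = M (j + 2) := rfl
        rw [this]; nlinarith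
      exact le_of_mul_le_mul_left h4 (hM j)
  set ρ : ℝ := M (n + 1) / M n with hρ
  have hρ0 : 0 < ρ := div_pos (hM _) (hM _)
  have hl : x ≤ y := hy.1
  -- main claim
  have claim : ∀ k, ∀ t ∈ Icc x y, k ≤ n + 1 →
      ‖D (n + 1 - k) t‖ ≤ Real.exp (((n + 1 - k : ℕ) : ℝ) - (n + 1 : ℕ)) * M (n + 1 - k) *
        Real.exp (Real.exp 1 * ρ * (t - x)) := by
    intro k
    induction k with
    | zero =>
      intro t ht _
      have h1 : ‖D (n + 1) t‖ ≤ M (n + 1) :=
        hb _ t ⟨hx.1.trans ht.1, ht.2.trans hy.2⟩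
      have h2 : (1 : ℝ) ≤ Real.exp (Real.exp 1 * ρ * (t - x)) :=
        Real.one_le_exp (mul_nonneg (mul_nonneg (Real.exp_pos _).le hρ0.le)
          (sub_nonneg.2 ht.1))
      simp only [Nat.sub_zero, sub_self, Real.exp_zero, one_mul]
      calc ‖D (n + 1) t‖ ≤ M (n + 1) := h1
        _ = M (n + 1) * 1 := by ring
        _ ≤ _ := mul_le_mul_of_nonneg_left h2 (hM _).le
    | succ k ih =>
      intro t ht hk
      have hk' : k ≤ n + 1 := by omega
      obtain ⟨j, hj⟩ : ∃ j, n + 1 - (k + 1) = j := ⟨_, rfl⟩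
      have hj1 : n + 1 - k = j + 1 := by omega
      have hjn : j ≤ n := by omega
      rw [hj]
      have ih' := fun t ht => ih t ht hk'
      rw [hj1] at ih'
      have hB : ∀ s, HasDerivAt (fun s => Real.exp ((j : ℝ) - (n + 1 : ℕ)) * M j *
          Real.exp (Real.exp 1 * ρ * (s - x)))
          (Real.exp ((j : ℝ) - (n + 1 : ℕ)) * M j *
          (Real.exp (Real.exp 1 * ρ * (s - x)) * (Real.exp 1 * ρ))) s := by
        intro s
        have h1 : HasDerivAt (fun s => Real.exp 1 * ρ * (s - x)) (Real.exp 1 * ρ) s := by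
          simpa using ((hasDerivAt_id s).sub_const x).const_mul (Real.exp 1 * ρ)
        exact (h1.exp).const_mul _
      refine image_norm_le_of_norm_deriv_right_le_deriv_boundary (a := x) (b := y)
        (f := D j) (f' := D (j + 1)) ?_ ?_ ?_ hB ?_ ht
      · exact (hc j).mono (Icc_subset_Icc hx.1 hy.2)
      · intro s hs
        exact hd j s ⟨hx.1.trans hs.1, lt_of_lt_of_le hs.2 hy.2⟩
      · simpa using hP j
      · intro s hs
        refine (ih' s ⟨hs.1, hs.2.le⟩).trans ?_
        have e1 : Real.exp (((j + 1 : ℕ) : ℝ) - (n + 1 : ℕ)) =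
            Real.exp ((j : ℝ) - (n + 1 : ℕ)) * Real.exp 1 := by
          rw [← Real.exp_add]; congr 1; push_cast; ring
        rw [e1]
        have h5 : M (j + 1) ≤ M j * ρ := by
          rw [hρ, mul_div_assoc', le_div_iff₀ (hM n)]
          have := hratio j n hjn
          linarith
        have h6 : 0 ≤ Real.exp ((j : ℝ) - (n + 1 : ℕ)) * Real.exp 1 *
            Real.exp (Real.exp 1 * ρ * (s - x)) := by positivity
        nlinarith [mul_le_mul_of_nonneg_left h5 h6]
  intro j
  rcases le_or_gt j n with hjn | hjn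
  · have h1 := claim (n + 1 - j) y ⟨hl, le_rfl⟩ (by omega)
    have h2 : n + 1 - (n + 1 - j) = j := by omega
    rw [h2] at h1
    refine h1.trans ?_
    have h3 : Real.exp 1 * ρ * (y - x) ≤ 1 := by
      have h4 : Real.exp 1 * ρ * (y - x) ≤ Real.exp 1 * ρ * (M n / (Real.exp 1 * M (n + 1))) :=
        mul_le_mul_of_nonneg_left hyx (mul_nonneg (Real.exp_pos _).le hρ0.le)
      refine h4.trans (le_of_eq ?_)
      rw [hρ]
      have := (hM n).ne'
      have := (hM (n + 1)).ne'
      have := (Real.exp_pos 1).ne'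
      field_simp
    have h4 : Real.exp (Real.exp 1 * ρ * (y - x)) ≤ Real.exp 1 := Real.exp_le_exp.2 h3
    have h5 : Real.exp ((j : ℝ) - n) = Real.exp ((j : ℝ) - (n + 1 : ℕ)) * Real.exp 1 := by
      rw [← Real.exp_add]; congr 1; push_cast; ring
    rw [h5]
    have h6 : 0 ≤ Real.exp ((j : ℝ) - (n + 1 : ℕ)) * M j :=
      mul_nonneg (Real.exp_pos _).le (hM _).le
    nlinarith [mul_le_mul_of_nonneg_left h4 h6]
  · have h1 : ‖D j y‖ ≤ M j := hb j y ⟨hx.1.trans hl, hy.2⟩
    have h2 : (1 : ℝ) ≤ Real.exp ((j : ℝ) - n) := by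
      apply Real.one_le_exp
      have : (n : ℝ) < j := by exact_mod_cast hjn
      linarith
    nlinarith [mul_le_mul_of_nonneg_right h2 (hM j).le]

/-- Bang's form of the Denjoy-Carleman theorem for a sequence of successive derivatives. -/
theorem bang_seq {l : ℝ} {D : ℕ → ℝ → E} {M : ℕ → ℝ} (hM : ∀ k, 0 < M k)
    (hlog : ∀ k, M (k + 1) ^ 2 ≤ M k * M (k + 2))
    (hdiv : ¬ Summable (fun k => M k / M (k + 1)))
    (hc : ∀ k, ContinuousOn (D k) (Icc 0 l))
    (hd : ∀ k, ∀ x ∈ Ico 0 l, HasDerivWithinAt (D k) (D (k + 1) x) (Ici x) x)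
    (hb : ∀ k, ∀ x ∈ Icc 0 l, ‖D k x‖ ≤ M k)
    (h0 : ∀ k, D k 0 = 0) : ∀ x ∈ Icc 0 l, D 0 x = 0 := by
  intro x hx
  have hl : 0 ≤ l := hx.1.trans hx.2
  -- propagation
  have prop : ∀ m N : ℕ, ∀ y ∈ Icc 0 l,
      y ≤ ∑ k ∈ Finset.range N, M (m + k) / (Real.exp 1 * M (m + k + 1)) →
      ∀ j, ‖D j y‖ ≤ Real.exp (j - m) * M j := by
    intro m N
    induction N generalizing m with
    | zero =>
      intro y hy hyN j
      have : y = 0 := le_antisymm (by simpa using hyN) hy.1
      rw [this, h0, norm_zero]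
      exact mul_nonneg (Real.exp_pos _).le (hM _).le
    | succ N ih =>
      intro y hy hyN j
      rw [Finset.sum_range_succ'] at hyN
      simp only [add_zero] at hyN
      set δ := M m / (Real.exp 1 * M (m + 1)) with hδ
      have hδ0 : 0 < δ := div_pos (hM _) (mul_pos (Real.exp_pos _) (hM _))
      set z := max 0 (y - δ) with hz
      have hzy : z ≤ y := max_le hy.1 (by linarith)
      have hz0 : z ∈ Icc 0 l := ⟨le_max_left _ _, hzy.trans hy.2⟩
      have hS : ∀ k ∈ Finset.range N,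
          M (m + (k + 1)) / (Real.exp 1 * M (m + (k + 1) + 1)) =
          M (m + 1 + k) / (Real.exp 1 * M (m + 1 + k + 1)) := by
        intro k _
        have e1 : m + (k + 1) = m + 1 + k := by omega
        rw [e1]
      rw [Finset.sum_congr rfl hS] at hyN
      have hzN : z ≤ ∑ k ∈ Finset.range N, M (m + 1 + k) / (Real.exp 1 * M (m + 1 + k + 1)) := by
        apply max_le
        · exact Finset.sum_nonneg fun k _ =>
            div_nonneg (hM _).le (mul_nonneg (Real.exp_pos _).le (hM _).le)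
        · linarith
      have h1 := ih (m + 1) z hz0 hzN
      refine bang_step hM hlog hc hd hb m hz0 h1 ⟨hzy, hy.2⟩ ?_ j
      have : y - δ ≤ z := le_max_right _ _
      linarith
  -- all levels hold everywhere
  have all : ∀ m : ℕ, ‖D 0 x‖ ≤ Real.exp (-(m : ℝ)) * M 0 := by
    intro m
    have hns : ¬ Summable (fun k => M (m + k) / (Real.exp 1 * M (m + k + 1))) := by
      intro hs
      apply hdiv
      have hs' : Summable (fun k => M (k + m) / M (k + m + 1)) := by
        have := hs.mul_left (Real.exp 1)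
        refine this.congr fun k => ?_
        have h1 := (hM (m + k + 1)).ne'
        have h2 := (Real.exp_pos 1).ne'
        have e1 : k + m = m + k := by omega
        rw [e1]
        field_simp
      exact (summable_nat_add_iff (f := fun k => M k / M (k + 1)) m).1 hs'
    have hnn : ∀ k, 0 ≤ M (m + k) / (Real.exp 1 * M (m + k + 1)) := fun k =>
      div_nonneg (hM _).le (mul_nonneg (Real.exp_pos _).le (hM _).le)
    have ht := (not_summable_iff_tendsto_nat_atTop_of_nonneg hnn).1 hns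
    obtain ⟨N, hN⟩ := (ht.eventually_ge_atTop x).exists
    have := prop m N x hx hN 0
    simpa using this
  have hlim : Tendsto (fun m : ℕ => Real.exp (-(m : ℝ)) * M 0) atTop (𝓝 0) := by
    have h1 : Tendsto (fun m : ℕ => Real.exp (-(m : ℝ))) atTop (𝓝 0) :=
      Real.tendsto_exp_atBot.comp (tendsto_neg_atTop_atBot.comp tendsto_natCast_atTop_atTop)
    simpa using h1.mul_const (M 0)
  have h2 : ‖D 0 x‖ ≤ 0 := ge_of_tendsto' hlim all
  exact norm_le_zero_iff.1 h2

/-- Denjoy-Carleman theorem (Bang's proof) on `[0,l]`. -/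
theorem denjoy_carleman {l : ℝ} (hl : 0 < l) {f : ℝ → E}
    (hf : ContDiffOn ℝ (⊤ : ℕ∞) f (Icc 0 l)) {M : ℕ → ℝ} (hM : ∀ k, 0 < M k)
    (hlog : ∀ k, M (k + 1) ^ 2 ≤ M k * M (k + 2))
    (hdiv : ¬ Summable (fun k => M k / M (k + 1))) {C R : ℝ}
    (hb : ∀ k, ∀ x ∈ Icc 0 l, ‖iteratedDerivWithin k f (Icc 0 l) x‖ ≤ C * R ^ k * M k)
    (h0 : ∀ k, iteratedDerivWithin k f (Icc 0 l) 0 = 0) : ∀ x ∈ Icc 0 l, f x = 0 := by
  have hu : UniqueDiffOn ℝ (Icc 0 l) := uniqueDiffOn_Icc hl
  set C' : ℝ := max C 1 with hC'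
  set R' : ℝ := max |R| 1 with hR'
  have hC0 : 0 < C' := lt_of_lt_of_le one_pos (le_max_right _ _)
  have hR0 : 0 < R' := lt_of_lt_of_le one_pos (le_max_right _ _)
  set M' : ℕ → ℝ := fun k => C' * R' ^ k * M k with hM'
  have hM'0 : ∀ k, 0 < M' k := fun k => mul_pos (mul_pos hC0 (pow_pos hR0 _)) (hM k)
  have hdc : ∀ k, ∀ x ∈ Icc 0 l, HasDerivWithinAt (iteratedDerivWithin k f (Icc 0 l))
      (iteratedDerivWithin (k + 1) f (Icc 0 l) x) (Icc 0 l) x := by
    intro k x hx
    have h1 : DifferentiableOn ℝ (iteratedDerivWithin k f (Icc 0 l)) (Icc 0 l) :=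
      hf.differentiableOn_iteratedDerivWithin (by exact_mod_cast ENat.natCast_lt_top k) hu
    have h2 := (h1 x hx).hasDerivWithinAt
    rwa [← iteratedDerivWithin_succ] at h2
  have key := bang_seq (l := l) (D := fun k => iteratedDerivWithin k f (Icc 0 l)) (M := M') hM'0
    ?_ ?_ ?_ ?_ ?_ h0
  · intro x hx
    have := key x hx
    simpa [iteratedDerivWithin_zero] using this
  · intro k
    have h1 := hlog k
    have h2 : 0 ≤ (C' * R' ^ (k + 1)) ^ 2 := sq_nonneg _
    calc M' (k + 1) ^ 2 = (C' * R' ^ (k + 1)) ^ 2 * M (k + 1) ^ 2 := by simp only [hM']; ring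
      _ ≤ (C' * R' ^ (k + 1)) ^ 2 * (M k * M (k + 2)) := mul_le_mul_of_nonneg_left h1 h2
      _ = M' k * M' (k + 2) := by simp only [hM']; ring
  · intro hs
    apply hdiv
    refine (hs.mul_left R').congr fun k => ?_
    simp only [hM']
    have h1 := (hM (k + 1)).ne'
    have h2 := hR0.ne'
    have h3 := hC0.ne'
    rw [pow_succ]
    field_simp
  · intro k x hx
    exact (hdc k x hx).continuousWithinAt
  · intro k x hx
    have h1 := hdc k x ⟨hx.1, hx.2.le⟩
    exact (h1.mono_of_mem_nhdsWithin (by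
      refine mem_nhdsWithin.2 ⟨Iio l, isOpen_Iio, hx.2, ?_⟩
      rintro z ⟨hz1, hz2⟩
      exact ⟨hx.1.trans hz2, le_of_lt hz1⟩))
  · intro k x hx
    refine (hb k x hx).trans ?_
    have h1 : C * R ^ k ≤ C' * R' ^ k := by
      have e1 : C * R ^ k ≤ |C * R ^ k| := le_abs_self _
      have e2 : |C * R ^ k| = |C| * |R| ^ k := by rw [abs_mul, abs_pow]
      have e3 : 0 ≤ C * R ^ k * M k := (norm_nonneg _).trans (hb k x hx)
      have e4 : 0 ≤ C * R ^ k := by
        by_contra h
        push Not at h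
        exact absurd e3 (not_le.2 (mul_neg_of_neg_of_pos h (hM k)))
      rcases le_or_gt 0 C with hC | hC
      · calc C * R ^ k ≤ C * |R| ^ k :=
              mul_le_mul_of_nonneg_left ((le_abs_self _).trans (abs_pow R k).le) hC
          _ ≤ C' * R' ^ k := mul_le_mul (le_max_left _ _)
              (pow_le_pow_left₀ (abs_nonneg _) (le_max_left _ _) _) (by positivity) hC0.le
      · exfalso
        have e5 := (norm_nonneg _).trans (hb 0 x hx)
        simp only [pow_zero, mul_one] at e5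
        exact absurd e5 (not_le.2 (mul_neg_of_neg_of_pos hC (hM 0)))
    exact mul_le_mul_of_nonneg_right h1 (hM k).le

end Vale.Agent.P088.R2.H455
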