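import Vale.Agent.P088.R2.H455.BrQ
import Vale.Agent.P088.TM.Q.H332N

/-!
# P088: quasi-analytic pairs off thin sets, from the elementary to the abstract form
-/

open Manifold MeasureTheory Set Filter Topology
open scoped ContDiff Matrix

noncomputable section

set_option linter.all false

namespace Vale.Agent.P088.R2.H455

open Vale.Agent.P088 Vale.Agent.P088.B Vale.Agent.P088.EYM Vale.Agent.P088.BQ
open Vale.Agent.P088.TM (fLoc)

universe u

variable {n N : ℕ} [NeZero n]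

variable {M : Type u} [TopologicalSpace M] [ChartedSpace (EuclideanHalfSpace n) M]
  [IsManifold (𝓡∂ n) ∞ M] [T2Space M] [CompactSpace M] [MeasurableSpace M] [BorelSpace M]

theorem large_of {W G : Set M} (hG : Thick (at_ n M) G W)
    (hb : ∀ x ∈ W, x ∈ (𝓡∂ n).boundary M → x ∈ G) (p : M) :
    RelOpen (tgW n G p) ∧ Large (tgW n G p) (tgW n W p) := by
  have hrel := (fLoc n 0 M).1
  have hGo : IsOpen G := hG.1
  refine ⟨tgW_rel hrel hGo p, fun O hO hOW hOp hc => ?_, fun x hx hx0 => ⟨hx.1, ?_⟩⟩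
  · have hOt : O ⊆ tg n p := fun x hx => (hOW hx).1
    have h1 : IsOpen ((xc n p).symm '' O) := TM.xc_image_open p (isOpen_relOpen hO hOp) hOt
    have h2 : IsConnected ((xc n p).symm '' O) :=
      hc.image _ ((continuousOn_extChartAt_symm p).mono hOt)
    have h3 : (xc n p).symm '' O ⊆ W \ bd (at_ n M) := by
      rintro _ ⟨x, hx, rfl⟩
      refine ⟨(hOW hx).2, ?_⟩
      have e : bd (at_ n M) = (𝓡∂ n).boundary M := bd_at
      rw [e, (fLoc n 0 M).2.2.1 p _ ((xc n p).map_target (hOt hx)), (xc n p).right_inv (hOt hx)]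
      exact ne_of_gt (hOp hx)
    have h4 : IsConnected ((xc n p).symm '' O ∩ G) := hG.2 _ h3 h1 h2
    have h5 : O ∩ tgW n G p = xc n p '' ((xc n p).symm '' O ∩ G) := by
      ext x
      constructor
      · rintro ⟨a, b, c⟩
        exact ⟨(xc n p).symm x, ⟨⟨x, a, rfl⟩, c⟩, (xc n p).right_inv b⟩
      · rintro ⟨y, ⟨⟨z, hz, rfl⟩, hy⟩, rfl⟩
        rw [(xc n p).right_inv (hOt hz)]
        exact ⟨hz, hOt hz, hy⟩
    rw [h5]
    refine h4.image _ ((continuousOn_extChartAt p).mono ?_)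
    rintro _ ⟨⟨z, hz, rfl⟩, -⟩
    exact (xc n p).map_target (hOt hz)
  · refine hb _ hx.2 ?_
    rw [(fLoc n 0 M).2.2.1 p _ ((xc n p).map_target hx.1), (xc n p).right_inv hx.1]
    exact hx0

/-- Quasi-analytic pairs off thin sets, from the concrete to the abstract form. -/
theorem bridgeK {𝒬 : ℝ → (ℝ → ℂ) → Prop} {W G : Set M} {P : Pair (at_ n M) N}
    (hG : Thick (at_ n M) G W) (hb : ∀ x ∈ W, x ∈ (𝓡∂ n).boundary M → x ∈ G)
    (h : QOn 𝒬 G P) (p : M) :
    QEqK 𝒬 (locM (Vale.Agent.P088.S.gOf (conv P)) (Vale.Agent.P088.S.connOf (conv P)) p)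
      (tgW n W p) := by
  obtain ⟨h1, h2⟩ := large_of hG hb p
  exact ⟨tgW n G p, h1, h2, (bridgeQ h p).mono fun x hx => hx.2⟩

end Vale.Agent.P088.R2.H455
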