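import Vale.Agent.P088.R2.H455.Pull2

/-!
# P088: the class of data which are quasi-analytic off a small closed set
-/

open Set Filter Topology Metric
open scoped ContDiff

set_option linter.all false

noncomputable section

namespace Vale.Agent.P088.R2.H455

open Vale.Agent.P088.EYM Vale.Agent.P088.EYM.H

variable {n N : ℕ} [NeZero n] {L L' : LD n N} {D D' : Set (EYM.E n)}
  {X Y : EYM.E n → EYM.E n} {S : EYM.E n → EndF N} {𝒬 : ℝ → (ℝ → ℂ) → Prop}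

/-- `G` contains the boundary points of `D`, and its intersection with every nonempty connected
open subset of the interior of `D` is nonempty and connected. -/
structure Large (G D : Set (EYM.E n)) : Prop where
  con : ∀ O, IsOpen O → O ⊆ D → O ⊆ {x | 0 < x 0} → IsConnected O → IsConnected (O ∩ G)
  bd : ∀ x ∈ D, x 0 = 0 → x ∈ G

/-- The data are in the class `𝒬` off a small closed set. -/
def QEqK (𝒬 : ℝ → (ℝ → ℂ) → Prop) (L : LD n N) (D : Set (EYM.E n)) : Prop :=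
  ∃ G, RelOpen G ∧ Large G D ∧ QEq 𝒬 L (D ∩ G)

theorem QEqK.mono (h : QEqK 𝒬 L D) (hD : D' ⊆ D) : QEqK 𝒬 L D' := by
  obtain ⟨G, h1, h2, h3⟩ := h
  exact ⟨G, h1, ⟨fun O hO h => h2.con O hO (h.trans hD), fun x hx => h2.bd x (hD hx)⟩,
    h3.mono (inter_subset_inter_left _ hD)⟩

theorem relOpen_inter {G D : Set (EYM.E n)} (hD : RelOpen D) (hG : RelOpen G) :
    RelOpen (D ∩ G) := by
  obtain ⟨O, hO, rfl⟩ := hG
  obtain ⟨O', hO', rfl⟩ := hD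
  refine ⟨O' ∩ O, hO'.inter hO, ?_⟩
  ext x
  constructor
  · rintro ⟨⟨a, b⟩, c, d⟩
    exact ⟨⟨a, c⟩, b⟩
  · rintro ⟨⟨a, c⟩, b⟩
    exact ⟨⟨a, b⟩, c, b⟩

theorem isOpen_pos : IsOpen {x : EYM.E n | 0 < x 0} :=
  isOpen_lt continuous_const (EuclideanSpace.proj (𝕜 := ℝ) (0 : Fin n)).continuous

theorem relOpen_isOpen {D : Set (EYM.E n)} (hD : RelOpen D) (hp : D ⊆ {x | 0 < x 0}) :
    IsOpen D := by
  obtain ⟨O, hO, rfl⟩ := hD
  have : O ∩ Hs n = O ∩ {x | 0 < x 0} := by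
    ext x
    constructor
    · rintro h
      exact ⟨h.1, hp h⟩
    · rintro ⟨h1, h2⟩
      exact ⟨h1, le_of_lt (show (0 : ℝ) < x 0 from h2)⟩
  rw [this]
  exact hO.inter isOpen_pos

theorem isOpen_relOpen {D : Set (EYM.E n)} (hD : IsOpen D) (hp : D ⊆ {x | 0 < x 0}) :
    RelOpen D :=
  ⟨D, hD, (inter_eq_left.2 fun x hx => le_of_lt (show (0 : ℝ) < x 0 from hp hx)).symm⟩

/-- invariance of the class -/
theorem QEqK.push (hD : RelOpen D) (hD' : RelOpen D') (ok : L.Ok D) (ok' : L'.Ok D')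
    (h : IsPull L L' D D' X Y S) (hq : QEqK 𝒬 L D) : QEqK 𝒬 L' D' := by
  obtain ⟨G, hG, hL, hq⟩ := hq
  have hd := h.diffeo
  have h2 := bSymm n N L L' D D' X Y S hD hD' h
  have hG' : RelOpen (D' ∩ Y ⁻¹' (D ∩ G)) :=
    TM.relOpen_preimage hD' hd.smY.continuousOn hd.mapsY hD (relOpen_inter hD hG)
  have hO : ∀ O, RelOpen O → RelOpen (D ∩ X ⁻¹' O) := fun O hO =>
    TM.relOpen_preimage hD hd.smX.continuousOn hd.mapsX hD' hO
  have hb : ∀ y ∈ D', y 0 = 0 → Y y 0 = 0 := by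
    intro y hy hy0
    by_contra h0
    have h3 : 0 < Y y 0 := lt_of_le_of_ne (hD.subset (hd.mapsY hy)) (Ne.symm h0)
    have h4 := bIntr n D D' X Y hD hD' hd _ (hd.mapsY hy) h3
    rw [hd.inv2 y hy, hy0] at h4
    exact lt_irrefl _ h4
  refine ⟨D' ∩ Y ⁻¹' (D ∩ G), hG', ⟨fun O hO1 hO2 hO3 hc => ?_, fun y hy hy0 =>
    ⟨hy, hd.mapsY hy, hL.bd _ (hd.mapsY hy) (hb y hy hy0)⟩⟩, ?_⟩
  · have e1 : O ∩ (D' ∩ Y ⁻¹' (D ∩ G)) = X '' ((D ∩ X ⁻¹' O) ∩ G) := by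
      ext y
      constructor
      · rintro ⟨a, b, c, d⟩
        refine ⟨Y y, ⟨⟨c, ?_⟩, d⟩, hd.inv2 y b⟩
        show X (Y y) ∈ O
        rw [hd.inv2 y b]; exact a
      · rintro ⟨x, ⟨⟨a, b⟩, c⟩, rfl⟩
        refine ⟨b, hO2 b, ?_⟩
        show Y (X x) ∈ D ∩ G
        rw [hd.inv1 x a]
        exact ⟨a, c⟩
    have e2 : D ∩ X ⁻¹' O = Y '' O := (TM.image_eq_preimage hd hO2).symm
    have e3 : D ∩ X ⁻¹' O ⊆ {x | 0 < x 0} := by
      rintro x ⟨hx1, hx2⟩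
      have h4 := bIntr n D' D Y X hD' hD ⟨hd.mapsY, hd.mapsX, hd.inv2, hd.inv1, hd.smY, hd.smX⟩
        _ (hd.mapsX hx1) (hO3 hx2)
      rwa [hd.inv1 x hx1] at h4
    rw [e1]
    refine (hL.con _ (relOpen_isOpen (hO O (isOpen_relOpen hO1 hO3)) e3) inter_subset_left e3
      ?_).image _ (hd.smX.continuousOn.mono fun x hx => hx.1.1)
    rw [e2]
    exact hc.image _ (hd.smY.continuousOn.mono hO2)
  · have h3 : IsPull L' L (D' ∩ Y ⁻¹' (D ∩ G)) (D ∩ G) Y X (fun y => Ring.inverse (S (Y y))) :=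
      TM.pull_restrict h2 inter_subset_left
    have h4 := QEq.pull hG' (relOpen_inter hD hG) (cStart_Ok_mono ok' inter_subset_left)
      (cStart_Ok_mono ok inter_subset_left) h3 hq
    exact h4.mono fun y hy => hy.2

variable {j0 : Fin N} {W₁ W₂ : Model n N}

theorem eqOnM_closure (h1 : D' ⊆ D) (h2 : D ⊆ closure D') (m₁ : IsMod j0 W₁ D)
    (m₂ : IsMod j0 W₂ D) (h : EqOnM W₁ W₂ D') : EqOnM W₁ W₂ D := by
  have key : ∀ {F : Type} [NormedAddCommGroup F] [NormedSpace ℝ F] {f g : EYM.E n → F},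
      ContDiffOn ℝ ∞ f D → ContDiffOn ℝ ∞ g D → (∀ x ∈ D', f x = g x) → ∀ x ∈ D, f x = g x := by
    intro F _ _ f g hf hg hfg
    exact Set.EqOn.of_subset_closure (fun x hx => hfg x hx) hf.continuousOn hg.continuousOn h1 h2
  refine ⟨fun x hx => ?_, fun x hx j => ?_, fun x hx => ?_, fun x hx a => ?_⟩
  · ext i j
    exact key (m₁.ok.g_smooth i j) (m₂.ok.g_smooth i j) (fun x hx => by rw [h.g x hx]) x hx
  · exact key (m₁.ok.B_smooth j) (m₂.ok.B_smooth j) (fun x hx => h.B x hx j) x hx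
  · exact key m₁.ok.h_smooth m₂.ok.h_smooth (fun x hx => h.h x hx) x hx
  · exact key (m₁.sol a).1 (m₂.sol a).1 (fun x hx => h.c x hx a) x hx

theorem rigIntK (hQ : QAn 𝒬) (ho : IsOpen D) (hp0 : D ⊆ {x | 0 < x 0}) (hcon : IsPreconnected D)
    (m₁ : IsMod j0 W₁ D) (m₂ : IsMod j0 W₂ D) (q₁ : QEqK 𝒬 W₁.toLD D) (q₂ : QEqK 𝒬 W₂.toLD D)
    {U : Set (EYM.E n)} (hU : IsOpen U) (hUD : U ⊆ D) (hUn : U.Nonempty) (he : EqOnM W₁ W₂ U) :
    EqOnM W₁ W₂ D := by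
  have hHs : D ⊆ Hs n := fun x hx => le_of_lt (show (0 : ℝ) < x 0 from hp0 hx)
  have hR : RelOpen D := ⟨D, ho, (inter_eq_left.2 hHs).symm⟩
  obtain ⟨G₁, g1, l1, q1⟩ := q₁
  obtain ⟨G₂, g2, l2, q2⟩ := q₂
  rcases D.eq_empty_or_nonempty with hDe | hDn
  · subst hDe
    exact ⟨fun x hx => absurd hx (notMem_empty x), fun x hx => absurd hx (notMem_empty x),
      fun x hx => absurd hx (notMem_empty x), fun x hx => absurd hx (notMem_empty x)⟩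
  have hop : ∀ {A G : Set (EYM.E n)}, IsOpen A → A ⊆ D → RelOpen G → IsOpen (A ∩ G) := by
    rintro A G hA hAD ⟨O, hO, rfl⟩
    have : A ∩ (O ∩ Hs n) = A ∩ O := by
      ext x
      exact ⟨fun h => ⟨h.1, h.2.1⟩, fun h => ⟨h.1, h.2, hHs (hAD h.1)⟩⟩
    rw [this]
    exact hA.inter hO
  set D' := (D ∩ G₁) ∩ G₂ with hD'
  have hs1 : D ∩ G₁ ⊆ D := inter_subset_left
  have hD'D : D' ⊆ D := fun x hx => hx.1.1
  have o1 : IsOpen (D ∩ G₁) := hop ho subset_rfl g1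
  have o2 : IsOpen D' := hop o1 hs1 g2
  have hc' : IsPreconnected D' := (l2.con _ o1 hs1 (hs1.trans hp0)
    (l1.con _ ho subset_rfl hp0 ⟨hDn, hcon⟩)).isPreconnected
  have hne : ∀ A : Set (EYM.E n), IsOpen A → A ⊆ D → A.Nonempty → ((A ∩ G₁) ∩ G₂).Nonempty := by
    rintro A hA hAD ⟨x, hx⟩
    obtain ⟨ε, hε, hb⟩ := Metric.isOpen_iff.1 hA x hx
    have hbD : ball x ε ⊆ D := hb.trans hAD
    have hbc : IsConnected (ball x ε) :=
      ⟨⟨x, mem_ball_self hε⟩, (convex_ball x ε).isPreconnected⟩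
    have h1 := l1.con _ isOpen_ball hbD (hbD.trans hp0) hbc
    have h2 := l2.con _ (hop isOpen_ball hbD g1) (inter_subset_left.trans hbD)
      ((inter_subset_left.trans hbD).trans hp0) h1
    obtain ⟨y, hy⟩ := h2.nonempty
    exact ⟨y, ⟨hb hy.1.1, hy.1.2⟩, hy.2⟩
  have hint : EqOnM W₁ W₂ D' := rigInt (j0 := j0) (U := (U ∩ G₁) ∩ G₂) hQ o2 (hD'D.trans hp0) hc'
    (IsMod.mono m₁ hD'D) (IsMod.mono m₂ hD'D) (q1.mono fun x hx => ⟨hx.1.1, hx.1.2⟩)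
    (q2.mono fun x hx => ⟨hx.1.1, hx.2⟩)
    (hop (hop hU hUD g1) (inter_subset_left.trans hUD) g2)
    (inter_subset_inter_left _ (inter_subset_inter_left _ hUD)) (hne U hU hUD hUn)
    ⟨fun x hx => he.g x hx.1.1, fun x hx => he.B x hx.1.1, fun x hx => he.h x hx.1.1,
      fun x hx => he.c x hx.1.1⟩
  refine eqOnM_closure (j0 := j0) hD'D (fun x hx => ?_) m₁ m₂ hint
  rw [_root_.mem_closure_iff]
  intro O hO hxO
  obtain ⟨y, hy⟩ := hne (O ∩ D) (hO.inter ho) inter_subset_right ⟨x, hxO, hx⟩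
  exact ⟨y, hy.1.1.1, ⟨hy.1.1.2, hy.1.2⟩, hy.2⟩

theorem rigBdK (hQ : QAn 𝒬) {z : EYM.E n} {R : ℝ} (hR : 0 < R) (hz : z 0 = 0)
    (m₁ : IsMod j0 W₁ (HB z R)) (m₂ : IsMod j0 W₂ (HB z R)) (q₁ : QEqK 𝒬 W₁.toLD (HB z R))
    (q₂ : QEqK 𝒬 W₂.toLD (HB z R)) (hj : JetAll W₁ W₂ (HB z R)) : EqOnM W₁ W₂ (HB z R) := by
  have hHB := cClosed_relOpen_HB z R
  have hpos : IsOpen {x : EYM.E n | 0 < x 0} := isOpen_pos
  -- a good point of the boundary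
  have hzm : z ∈ HB z R := ⟨mem_ball_self hR, by show 0 ≤ z 0; rw [hz]⟩
  obtain ⟨p, hp1, hp2, hp3, hp0⟩ : ∃ p : EYM.E n, p ∈ HB z R ∧
      (∃ G, RelOpen G ∧ p ∈ G ∧ QEq 𝒬 W₁.toLD (HB z R ∩ G)) ∧
      (∃ G, RelOpen G ∧ p ∈ G ∧ QEq 𝒬 W₂.toLD (HB z R ∩ G)) ∧ p 0 = 0 := by
    obtain ⟨G₁, g1, l1, q1⟩ := q₁
    obtain ⟨G₂, g2, l2, q2⟩ := q₂
    exact ⟨z, hzm, ⟨G₁, g1, l1.bd z hzm hz, q1⟩, ⟨G₂, g2, l2.bd z hzm hz, q2⟩, hz⟩
  obtain ⟨G₁, g1, a1, q1⟩ := hp2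
  obtain ⟨G₂, g2, a2, q2⟩ := hp3
  obtain ⟨O, hO, hOe⟩ := relOpen_inter (relOpen_inter hHB g1) g2
  have hpO : p ∈ O := by
    have : p ∈ HB z R ∩ G₁ ∩ G₂ := ⟨⟨hp1, a1⟩, a2⟩
    rw [hOe] at this
    exact this.1
  obtain ⟨ρ, hρ, hb⟩ := Metric.isOpen_iff.1 hO p hpO
  have hsub : HB p ρ ⊆ HB z R ∩ G₁ ∩ G₂ := by
    rw [hOe]
    exact inter_subset_inter_left _ hb
  have hs0 : HB p ρ ⊆ HB z R := fun x hx => (hsub hx).1.1
  have he := rigBd (j0 := j0) hQ hρ hp0 (IsMod.mono m₁ hs0) (IsMod.mono m₂ hs0)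
    (q1.mono fun x hx => (hsub hx).1) (q2.mono fun x hx => ⟨(hsub hx).1.1, (hsub hx).2⟩)
    ⟨fun k i j => Van.mono_set (hj.g k i j) hs0, fun k i => Van.mono_set (hj.B k i) hs0,
      fun k => Van.mono_set (hj.h k) hs0, fun k a => Van.mono_set (hj.c k a) hs0⟩
  set D : Set (EYM.E n) := ball z R ∩ {x | 0 < x 0} with hD
  have hDB : D ⊆ HB z R := fun x hx => ⟨hx.1, le_of_lt (show (0 : ℝ) < x 0 from hx.2)⟩
  have hconv : Convex ℝ D := (convex_ball z R).inter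
    ((convex_Ioi (0 : ℝ)).is_linear_preimage (EuclideanSpace.proj (𝕜 := ℝ) (0 : Fin n)).isLinear)
  -- points near the boundary
  have hup : ∀ q : EYM.E n, 0 ≤ q 0 → ∀ ε > 0, ∃ y ∈ ball q ε, 0 < y 0 := by
    intro q hq ε hε
    refine ⟨q + (ε / 2) • (ev 0 : EYM.E n), ?_, ?_⟩
    · rw [mem_ball, dist_eq_norm, add_sub_cancel_left, norm_smul]
      simp only [ev, EuclideanSpace.norm_single, norm_one, mul_one, Real.norm_eq_abs]
      rw [abs_of_pos (half_pos hε)]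
      exact half_lt_self hε
    · show 0 < (q + (ε / 2) • (ev 0 : EYM.E n)) 0
      have : (q + (ε / 2) • (ev 0 : EYM.E n)) 0 = q 0 + ε / 2 := by simp [ev]
      rw [this]
      linarith
  have hpu : ball p ρ ∩ {x : EYM.E n | 0 < x 0} ⊆ HB p ρ :=
    fun x hx => ⟨hx.1, le_of_lt (show (0 : ℝ) < x 0 from hx.2)⟩
  have hint := rigIntK (j0 := j0) (D := D) (U := ball p ρ ∩ {x | 0 < x 0}) hQ
    (isOpen_ball.inter hpos) inter_subset_right hconv.isPreconnected (IsMod.mono m₁ hDB)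
    (IsMod.mono m₂ hDB) (q₁.mono hDB) (q₂.mono hDB) (isOpen_ball.inter hpos)
    (fun x hx => ⟨(hs0 (hpu hx)).1, hx.2⟩)
    (by
      obtain ⟨y, hy1, hy2⟩ := hup p hp0.ge ρ hρ
      exact ⟨y, hy1, hy2⟩)
    ⟨fun x hx => he.g x (hpu hx), fun x hx => he.B x (hpu hx), fun x hx => he.h x (hpu hx),
      fun x hx => he.c x (hpu hx)⟩
  refine eqOnM_closure (j0 := j0) hDB (fun x hx => ?_) m₁ m₂ hint
  rw [Metric.mem_closure_iff]
  intro ε hε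
  have h1 : 0 < min ε (R - dist x z) := lt_min hε (by
    have := hx.1; rw [mem_ball] at this; linarith)
  obtain ⟨y, hy1, hy2⟩ := hup x hx.2 _ h1
  refine ⟨y, ⟨?_, hy2⟩, ?_⟩
  · have h2 : dist y x < R - dist x z := (mem_ball.1 hy1).trans_le (min_le_right _ _)
    rw [mem_ball]
    linarith [dist_triangle y x z]
  · rw [dist_comm]
    exact (mem_ball.1 hy1).trans_le (min_le_left _ _)

/-- The class of data which are quasi-analytic off a small closed set. -/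
def kCls (n N : ℕ) [NeZero n] (𝒬 : ℝ → (ℝ → ℂ) → Prop) (hQ : QAn 𝒬) : Cls n N where
  eq L D := QEqK 𝒬 L D
  mono h hD := h.mono hD
  push hD hD' ok ok' h hq := QEqK.push hD hD' ok ok' h hq
  rigInt j0 W₁ W₂ D _ ho hp hc m₁ m₂ q₁ q₂ U hU hUD hUn he :=
    rigIntK hQ ho hp hc m₁ m₂ q₁ q₂ hU hUD hUn he
  rigBd j0 W₁ W₂ z r _ hr hz m₁ m₂ q₁ q₂ hj := rigBdK hQ hr hz m₁ m₂ q₁ q₂ hj

end Vale.Agent.P088.R2.H455
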