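import Vale.Agent.P088.R2.H455.StQ
import Vale.Agent.P088.R2.H455.ClsK
import Vale.Agent.P088.H4.Bd5

/-!
# P088: quasi-analytic pairs, from the elementary to the abstract form
-/

open Manifold MeasureTheory Set Filter Topology
open scoped ContDiff Matrix

noncomputable section

set_option linter.all false

namespace Vale.Agent.P088.R2.H455

open Vale.Agent.P088 Vale.Agent.P088.B Vale.Agent.P088.EYM Vale.Agent.P088.BQ

universe u

variable {n N : ℕ} [NeZero n]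

theorem hd_ofLp {f : ℝ → EYM.E n} {f' : EYM.E n} {T : Set ℝ} {s : ℝ}
    (h : HasDerivWithinAt f f' T s) :
    HasDerivWithinAt (fun t => WithLp.ofLp (f t)) (WithLp.ofLp f') T s := by
  rw [hasDerivWithinAt_pi]
  intro i
  have h1 : HasFDerivWithinAt f (ContinuousLinearMap.toSpanSingleton ℝ f') T s :=
    h.hasFDerivWithinAt
  have h2 := ((EuclideanSpace.proj (𝕜 := ℝ) i : EYM.E n →L[ℝ] ℝ).hasFDerivAt.comp_hasFDerivWithinAt
    s h1).hasDerivWithinAt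
  have h3 : HasDerivWithinAt ((fun x : EYM.E n => WithLp.ofLp x i) ∘ f) (WithLp.ofLp f' i) T s := by
    simpa using h2
  exact h3

theorem hd_ofE {f : ℝ → EndF N} {f' : EndF N} {T : Set ℝ} {s : ℝ}
    (h : HasDerivWithinAt f f' T s) (k l : Fin N) :
    HasDerivWithinAt (fun t => Vale.Agent.P088.S.ofE (f t) k l)
      (Vale.Agent.P088.S.ofE f' k l) T s := by
  have h1 : HasFDerivWithinAt f (ContinuousLinearMap.toSpanSingleton ℝ f') T s :=
    h.hasFDerivWithinAt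
  have h2 := ((Vale.Agent.P088.S.ent k l).hasFDerivAt.comp_hasFDerivWithinAt
    s h1).hasDerivWithinAt
  have h3 : HasDerivWithinAt (Vale.Agent.P088.S.ent k l ∘ f) (Vale.Agent.P088.S.ofE f' k l) T s := by
    simpa [Vale.Agent.P088.S.ent_apply] using h2
  exact h3

section Local

variable {D : Set (EYM.E n)} {L : LD n N} {g' : V n → Matrix (Fin n) (Fin n) ℝ}
  {A : Fin n → V n → Matrix (Fin N) (Fin N) ℂ}

theorem lc_chv (hD : RelOpen D) (hg : ∀ i j, ContDiffOn ℝ ∞ (fun x => L.g x i j) D)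
    (h : ∀ z ∈ D, g' (WithLp.ofLp z) = L.g z) {y : EYM.E n} (hy : y ∈ D) (u v : EYM.E n) :
    (∑ i, (WithLp.ofLp u) i • lc g' i (WithLp.ofLp y)) *ᵥ (WithLp.ofLp v) =
      WithLp.ofLp (chv L.g y u v) := by
  funext k
  have e : (WithLp.ofLp (chv L.g y u v)) k = ∑ i, ∑ j, EYM.chr L.g k i j y * u i * v j := rfl
  rw [e]
  simp only [Matrix.mulVec, dotProduct, Matrix.sum_apply, Matrix.smul_apply, smul_eq_mul]
  rw [Finset.sum_congr rfl (fun j _ => Finset.sum_mul _ _ _), Finset.sum_comm]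
  refine Finset.sum_congr rfl fun i _ => Finset.sum_congr rfl fun j _ => ?_
  have h1 : lc g' i (WithLp.ofLp y) k j = EYM.chr L.g k i j y := d4_chris hD hg h k i j hy
  rw [h1]
  ring

theorem ofE_mul (S T : EndF N) : Vale.Agent.P088.S.ofE (S * T) =
    Vale.Agent.P088.S.ofE S * Vale.Agent.P088.S.ofE T := by
  apply Vale.Agent.P088.S.toE_inj
  rw [Vale.Agent.P088.S.toE_mul, Vale.Agent.P088.S.toE_ofE, Vale.Agent.P088.S.toE_ofE,
    Vale.Agent.P088.S.toE_ofE]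

theorem ofE_neg (S : EndF N) : Vale.Agent.P088.S.ofE (-S) = -Vale.Agent.P088.S.ofE S := by
  apply Vale.Agent.P088.S.toE_inj
  rw [Vale.Agent.P088.S.toE_neg, Vale.Agent.P088.S.toE_ofE, Vale.Agent.P088.S.toE_ofE]

theorem ofE_adj (S : EndF N) : Vale.Agent.P088.S.ofE (ContinuousLinearMap.adjoint S) =
    (Vale.Agent.P088.S.ofE S)ᴴ := by
  apply Vale.Agent.P088.S.toE_inj
  rw [Vale.Agent.P088.S.toE_star, Vale.Agent.P088.S.toE_ofE, Vale.Agent.P088.S.toE_ofE]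

theorem seg_of_par (hD : RelOpen D) (hg : ∀ i j, ContDiffOn ℝ ∞ (fun x => L.g x i j) D)
    (hg' : ∀ z ∈ D, g' (WithLp.ofLp z) = L.g z)
    (hA : ∀ j, ∀ z ∈ D, Vale.Agent.P088.S.toE (A j (WithLp.ofLp z)) = L.B j z)
    (hh : ∀ z ∈ D, L.h z = 1) {O : Set (V n)} {D' : Set (EYM.E n)} (hD' : D' ⊆ D)
    (hO : ∀ z ∈ D', WithLp.ofLp z ∈ O)
    {ℓ : ℝ} {γ w : ℝ → EYM.E n} {e : Fin n → ℝ → EYM.E n} {σ : ℝ → EndF N}
    (hp : Par L D' ℓ γ w e σ) :
    Seg g' A O ℓ (fun s => WithLp.ofLp (γ s)) (fun s => WithLp.ofLp (w s))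
      (fun a s => WithLp.ofLp (e a s)) (fun s => Vale.Agent.P088.S.ofE (σ s)) where
  mem s hs := hO _ (hp.mem s hs)
  dγ s hs := hd_ofLp (hp.dγ s hs)
  dw s hs := by
    have h1 := hd_ofLp (hp.dw s hs)
    rw [lc_chv hD hg hg' (hD' (hp.mem s hs))]
    exact h1
  de s hs a := by
    have h1 := hd_ofLp (hp.de s hs a)
    rw [lc_chv hD hg hg' (hD' (hp.mem s hs))]
    exact h1
  dσ s hs k l := by
    have h1 := hd_ofE (hp.dσ s hs) k l
    have h2 : Vale.Agent.P088.S.ofE (-(Bv L.B (γ s) (w s) * σ s)) =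
        -((∑ i, (WithLp.ofLp (w s)) i • A i (WithLp.ofLp (γ s))) *
          Vale.Agent.P088.S.ofE (σ s)) := by
      apply Vale.Agent.P088.S.toE_inj
      rw [Vale.Agent.P088.S.toE_ofE, Vale.Agent.P088.S.toE_neg, Vale.Agent.P088.S.toE_mul,
        Vale.Agent.P088.S.toE_ofE]
      congr 2
      unfold Bv
      rw [brEq_toE_fsum]
      refine Finset.sum_congr rfl fun i _ => ?_
      rw [brEq_toE_rsmul, hA i _ (hD' (hp.mem s hs))]
    rw [h2] at h1
    exact h1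
  on s hs a b := by
    rw [← hp.on s hs a b]
    unfold gv
    simp only [Matrix.mulVec, dotProduct, hg' _ (hD' (hp.mem s hs)), Finset.mul_sum]
    refine Finset.sum_congr rfl fun i _ => Finset.sum_congr rfl fun j _ => ?_
    ring
  un s hs := by
    have h1 := hp.un s hs
    rw [hh _ (hD' (hp.mem s hs)), mul_one] at h1
    apply Vale.Agent.P088.S.toE_inj
    rw [Vale.Agent.P088.S.toE_mul, Vale.Agent.P088.S.toE_star, Vale.Agent.P088.S.toE_ofE,
      Vale.Agent.P088.S.toE_one]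
    exact h1

theorem rmv_seg (hD : RelOpen D) (hg : ∀ i j, ContDiffOn ℝ ∞ (fun x => L.g x i j) D)
    (hpd : ∀ x ∈ D, (L.g x).PosDef) (hg' : ∀ z ∈ D, g' (WithLp.ofLp z) = L.g z)
    {y : EYM.E n} (hy : y ∈ D) (a b c d : EYM.E n) :
    ∑ i, ∑ j, (WithLp.ofLp a) i * (WithLp.ofLp b) j *
      (WithLp.ofLp c ⬝ᵥ Rm g' i j (WithLp.ofLp y) *ᵥ WithLp.ofLp d) = rmv L.g y a b c d := by
  unfold rmv
  refine Finset.sum_congr rfl fun i _ => Finset.sum_congr rfl fun j _ => ?_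
  simp only [Matrix.mulVec, dotProduct, Finset.mul_sum]
  refine Finset.sum_congr rfl fun k _ => Finset.sum_congr rfl fun m _ => ?_
  rw [d4_rm hD hg hpd hg' i j k m hy]
  ring

theorem curv2_seg (hD : RelOpen D) (hB : ∀ j, ContDiffOn ℝ ∞ (L.B j) D)
    (hA : ∀ j, ∀ z ∈ D, Vale.Agent.P088.S.toE (A j (WithLp.ofLp z)) = L.B j z)
    {y : EYM.E n} (hy : y ∈ D) (a b : EYM.E n) :
    Vale.Agent.P088.S.toE (∑ i, ∑ j, ((WithLp.ofLp a) i * (WithLp.ofLp b) j) •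
      curv A i j (WithLp.ofLp y)) = curv2 L.B y a b := by
  unfold curv2
  rw [brEq_toE_fsum]
  refine Finset.sum_congr rfl fun i _ => ?_
  rw [brEq_toE_fsum]
  refine Finset.sum_congr rfl fun j _ => ?_
  rw [brEq_toE_rsmul, d4_cur hD hB hA i j hy]

end Local

variable {M : Type u} [TopologicalSpace M] [ChartedSpace (EuclideanHalfSpace n) M]
  [IsManifold (𝓡∂ n) ∞ M]

/-- Quasi-analytic pairs, from the concrete to the abstract form. -/
theorem bridgeQ {𝒬 : ℝ → (ℝ → ℂ) → Prop} {W : Set M} {P : Pair (at_ n M) N}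
    (h : QOn 𝒬 W P) (p : M) :
    QEq 𝒬 (locM (Vale.Agent.P088.S.gOf (conv P)) (Vale.Agent.P088.S.connOf (conv P)) p)
      (tg n p ∩ (xc n p).symm ⁻¹' W) := by
  set L := locM (Vale.Agent.P088.S.gOf (conv P)) (Vale.Agent.P088.S.connOf (conv P)) p with hL
  have hD := Vale.Agent.P088.S.brEq_relOpen (n := n) p
  have hsrc : ∀ z ∈ tg n p, (extChartAt (𝓡∂ n) p).symm z ∈ Vale.Agent.P088.S.src n p := by
    intro z hz
    rw [Vale.Agent.P088.S.src_eq]
    exact (extChartAt (𝓡∂ n) p).map_target hz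
  have hgs : ∀ i j, ContDiffOn ℝ ∞ (fun x => L.g x i j) (tg n p) :=
    fun i j => contDiffOn_gram (Vale.Agent.P088.S.gOf (conv P)) p i j
  have hgp : ∀ z ∈ tg n p, (L.g z).PosDef :=
    fun z hz => gram_posDef (Vale.Agent.P088.S.gOf (conv P)) ((extChartAt (𝓡∂ n) p).map_target hz)
  have hBs : ∀ j, ContDiffOn ℝ ∞ (L.B j) (tg n p) := fun i =>
    contDiffOn_lu_of_contMDiffOn
      (u := fun x => (Vale.Agent.P088.S.connOf (conv P)).form x (coordVec (𝓡∂ n) p x i))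
      ((Vale.Agent.P088.S.connOf (conv P)).smooth p i)
  have hgB : gch (at_ n M) P.g p = Vale.Agent.P088.S.gch (conv P) p := by
    funext y
    exact at_gch P.g p y
  have hAB : ach (at_ n M) P.A p = Vale.Agent.P088.S.ach (conv P) p := by
    funext j y
    exact at_ach P.A p j y
  have hg' : ∀ z ∈ tg n p, Vale.Agent.P088.S.gch (conv P) p (WithLp.ofLp z) = L.g z := by
    intro z hz
    show Vale.Agent.P088.S.inChart n (conv P).mat p (Vale.Agent.P088.S.pt n p (WithLp.ofLp z)) =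
      gram (Vale.Agent.P088.S.gOf (conv P)) p ((extChartAt (𝓡∂ n) p).symm z)
    rw [Vale.Agent.P088.S.pt_eq hz, Vale.Agent.P088.S.gram_gOf (conv P) (hsrc z hz)]
  have hB' : ∀ j, ∀ z ∈ tg n p, Vale.Agent.P088.S.toE
      (Vale.Agent.P088.S.ach (conv P) p j (WithLp.ofLp z)) = L.B j z := by
    intro j z hz
    show Vale.Agent.P088.S.toE (∑ i, Vale.Agent.P088.S.jac n p
        (Vale.Agent.P088.S.pt n p (WithLp.ofLp z)) i j •
        (conv P).co (Vale.Agent.P088.S.pt n p (WithLp.ofLp z)) i) =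
      Vale.Agent.P088.S.formOf ((conv P).co ((extChartAt (𝓡∂ n) p).symm z))
        (cc (𝓡∂ n) p ((extChartAt (𝓡∂ n) p).symm z) (es n j))
    rw [Vale.Agent.P088.S.pt_eq hz, Vale.Agent.P088.S.formOf_apply, Vale.Agent.P088.S.toE_rsum]
    simp only [Vale.Agent.P088.S.jac_eq (hsrc z hz)]
  have hpt : ∀ y ∈ tg n p, (at_ n M).ch p ((extChartAt (𝓡∂ n) p).symm y) = WithLp.ofLp y := by
    intro y hy
    show Vale.Agent.P088.S.ch n p ((extChartAt (𝓡∂ n) p).symm y) = WithLp.ofLp y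
    rw [Vale.Agent.P088.S.ch_eq, (extChartAt (𝓡∂ n) p).right_inv hy]
  have hO : ∀ z ∈ tg n p ∩ (xc n p).symm ⁻¹' W,
      WithLp.ofLp z ∈ (at_ n M).ch p '' ((at_ n M).src p ∩ W) := by
    rintro z ⟨hz1, hz2⟩
    exact ⟨(extChartAt (𝓡∂ n) p).symm z, ⟨hsrc z hz1, hz2⟩, hpt z hz1⟩
  have hh : ∀ z ∈ tg n p, L.h z = 1 := fun _ _ => rfl
  have key : ∀ (ℓ : ℝ) (γ w : ℝ → EYM.E n) (e : Fin n → ℝ → EYM.E n) (σ : ℝ → EndF N), 0 < ℓ →
      Par L (tg n p ∩ (xc n p).symm ⁻¹' W) ℓ γ w e σ → ∀ a b : Fin n,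
      (∀ c d : Fin n, InQ 𝒬 ℓ fun s => (rmv L.g (γ s) (e a s) (e b s) (e c s) (e d s) : ℂ)) ∧
      ∀ k l : Fin N, InQ 𝒬 ℓ fun s => (ContinuousLinearMap.adjoint (σ s) * L.h (γ s) *
        curv2 L.B (γ s) (e a s) (e b s) * σ s) (EuclideanSpace.single l (1 : ℂ)) k := by
    intro ℓ γ w e σ hℓ hp a b
    have h1 := seg_of_par (A := Vale.Agent.P088.S.ach (conv P) p) hD hgs hg' hB' hh
      inter_subset_left hO hp
    rw [← hgB, ← hAB] at h1
    obtain ⟨h2, h3⟩ := h p ℓ _ _ _ _ hℓ h1 a b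
    refine ⟨fun c d => ?_, fun k l => ?_⟩
    · obtain ⟨q, hq, hqe⟩ := h2 c d
      refine ⟨q, hq, fun s hs => ?_⟩
      rw [hqe s hs, hgB, rmv_seg hD hgs hgp hg' (hp.mem s hs).1]
    · obtain ⟨q, hq, hqe⟩ := h3 k l
      refine ⟨q, hq, fun s hs => ?_⟩
      have hy := (hp.mem s hs).1
      rw [hqe s hs, hAB]
      have e1 : L.h (γ s) = 1 := rfl
      show _ = Vale.Agent.P088.S.ofE (ContinuousLinearMap.adjoint (σ s) * L.h (γ s) *
        curv2 L.B (γ s) (e a s) (e b s) * σ s) k l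
      rw [e1, mul_one, ofE_mul, ofE_mul, ofE_adj, ← curv2_seg hD hBs hB' hy,
        Vale.Agent.P088.S.ofE_toE]
  exact ⟨fun ℓ γ w e σ hℓ hp a b c d => (key ℓ γ w e σ hℓ hp a b).1 c d,
    fun ℓ γ w e σ hℓ hp a b k l => (key ℓ γ w e σ hℓ hp a b).2 k l⟩

end Vale.Agent.P088.R2.H455
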