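import Vale.Agent.P088.R2.H455.Jac

/-!
# P088, quasi-analytic class: two flows with the same curvature in parallel frames
-/

open Set Filter Topology Metric
open scoped ContDiff

set_option linter.all false

noncomputable section

namespace Vale.Agent.P088.R2.H455

open Vale.Agent.P219.RG

section Gen

variable {E W : Type} [NormedAddCommGroup E] [NormedSpace ℝ E] [NormedAddCommGroup W]
  [NormedSpace ℝ W]

/-- the closed half ball has unique derivatives -/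
theorem uniqueDiff_half {l : E →L[ℝ] ℝ} {ν : E} (hν : l ν = 1) {δ : ℝ} {y : E}
    (hy : y ∈ ball (0 : E) δ) (hl : l y ≤ 0) :
    UniqueDiffWithinAt ℝ ({z : E | l z ≤ 0} ∩ ball 0 δ) y := by
  have h1 : UniqueDiffOn ℝ {z : E | l z ≤ 0} := by
    refine uniqueDiffOn_convex ((convex_Iic (0 : ℝ)).is_linear_preimage l.isLinear) ⟨-ν, ?_⟩
    refine interior_maximal (s := {z : E | l z ≤ 0}) (t := {z : E | l z < 0})
      (fun z (hz : l z < 0) => hz.le) (isOpen_lt l.continuous continuous_const) ?_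
    show l (-ν) < 0
    rw [map_neg, hν]; norm_num
  exact (h1 y hl).inter (isOpen_ball.mem_nhds hy)

theorem fderiv_eq_half {l : E →L[ℝ] ℝ} {ν : E} (hν : l ν = 1) {δ : ℝ} {y : E}
    (hy : y ∈ ball (0 : E) δ) (hl : l y ≤ 0) {f g : E → W} (hf : DifferentiableAt ℝ f y)
    (hg : DifferentiableAt ℝ g y) (h : ∀ z ∈ ball (0 : E) δ, l z ≤ 0 → f z = g z) :
    fderiv ℝ f y = fderiv ℝ g y := by
  have hu := uniqueDiff_half hν hy hl
  have h1 : HasFDerivWithinAt f (fderiv ℝ f y) ({z : E | l z ≤ 0} ∩ ball 0 δ) y :=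
    hf.hasFDerivAt.hasFDerivWithinAt
  have h2 : HasFDerivWithinAt f (fderiv ℝ g y) ({z : E | l z ≤ 0} ∩ ball 0 δ) y :=
    hg.hasFDerivAt.hasFDerivWithinAt.congr (fun z hz => h z hz.2 hz.1) (h y hy hl)
  exact hu.eq h1 h2

/-- a function with derivative zero along the line is constant in the ball -/
theorem const_line {ν y₀ : E} {δ : ℝ} {f : E → W}
    (h : ∀ t : ℝ, y₀ + t • ν ∈ ball (0 : E) δ → HasDerivAt (fun t : ℝ => f (y₀ + t • ν)) 0 t)
    (h0 : y₀ ∈ ball (0 : E) δ) {s : ℝ} (hs : y₀ + s • ν ∈ ball (0 : E) δ) :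
    f (y₀ + s • ν) = f y₀ := by
  have hc : Convex ℝ {t : ℝ | y₀ + t • ν ∈ ball (0 : E) δ} := by
    have : {t : ℝ | y₀ + t • ν ∈ ball (0 : E) δ} =
        (AffineMap.lineMap y₀ (y₀ + ν) : ℝ →ᵃ[ℝ] E) ⁻¹' ball (0 : E) δ := by
      ext t
      simp [AffineMap.lineMap_apply, add_comm]
    rw [this]
    exact (convex_ball (0 : E) δ).affine_preimage _
  have h1 := hc.norm_image_sub_le_of_norm_hasDerivWithin_le (f := fun t : ℝ => f (y₀ + t • ν))
    (f' := fun _ => 0) (C := 0) (x := 0) (y := s) (fun t ht => (h t ht).hasDerivWithinAt)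
    (fun t _ => by simp) (by show y₀ + (0 : ℝ) • ν ∈ ball (0 : E) δ; rwa [zero_smul, add_zero]) hs
  simp only [zero_mul, zero_smul, add_zero] at h1
  exact sub_eq_zero.1 (norm_le_zero_iff.1 h1)

end Gen

variable {E : Type} [NormedAddCommGroup E] [NormedSpace ℝ E] [FiniteDimensional ℝ E]
variable {A : Type} [NormedRing A] [NormedAlgebra ℝ A] [FiniteDimensional ℝ A]
variable {G G₁ G₂ : E → E →L[ℝ] E →L[ℝ] ℝ} {B B₁ B₂ : E → E →L[ℝ] A} {U U₁ U₂ : Set E}
  {l : E →L[ℝ] ℝ} {ν : E} {σ : E → E} {δ : ℝ} {S S₁ S₂ : E → St E A}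

theorem proj_ball (hπ : ∀ y : E, ‖y - l y • ν‖ ≤ ‖y‖) {y : E} (hy : y ∈ ball (0 : E) δ) :
    y - l y • ν ∈ ball (0 : E) δ := by
  rw [mem_ball_zero_iff] at hy ⊢
  exact (hπ y).trans_lt hy

theorem proj_zero (hν : l ν = 1) (y : E) : l (y - l y • ν) = 0 := by
  rw [map_sub, map_smul, hν, smul_eq_mul, mul_one, sub_self]

theorem proj_add (y : E) : (y - l y • ν) + l y • ν = y := sub_add_cancel _ _

/-- points between the projection and `y` are in the ball -/
theorem seg_ball (hπ : ∀ y : E, ‖y - l y • ν‖ ≤ ‖y‖) {y : E} (hy : y ∈ ball (0 : E) δ) {t : ℝ}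
    (ht : t ∈ Icc 0 (l y) ∨ t ∈ Icc (l y) 0) : (y - l y • ν) + t • ν ∈ ball (0 : E) δ := by
  have hc := convex_ball (0 : E) δ
  have h1 := proj_ball hπ hy
  by_cases h0 : l y = 0
  · have : t = 0 := by
      rcases ht with h | h
      · exact le_antisymm (h0 ▸ h.2) h.1
      · exact le_antisymm h.2 (h0 ▸ h.1)
    rw [this, zero_smul, add_zero]; exact h1
  have h2 : (y - l y • ν) + t • ν = (1 - t / l y) • (y - l y • ν) + (t / l y) • y := by
    have e : t • ν = (t / l y) • (l y • ν) := by rw [smul_smul, div_mul_cancel₀ _ h0]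
    rw [e, sub_smul, one_smul]
    module
  rw [h2]
  have h3 : 0 ≤ t / l y ∧ t / l y ≤ 1 := by
    rcases ht with h | h
    · have : 0 < l y := lt_of_le_of_ne (h.1.trans h.2) (Ne.symm h0)
      exact ⟨div_nonneg h.1 this.le, (div_le_one this).2 h.2⟩
    · have : l y < 0 := lt_of_le_of_ne (h.1.trans h.2) h0
      exact ⟨div_nonneg_of_nonpos h.2 this.le, (div_le_one_of_neg this).2 h.1⟩
  exact hc h1 hy (sub_nonneg.2 h3.2) h3.1 (by ring)

omit [FiniteDimensional ℝ E] in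
theorem unit_inv {T : E →L[ℝ] E} (hT : IsUnit T) (w : E) : T (Ring.inverse T w) = w := by
  have h := Ring.mul_inverse_cancel T hT
  exact congrArg (fun L : E →L[ℝ] E => L w) h

omit [FiniteDimensional ℝ E] in
theorem inv_unit {T : E →L[ℝ] E} (hT : IsUnit T) (w : E) : Ring.inverse T (T w) = w := by
  have h := Ring.inverse_mul_cancel T hT
  exact congrArg (fun L : E →L[ℝ] E => L w) h

namespace Sys

/-- the velocity in the parallel frame is `ν` -/
theorem vel (h : Sys G B U l ν σ δ S) (hν : l ν = 1) (hπ : ∀ y : E, ‖y - l y • ν‖ ≤ ‖y‖) {y : E}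
    (hy : y ∈ ball (0 : E) δ) : (S y).2.2.1 ν = (S y).2.1 := by
  have h0 := proj_ball hπ hy
  have h1 := const_line (f := fun z => Ring.inverse (S z).2.2.1 (S z).2.1) (ν := ν)
    (fun t ht => h.hasDerivAt_vel ht) h0 (s := l y) (by rw [proj_add]; exact hy)
  rw [proj_add] at h1
  have h2 := h.ini _ h0 (proj_zero hν y)
  rw [h2] at h1
  simp only [Ring.inverse_one, one_apply_eq_self] at h1
  have h3 := unit_inv (h.unT y hy) (S y).2.1
  rw [h1] at h3
  exact h3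

end Sys

theorem continuousAt_curvOp (h : IsMetricOn G U) {c y : ℝ → E} {t : ℝ} (ht : c t ∈ U)
    (hc : ContinuousAt c t) (hy : ContinuousAt y t) :
    ContinuousAt (fun s => curvOp G (c s) (y s)) t := by
  have h1 : ContinuousAt (fun s => chrisB G (c s)) t :=
    ContinuousAt.comp (g := chrisB G) (h.contDiffAt_chrisB ht).continuousAt hc
  have h2 : ContinuousAt (fun s => fderiv ℝ (chrisB G) (c s)) t :=
    ContinuousAt.comp (g := fderiv ℝ (chrisB G))
      ((h.contDiffAt_chrisB ht).fderiv_right (m := 0) (by simp)).continuousAt hc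
  have h3 : ContinuousAt (fun s => chrisB G (c s) (y s)) t := h1.clm_apply hy
  have h4 : ContinuousAt (fun s => chrisB G (c s) (y s) (y s)) t := h3.clm_apply hy
  have h5 : ContinuousAt (fun s => (chrisB G (c s)).flip) t :=
    (ContinuousLinearMap.flipₗᵢ ℝ E E E).continuous.continuousAt.comp h1
  have h6 : ContinuousAt (fun s => (fderiv ℝ (chrisB G) (c s)).flip) t :=
    (ContinuousLinearMap.flipₗᵢ ℝ E E (E →L[ℝ] E)).continuous.continuousAt.comp h2
  have h7 : ContinuousAt (fun s => ((fderiv ℝ (chrisB G) (c s)).flip (y s)).flip) t :=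
    (ContinuousLinearMap.flipₗᵢ ℝ E E E).continuous.continuousAt.comp (h6.clm_apply hy)
  have h8 : ContinuousAt (fun s => (fderiv ℝ (chrisB G) (c s) (y s)).flip) t :=
    (ContinuousLinearMap.flipₗᵢ ℝ E E E).continuous.continuousAt.comp (h2.clm_apply hy)
  unfold curvOp
  exact (((h7.clm_apply hy).sub (h8.clm_apply hy)).add (h5.clm_apply h4)).sub
    (h3.clm_comp (h5.clm_apply hy))

/-- the curvature operator in the parallel frame -/
def opR (G : E → E →L[ℝ] E →L[ℝ] ℝ) (S : E → St E A) (ν y : E) : E →L[ℝ] E :=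
  (Ring.inverse (S y).2.2.1).comp ((curvOp G (S y).1 (S y).2.1).comp (S y).2.2.1)

theorem Sys.opR_apply (h : Sys G B U l ν σ δ S) (hG : IsMetricOn G U) (hν : l ν = 1)
    (hπ : ∀ y : E, ‖y - l y • ν‖ ≤ ‖y‖) {y : E} (hy : y ∈ ball (0 : E) δ) (w : E) :
    opR G S ν y w = hatR G S y w ν ν := by
  unfold opR hatR
  rw [ContinuousLinearMap.comp_apply, ContinuousLinearMap.comp_apply,
    hG.curvOp_apply (h.mem y hy), h.vel hν hπ hy]

theorem Sys.cont_opR (h : Sys G B U l ν σ δ S) (hG : IsMetricOn G U) {y₀ : E} {t : ℝ}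
    (ht : y₀ + t • ν ∈ ball (0 : E) δ) :
    ContinuousAt (fun s : ℝ => opR G S ν (y₀ + s • ν)) t := by
  have h3 := (h.l3 ht).continuousAt
  have hi := (hasDerivAt_inv (h.l3 ht) (h.unT _ ht)).continuousAt
  have hc := continuousAt_curvOp hG (c := fun s : ℝ => (S (y₀ + s • ν)).1)
    (y := fun s : ℝ => (S (y₀ + s • ν)).2.1) (h.mem _ ht) (h.l1 ht).continuousAt
    (h.l2 ht).continuousAt
  exact hi.clm_comp (hc.clm_comp h3)

/-- The comparison: two flows which agree for `l ≤ 0` and have the same curvature in the parallel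
frames for `l ≥ 0`. -/
theorem compare (h₁ : Sys G₁ B₁ U₁ l ν σ δ S₁) (h₂ : Sys G₂ B₂ U₂ l ν σ δ S₂)
    (hG₁ : IsMetricOn G₁ U₁) (hG₂ : IsMetricOn G₂ U₂) (hν : l ν = 1)
    (hπ : ∀ y : E, ‖y - l y • ν‖ ≤ ‖y‖)
    (hneg : ∀ y ∈ ball (0 : E) δ, l y ≤ 0 → S₁ y = S₂ y)
    (hR : ∀ y ∈ ball (0 : E) δ, 0 ≤ l y → ∀ a b c, hatR G₁ S₁ y a b c = hatR G₂ S₂ y a b c)
    (hB0 : ∀ y ∈ ball (0 : E) δ, l y = 0 → chrisB G₁ (S₁ y).1 = chrisB G₂ (S₂ y).1)
    {y : E} (hy : y ∈ ball (0 : E) δ) (hl : 0 ≤ l y) (η : E) : ja S₁ y η = ja S₂ y η := by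
  have hCE : CompleteSpace E := FiniteDimensional.complete ℝ E
  set y₀ := y - l y • ν with hy₀
  have h0 : y₀ ∈ ball (0 : E) δ := proj_ball hπ hy
  have hl0 : l y₀ = 0 := proj_zero hν y
  have hseg : ∀ t ∈ Icc 0 (l y), y₀ + t • ν ∈ ball (0 : E) δ := fun t ht =>
    seg_ball hπ hy (Or.inl ht)
  have hlt : ∀ t : ℝ, l (y₀ + t • ν) = t := by
    intro t
    rw [map_add, map_smul, hν, smul_eq_mul, mul_one, hl0, zero_add]
  -- the values at time zero
  have eS : S₁ y₀ = S₂ y₀ := hneg y₀ h0 hl0.le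
  have e1 : fderiv ℝ (fun z => (S₁ z).1) y₀ = fderiv ℝ (fun z => (S₂ z).1) y₀ :=
    fderiv_eq_half hν h0 hl0.le (h₁.df h0).fst (h₂.df h0).fst
      (fun z hz hlz => by rw [hneg z hz hlz])
  have e2 : fderiv ℝ (fun z => (S₁ z).2.1) y₀ = fderiv ℝ (fun z => (S₂ z).2.1) y₀ :=
    fderiv_eq_half hν h0 hl0.le (h₁.df h0).snd.fst (h₂.df h0).snd.fst
      (fun z hz hlz => by rw [hneg z hz hlz])
  set f : ℝ → E × E := fun t => (ja S₁ (y₀ + t • ν) η - ja S₂ (y₀ + t • ν) η,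
    jb G₁ S₁ (y₀ + t • ν) η - jb G₂ S₂ (y₀ + t • ν) η) with hf
  set f' : ℝ → E × E := fun t => (jb G₁ S₁ (y₀ + t • ν) η - jb G₂ S₂ (y₀ + t • ν) η,
    -opR G₁ S₁ ν (y₀ + t • ν) (ja S₁ (y₀ + t • ν) η - ja S₂ (y₀ + t • ν) η)) with hf'
  have hjac : ∀ {G : E → E →L[ℝ] E →L[ℝ] ℝ} {B : E → E →L[ℝ] A} {U : Set E} {S : E → St E A},
      Sys G B U l ν σ δ S → ∀ t : ℝ, y₀ + t • ν ∈ ball (0 : E) δ →
      -Ring.inverse (S (y₀ + t • ν)).2.2.1 (curv G (S (y₀ + t • ν)).1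
        (fderiv ℝ (fun z => (S z).1) (y₀ + t • ν) η) (S (y₀ + t • ν)).2.1
          (S (y₀ + t • ν)).2.1) = -hatR G S (y₀ + t • ν) (ja S (y₀ + t • ν) η) ν ν := by
    intro G B U S h t ht
    unfold hatR ja
    rw [h.vel hν hπ ht, unit_inv (h.unT _ ht)]
  have hder : ∀ t ∈ Icc 0 (l y), HasDerivAt f (f' t) t := by
    intro t ht
    have hb := hseg t ht
    refine HasDerivAt.prodMk ((h₁.hasDerivAt_ja hb η).sub (h₂.hasDerivAt_ja hb η)) ?_
    refine ((h₁.hasDerivAt_jb hG₁ hb η).sub (h₂.hasDerivAt_jb hG₂ hb η)).congr_deriv ?_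
    rw [hjac h₁ t hb, hjac h₂ t hb, ← hR _ hb (by rw [hlt]; exact ht.1), map_sub,
      h₁.opR_apply hG₁ hν hπ hb, h₁.opR_apply hG₁ hν hπ hb]
    abel
  have hK : ∃ K : ℝ, ∀ t ∈ Icc 0 (l y), ‖opR G₁ S₁ ν (y₀ + t • ν)‖ ≤ K :=
    isCompact_Icc.exists_bound_of_continuousOn fun t ht =>
      (h₁.cont_opR hG₁ (hseg t ht)).continuousWithinAt
  obtain ⟨K, hK⟩ := hK
  have hz := eq_zero_of_abs_deriv_le_mul_abs_self_of_eq_zero_right (f := f) (f' := f')
    (K := max 1 K) (a := 0) (b := l y) (fun t ht => (hder t ht).continuousAt.continuousWithinAt)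
    (fun t ht => (hder t (Ico_subset_Icc_self ht)).hasDerivWithinAt)
    (by
      simp only [hf, zero_smul, add_zero]
      have k1 : ja S₁ y₀ η = ja S₂ y₀ η := by unfold ja; rw [eS, e1]
      have k2 : jb G₁ S₁ y₀ η = jb G₂ S₂ y₀ η := by
        have k3 := hB0 y₀ h0 hl0
        unfold jb
        rw [e1, e2, k3, eS]
      rw [k1, k2, sub_self, sub_self]; rfl)
    (by
      intro t ht
      have ht' := Ico_subset_Icc_self ht
      rw [Prod.norm_def, Prod.norm_def]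
      simp only [hf, hf', norm_neg]
      have m1 : ‖opR G₁ S₁ ν (y₀ + t • ν) (ja S₁ (y₀ + t • ν) η - ja S₂ (y₀ + t • ν) η)‖ ≤
          K * ‖ja S₁ (y₀ + t • ν) η - ja S₂ (y₀ + t • ν) η‖ :=
        (ContinuousLinearMap.le_opNorm _ _).trans
          (mul_le_mul_of_nonneg_right (hK t ht') (norm_nonneg _))
      have m2 : 0 ≤ max ‖ja S₁ (y₀ + t • ν) η - ja S₂ (y₀ + t • ν) η‖
          ‖jb G₁ S₁ (y₀ + t • ν) η - jb G₂ S₂ (y₀ + t • ν) η‖ :=
        (norm_nonneg _).trans (le_max_left _ _)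
      refine max_le ?_ (m1.trans ?_)
      · have m3 : ‖jb G₁ S₁ (y₀ + t • ν) η - jb G₂ S₂ (y₀ + t • ν) η‖ ≤
            1 * max ‖ja S₁ (y₀ + t • ν) η - ja S₂ (y₀ + t • ν) η‖
              ‖jb G₁ S₁ (y₀ + t • ν) η - jb G₂ S₂ (y₀ + t • ν) η‖ := by
          rw [one_mul]
          exact le_max_right _ _
        exact m3.trans (mul_le_mul_of_nonneg_right (le_max_left _ _) m2)
      · have hK0 : 0 ≤ K := (norm_nonneg _).trans (hK t ht')
        exact mul_le_mul (le_max_right _ _) (le_max_left _ _) (norm_nonneg _)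
          (le_max_of_le_right hK0))
    (l y) ⟨hl, le_rfl⟩
  have hz1 : ja S₁ (y₀ + l y • ν) η - ja S₂ (y₀ + l y • ν) η = 0 := congrArg Prod.fst hz
  rw [hy₀, proj_add] at hz1
  exact sub_eq_zero.1 hz1

end Vale.Agent.P088.R2.H455
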