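import Vale.Agent.P088.R2.H455.Cmp

/-!
# P088, quasi-analytic class: comparison of the metrics, of the connections and of the Hermitian
forms
-/

open Set Filter Topology Metric
open scoped ContDiff

set_option linter.all false

noncomputable section

namespace Vale.Agent.P088.R2.H455

open Vale.Agent.P219.RG

variable {E : Type} [NormedAddCommGroup E] [NormedSpace ℝ E] [FiniteDimensional ℝ E]
variable {A : Type} [NormedRing A] [NormedAlgebra ℝ A] [FiniteDimensional ℝ A]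
variable {G G₁ G₂ : E → E →L[ℝ] E →L[ℝ] ℝ} {B B₁ B₂ : E → E →L[ℝ] A} {U U₁ U₂ : Set E}
  {l : E →L[ℝ] ℝ} {ν : E} {σ : E → E} {δ : ℝ} {S S₁ S₂ : E → St E A}

/-- a function with derivative zero on a segment is constant -/
theorem const_seg {W : Type} [NormedAddCommGroup W] [NormedSpace ℝ W] {f : ℝ → W} {a : ℝ}
    (ha : 0 ≤ a) (h : ∀ t ∈ Icc 0 a, HasDerivAt f 0 t) : f a = f 0 := by
  have h1 := (convex_Icc (0 : ℝ) a).norm_image_sub_le_of_norm_hasDerivWithin_le (f := f)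
    (f' := fun _ => 0) (C := 0) (x := 0) (y := a) (fun t ht => (h t ht).hasDerivWithinAt)
    (fun t _ => by simp) ⟨le_rfl, ha⟩ ⟨ha, le_rfl⟩
  simp only [zero_mul] at h1
  exact sub_eq_zero.1 (norm_le_zero_iff.1 h1)

/-- comparison of the connections -/
theorem compareW (h₁ : Sys G₁ B₁ U₁ l ν σ δ S₁) (h₂ : Sys G₂ B₂ U₂ l ν σ δ S₂)
    (hU₁ : IsOpen U₁) (hU₂ : IsOpen U₂) (hB₁ : ContDiffOn ℝ ∞ B₁ U₁)
    (hB₂ : ContDiffOn ℝ ∞ B₂ U₂) (hν : l ν = 1)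
    (hπ : ∀ y : E, ‖y - l y • ν‖ ≤ ‖y‖)
    (hneg : ∀ y ∈ ball (0 : E) δ, l y ≤ 0 → S₁ y = S₂ y)
    (hF : ∀ y ∈ ball (0 : E) δ, 0 ≤ l y → ∀ a b, hatF B₁ S₁ y a b = hatF B₂ S₂ y a b)
    (hja : ∀ y ∈ ball (0 : E) δ, 0 ≤ l y → ∀ η, ja S₁ y η = ja S₂ y η)
    (hB0 : ∀ y ∈ ball (0 : E) δ, l y = 0 → B₁ (S₁ y).1 = B₂ (S₂ y).1)
    {y : E} (hy : y ∈ ball (0 : E) δ) (hl : 0 ≤ l y) (η : E) : jw B₁ S₁ y η = jw B₂ S₂ y η := by
  set y₀ := y - l y • ν with hy₀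
  have h0 : y₀ ∈ ball (0 : E) δ := proj_ball hπ hy
  have hl0 : l y₀ = 0 := proj_zero hν y
  have hseg : ∀ t ∈ Icc 0 (l y), y₀ + t • ν ∈ ball (0 : E) δ := fun t ht =>
    seg_ball hπ hy (Or.inl ht)
  have hlt : ∀ t : ℝ, l (y₀ + t • ν) = t := by
    intro t
    rw [map_add, map_smul, hν, smul_eq_mul, mul_one, hl0, zero_add]
  have eS : S₁ y₀ = S₂ y₀ := hneg y₀ h0 hl0.le
  have e1 : fderiv ℝ (fun z => (S₁ z).1) y₀ = fderiv ℝ (fun z => (S₂ z).1) y₀ :=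
    fderiv_eq_half hν h0 hl0.le (h₁.df h0).fst (h₂.df h0).fst
      (fun z hz hlz => by rw [hneg z hz hlz])
  have e2 : fderiv ℝ (fun z => (S₁ z).2.2.2) y₀ = fderiv ℝ (fun z => (S₂ z).2.2.2) y₀ :=
    fderiv_eq_half hν h0 hl0.le (h₁.df h0).snd.snd.snd (h₂.df h0).snd.snd.snd
      (fun z hz hlz => by rw [hneg z hz hlz])
  have hw : ∀ {G : E → E →L[ℝ] E →L[ℝ] ℝ} {B : E → E →L[ℝ] A} {U : Set E} {S : E → St E A},
      Sys G B U l ν σ δ S → ∀ t : ℝ, y₀ + t • ν ∈ ball (0 : E) δ →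
      Ring.inverse (S (y₀ + t • ν)).2.2.2 * curvB B (S (y₀ + t • ν)).1 (S (y₀ + t • ν)).2.1
        (fderiv ℝ (fun z => (S z).1) (y₀ + t • ν) η) * (S (y₀ + t • ν)).2.2.2 =
        hatF B S (y₀ + t • ν) ν (ja S (y₀ + t • ν) η) := by
    intro G B U S h t ht
    unfold hatF ja
    rw [h.vel hν hπ ht, unit_inv (h.unT _ ht)]
  have hc := const_seg (f := fun t : ℝ => jw B₁ S₁ (y₀ + t • ν) η - jw B₂ S₂ (y₀ + t • ν) η) hl
    (fun t ht => by
      have hb := hseg t ht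
      have hlt' : 0 ≤ l (y₀ + t • ν) := by rw [hlt]; exact ht.1
      refine ((h₁.hasDerivAt_jw hU₁ hB₁ hb η).sub (h₂.hasDerivAt_jw hU₂ hB₂ hb η)).congr_deriv ?_
      rw [hw h₁ t hb, hw h₂ t hb, hja _ hb hlt', hF _ hb hlt', sub_self])
  simp only [zero_smul, add_zero] at hc
  have k0 : jw B₁ S₁ y₀ η = jw B₂ S₂ y₀ η := by
    have k3 := hB0 y₀ h0 hl0
    unfold jw
    rw [e1, e2, k3, eS]
  rw [k0, sub_self, hy₀, proj_add] at hc
  exact sub_eq_zero.1 hc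

/-- the Gram matrix of the parallel frame is constant -/
theorem Sys.gram (h : Sys G B U l ν σ δ S) (hG : IsMetricOn G U) (hν : l ν = 1)
    (hπ : ∀ y : E, ‖y - l y • ν‖ ≤ ‖y‖) {y : E} (hy : y ∈ ball (0 : E) δ) (a b : E) :
    G (S y).1 ((S y).2.2.1 a) ((S y).2.2.1 b) = G (σ (y - l y • ν)) a b := by
  have h0 := proj_ball hπ hy
  have h1 := const_line (f := fun z => G (S z).1 ((S z).2.2.1 a) ((S z).2.2.1 b)) (ν := ν)
    (fun t ht => by
      set x := (y - l y • ν) + t • ν with hx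
      have hu := h.mem _ ht
      have g1 : HasDerivAt (fun t : ℝ => G (S ((y - l y • ν) + t • ν)).1)
          (fderiv ℝ G (S x).1 (S x).2.1) t :=
        HasFDerivAt.comp_hasDerivAt (l := G) (f := fun t : ℝ => (S ((y - l y • ν) + t • ν)).1) t
          (hG.differentiableAt hu).hasFDerivAt (h.l1 ht)
      have t1 : ∀ c : E, HasDerivAt (fun t : ℝ => (S ((y - l y • ν) + t • ν)).2.2.1 c)
          (-(chrisB G (S x).1 (S x).2.1 ((S x).2.2.1 c))) t := by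
        intro c
        refine ((h.l3 ht).clm_apply (hasDerivAt_const t c)).congr_deriv ?_
        rw [map_zero, add_zero]
        rfl
      refine ((g1.clm_apply (t1 a)).clm_apply (t1 b)).congr_deriv ?_
      rw [ContinuousLinearMap.add_apply, hG.chris_compat hu]
      simp only [map_neg, ContinuousLinearMap.neg_apply, chrisB_apply]
      ring) h0 (s := l y) (by rw [proj_add]; exact hy)
  rw [proj_add] at h1
  have h2 := h.ini _ h0 (proj_zero hν y)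
  rw [h1, h2]
  rfl

/-- the differential of the flow is the parallel frame applied to `ja` -/
theorem Sys.dF_eq (h : Sys G B U l ν σ δ S) {y : E} (hy : y ∈ ball (0 : E) δ) (η : E) :
    fderiv ℝ (fun z => (S z).1) y η = (S y).2.2.1 (ja S y η) := (unit_inv (h.unT y hy) _).symm

/-- comparison of the pulled back metrics -/
theorem compareG (h₁ : Sys G₁ B₁ U₁ l ν σ δ S₁) (h₂ : Sys G₂ B₂ U₂ l ν σ δ S₂)
    (hG₁ : IsMetricOn G₁ U₁) (hG₂ : IsMetricOn G₂ U₂) (hν : l ν = 1)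
    (hπ : ∀ y : E, ‖y - l y • ν‖ ≤ ‖y‖)
    (hja : ∀ y ∈ ball (0 : E) δ, 0 ≤ l y → ∀ η, ja S₁ y η = ja S₂ y η)
    (hG0 : ∀ y ∈ ball (0 : E) δ, l y = 0 → G₁ (σ y) = G₂ (σ y))
    {y : E} (hy : y ∈ ball (0 : E) δ) (hl : 0 ≤ l y) (a b : E) :
    G₁ (S₁ y).1 (fderiv ℝ (fun z => (S₁ z).1) y a) (fderiv ℝ (fun z => (S₁ z).1) y b) =
      G₂ (S₂ y).1 (fderiv ℝ (fun z => (S₂ z).1) y a) (fderiv ℝ (fun z => (S₂ z).1) y b) := by
  rw [h₁.dF_eq hy, h₁.dF_eq hy, h₂.dF_eq hy, h₂.dF_eq hy, h₁.gram hG₁ hν hπ hy,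
    h₂.gram hG₂ hν hπ hy, hja y hy hl, hja y hy hl,
    hG0 _ (proj_ball hπ hy) (proj_zero hν y)]

section Herm

variable {adj : A →L[ℝ] A} {h : E → A}

/-- the Hermitian form in the parallel frame is constant where it is parallel -/
theorem Sys.herm (H : Sys G B U l ν σ δ S) (hadj : ∀ a b, adj (a * b) = adj b * adj a)
    (hadj1 : adj 1 = 1) (hν : l ν = 1) (hπ : ∀ y : E, ‖y - l y • ν‖ ≤ ‖y‖)
    (hd : ∀ y ∈ ball (0 : E) δ, 0 ≤ l y → DifferentiableAt ℝ h (S y).1 ∧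
      ∀ v, fderiv ℝ h (S y).1 v = adj (B (S y).1 v) * h (S y).1 + h (S y).1 * B (S y).1 v)
    {y : E} (hy : y ∈ ball (0 : E) δ) (hl : 0 ≤ l y) :
    adj (S y).2.2.2 * h (S y).1 * (S y).2.2.2 = h (σ (y - l y • ν)) := by
  set y₀ := y - l y • ν with hy₀
  have h0 : y₀ ∈ ball (0 : E) δ := proj_ball hπ hy
  have hl0 : l y₀ = 0 := proj_zero hν y
  have hlt : ∀ t : ℝ, l (y₀ + t • ν) = t := by
    intro t
    rw [map_add, map_smul, hν, smul_eq_mul, mul_one, hl0, zero_add]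
  have hc := const_seg (f := fun t : ℝ => adj (S (y₀ + t • ν)).2.2.2 * h (S (y₀ + t • ν)).1 *
      (S (y₀ + t • ν)).2.2.2) hl
    (fun t ht => by
      have hb : y₀ + t • ν ∈ ball (0 : E) δ := seg_ball hπ hy (Or.inl ht)
      obtain ⟨hd1, hd2⟩ := hd _ hb (by rw [hlt]; exact ht.1)
      set x := y₀ + t • ν with hx
      have g1 : HasDerivAt (fun t : ℝ => h (S (y₀ + t • ν)).1)
          (fderiv ℝ h (S x).1 (S x).2.1) t :=
        HasFDerivAt.comp_hasDerivAt (l := h) (f := fun t : ℝ => (S (y₀ + t • ν)).1) t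
          hd1.hasFDerivAt (H.l1 hb)
      have a1 : HasDerivAt (fun t : ℝ => adj (S (y₀ + t • ν)).2.2.2)
          (adj (-(B (S x).1 (S x).2.1 * (S x).2.2.2))) t :=
        HasFDerivAt.comp_hasDerivAt (l := adj) (f := fun t : ℝ => (S (y₀ + t • ν)).2.2.2) t
          adj.hasFDerivAt (H.l4 hb)
      refine ((a1.mul g1).mul (H.l4 hb)).congr_deriv ?_
      rw [hd2, map_neg, hadj]
      simp only [← hx, Pi.mul_apply]
      noncomm_ring)
  simp only [zero_smul, add_zero] at hc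
  rw [hy₀, proj_add] at hc
  rw [hc, ← hy₀, H.ini y₀ h0 hl0]
  simp only [hadj1, one_mul, mul_one]

end Herm

end Vale.Agent.P088.R2.H455
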