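import Vale.Agent.P088.R2.H455.Cmp2

/-!
# P088, quasi-analytic class: the two flows from a hypersurface on which the data agree
-/

open Set Filter Topology Metric
open scoped ContDiff

set_option linter.all false

noncomputable section

namespace Vale.Agent.P088.R2.H455

open Vale.Agent.P219.RG

variable {E : Type} [NormedAddCommGroup E] [NormedSpace ℝ E] [FiniteDimensional ℝ E]
variable {A : Type} [NormedRing A] [NormedAlgebra ℝ A] [FiniteDimensional ℝ A]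
variable {G G₁ G₂ : E → E →L[ℝ] E →L[ℝ] ℝ} {B B₁ B₂ : E → E →L[ℝ] A} {U U₁ U₂ : Set E}
  {l : E →L[ℝ] ℝ} {ν : E} {σ : E → E} {δ : ℝ} {S S₁ S₂ : E → St E A}

/-- `r` increases along the flow lines -/
theorem Sys.incr (h : Sys G B U l ν σ δ S) (hν : l ν = 1) (hπ : ∀ y : E, ‖y - l y • ν‖ ≤ ‖y‖)
    {r : E → ℝ} (hr : ContDiff ℝ 1 r) (hp : ∀ y ∈ ball (0 : E) δ, 0 < fderiv ℝ r (S y).1 (S y).2.1)
    {y : E} (hy : y ∈ ball (0 : E) δ) :
    (0 < l y → r (σ (y - l y • ν)) < r (S y).1) ∧ (l y < 0 → r (S y).1 < r (σ (y - l y • ν))) := by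
  set y₀ := y - l y • ν with hy₀
  have h0 : y₀ ∈ ball (0 : E) δ := proj_ball hπ hy
  have hd : ∀ t : ℝ, y₀ + t • ν ∈ ball (0 : E) δ → HasDerivAt (fun t : ℝ => r (S (y₀ + t • ν)).1)
      (fderiv ℝ r (S (y₀ + t • ν)).1 (S (y₀ + t • ν)).2.1) t := fun t ht =>
    HasFDerivAt.comp_hasDerivAt (l := r) (f := fun t : ℝ => (S (y₀ + t • ν)).1) t
      (hr.differentiable (by simp) _).hasFDerivAt (h.l1 ht)
  have e0 : r (S (y₀ + (0 : ℝ) • ν)).1 = r (σ y₀) := by
    rw [zero_smul, add_zero, h.ini y₀ h0 (proj_zero hν y)]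
  have e1 : r (S (y₀ + l y • ν)).1 = r (S y).1 := by rw [hy₀, proj_add]
  constructor
  · intro hl
    have hm : StrictMonoOn (fun t : ℝ => r (S (y₀ + t • ν)).1) (Icc 0 (l y)) := by
      refine strictMonoOn_of_deriv_pos (convex_Icc _ _)
        (fun t ht => (hd t (seg_ball hπ hy (Or.inl ht))).continuousAt.continuousWithinAt) ?_
      intro t ht
      have ht' := seg_ball hπ hy (Or.inl (interior_subset ht))
      rw [(hd t ht').deriv]
      exact hp _ ht'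
    have := hm (left_mem_Icc.2 hl.le) (right_mem_Icc.2 hl.le) hl
    simp only at this
    rw [e0, e1] at this
    exact this
  · intro hl
    have hm : StrictMonoOn (fun t : ℝ => r (S (y₀ + t • ν)).1) (Icc (l y) 0) := by
      refine strictMonoOn_of_deriv_pos (convex_Icc _ _)
        (fun t ht => (hd t (seg_ball hπ hy (Or.inr ht))).continuousAt.continuousWithinAt) ?_
      intro t ht
      have ht' := seg_ball hπ hy (Or.inr (interior_subset ht))
      rw [(hd t ht').deriv]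
      exact hp _ ht'
    have := hm (left_mem_Icc.2 hl.le) (right_mem_Icc.2 hl.le) hl
    simp only at this
    rw [e0, e1] at this
    exact this

/-- two continuous functions which agree along the flow line for negative times agree at time
zero -/
theorem Sys.eq_zero_time {W : Type} [TopologicalSpace W] [T2Space W]
    (h : Sys G B U l ν σ δ S) {y₀ : E} (h0 : y₀ ∈ ball (0 : E) δ) {f g : E → W}
    (hf : ContinuousAt f (S y₀).1) (hg : ContinuousAt g (S y₀).1)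
    (he : ∀ᶠ t : ℝ in 𝓝[<] 0, f (S (y₀ + t • ν)).1 = g (S (y₀ + t • ν)).1) :
    f (S y₀).1 = g (S y₀).1 := by
  have hb : y₀ + (0 : ℝ) • ν ∈ ball (0 : E) δ := by rwa [zero_smul, add_zero]
  have hc := (h.l1 hb).continuousAt
  have e : (S (y₀ + (0 : ℝ) • ν)).1 = (S y₀).1 := by rw [zero_smul, add_zero]
  have t1 : Tendsto (fun t : ℝ => f (S (y₀ + t • ν)).1) (𝓝[<] 0) (𝓝 (f (S y₀).1)) := by
    have := (ContinuousAt.comp (f := fun t : ℝ => (S (y₀ + t • ν)).1) (g := f) (x := (0 : ℝ))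
      (by rw [e]; exact hf) hc).tendsto
    simp only [Function.comp_def, e] at this
    exact this.mono_left nhdsWithin_le_nhds
  have t2 : Tendsto (fun t : ℝ => g (S (y₀ + t • ν)).1) (𝓝[<] 0) (𝓝 (g (S y₀).1)) := by
    have := (ContinuousAt.comp (f := fun t : ℝ => (S (y₀ + t • ν)).1) (g := g) (x := (0 : ℝ))
      (by rw [e]; exact hg) hc).tendsto
    simp only [Function.comp_def, e] at this
    exact this.mono_left nhdsWithin_le_nhds
  exact tendsto_nhds_unique (t1.congr' he) t2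

/-- Existence of the two flows; they agree for negative times. -/
theorem exists_pair (hG₁ : IsMetricOn G₁ U) (hG₂ : IsMetricOn G₂ U) (hB₁ : ContDiffOn ℝ ∞ B₁ U)
    (hB₂ : ContDiffOn ℝ ∞ B₂ U) (hν : l ν = 1) (hπ : ∀ y : E, ‖y - l y • ν‖ ≤ ‖y‖)
    (hσ : ContDiff ℝ ∞ σ) (h0 : σ 0 ∈ U) {r : E → ℝ} (hr : ContDiff ℝ 1 r)
    (hrν : 0 < fderiv ℝ r (σ 0) ν) (hrσ : ∀ᶠ y in 𝓝 (0 : E), l y = 0 → r (σ y) ≤ 0)
    (heq : ∀ x ∈ U, r x < 0 → G₁ x = G₂ x ∧ B₁ x = B₂ x) :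
    ∃ (δ : ℝ) (S₁ S₂ : E → St E A), Sys G₁ B₁ U l ν σ δ S₁ ∧ Sys G₂ B₂ U l ν σ δ S₂ ∧
      (∀ y ∈ ball (0 : E) δ, 0 < fderiv ℝ r (S₁ y).1 (S₁ y).2.1) ∧
      (∀ y ∈ ball (0 : E) δ, 0 < fderiv ℝ r (S₂ y).1 (S₂ y).2.1) ∧
      (∀ y ∈ ball (0 : E) δ, l y ≤ 0 → S₁ y = S₂ y) ∧
      (∀ y ∈ ball (0 : E) δ, l y < 0 → r (S₁ y).1 < 0) ∧
      (∀ y ∈ ball (0 : E) δ, l y = 0 → G₁ (σ y) = G₂ (σ y) ∧ B₁ (σ y) = B₂ (σ y) ∧
        chrisB G₁ (σ y) = chrisB G₂ (σ y)) := by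
  set x₀ : St E A := (σ 0, ν, 1, 1) with hx₀
  obtain ⟨K, Q, hQ, hLip⟩ := ((contDiffAt_fld hG₂ hB₂ (p := x₀) h0).of_le
    (by norm_cast : (1 : WithTop ℕ∞) ≤ ∞)).exists_lipschitzOnWith
  have hpos : {p : St E A | 0 < fderiv ℝ r p.1 p.2.1} ∈ 𝓝 x₀ := by
    have hc : Continuous (fun p : St E A => fderiv ℝ r p.1 p.2.1) :=
      ((hr.continuous_fderiv (by simp)).comp continuous_fst).clm_apply
        (continuous_fst.comp continuous_snd)
    exact (isOpen_lt continuous_const hc).mem_nhds hrν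
  obtain ⟨δ₁, S₁, k₁, q₁⟩ := exists_sys hG₁ hB₁ hν hσ h0 (inter_mem hQ hpos)
  obtain ⟨δ₂, S₂, k₂, q₂⟩ := exists_sys hG₂ hB₂ hν hσ h0 (inter_mem hQ hpos)
  obtain ⟨δ₃, hδ₃, hball⟩ := Metric.eventually_nhds_iff_ball.1 hrσ
  set δ := min δ₁ (min δ₂ δ₃) with hδ
  have hδ0 : 0 < δ := lt_min k₁.pos (lt_min k₂.pos hδ₃)
  have l1 : δ ≤ δ₁ := min_le_left _ _
  have l2 : δ ≤ δ₂ := (min_le_right _ _).trans (min_le_left _ _)
  have l3 : δ ≤ δ₃ := (min_le_right _ _).trans (min_le_right _ _)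
  have m₁ := k₁.mono hδ0 l1
  have m₂ := k₂.mono hδ0 l2
  have p₁ : ∀ y ∈ ball (0 : E) δ, 0 < fderiv ℝ r (S₁ y).1 (S₁ y).2.1 := fun y hy =>
    (q₁ y (ball_subset_ball l1 hy)).2
  have p₂ : ∀ y ∈ ball (0 : E) δ, 0 < fderiv ℝ r (S₂ y).1 (S₂ y).2.1 := fun y hy =>
    (q₂ y (ball_subset_ball l2 hy)).2
  have hneg : ∀ y ∈ ball (0 : E) δ, l y < 0 → r (S₁ y).1 < 0 := by
    intro y hy hl
    have h1 := (m₁.incr hν hπ hr p₁ hy).2 hl
    exact h1.trans_le (hball _ (ball_subset_ball l3 (proj_ball hπ hy)) (proj_zero hν y))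
  -- the data at time zero
  have hz : ∀ y ∈ ball (0 : E) δ, l y = 0 → G₁ (σ y) = G₂ (σ y) ∧ B₁ (σ y) = B₂ (σ y) ∧
      chrisB G₁ (σ y) = chrisB G₂ (σ y) := by
    intro y hy hl
    have hu := m₁.mem y hy
    have hi := m₁.ini y hy hl
    have hev : ∀ᶠ t : ℝ in 𝓝[<] 0, y + t • ν ∈ ball (0 : E) δ ∧ t < 0 := by
      have h1 : ∀ᶠ t : ℝ in 𝓝 0, y + t • ν ∈ ball (0 : E) δ := by
        have hc : ContinuousAt (fun t : ℝ => y + t • ν) 0 := by fun_prop
        exact hc (isOpen_ball.mem_nhds (by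
          show y + (0 : ℝ) • ν ∈ ball (0 : E) δ
          rwa [zero_smul, add_zero]))
      filter_upwards [mem_nhdsWithin_of_mem_nhds h1, self_mem_nhdsWithin] with t h2 h3 using ⟨h2, h3⟩
    have hlt : ∀ t : ℝ, t < 0 → l (y + t • ν) < 0 := by
      intro t ht
      rw [map_add, map_smul, hν, smul_eq_mul, mul_one, hl, zero_add]; exact ht
    have c1 : chrisB G₁ (S₁ y).1 = chrisB G₂ (S₁ y).1 := by
      refine m₁.eq_zero_time hy (hG₁.contDiffAt_chrisB hu).continuousAt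
        (hG₂.contDiffAt_chrisB hu).continuousAt ?_
      filter_upwards [hev] with t ht
      have hr' := hneg _ ht.1 (hlt t ht.2)
      have hu' := m₁.mem _ ht.1
      have e : G₁ =ᶠ[𝓝 (S₁ (y + t • ν)).1] G₂ := by
        have ho : IsOpen {x | r x < 0} := isOpen_lt hr.continuous continuous_const
        filter_upwards [hG₁.isOpen.mem_nhds hu', ho.mem_nhds hr'] with x hx1 hx2
        exact (heq x hx1 hx2).1
      unfold chrisB
      rw [e.fderiv_eq, e.self_of_nhds]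
    have c2 : G₁ (S₁ y).1 = G₂ (S₁ y).1 := by
      refine m₁.eq_zero_time hy (hG₁.contDiffAt hu).continuousAt
        (hG₂.contDiffAt hu).continuousAt ?_
      filter_upwards [hev] with t ht
      exact (heq _ (m₁.mem _ ht.1) (hneg _ ht.1 (hlt t ht.2))).1
    have c3 : B₁ (S₁ y).1 = B₂ (S₁ y).1 := by
      refine m₁.eq_zero_time hy (hB₁.contDiffAt (hG₁.isOpen.mem_nhds hu)).continuousAt
        (hB₂.contDiffAt (hG₁.isOpen.mem_nhds hu)).continuousAt ?_
      filter_upwards [hev] with t ht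
      exact (heq _ (m₁.mem _ ht.1) (hneg _ ht.1 (hlt t ht.2))).2
    rw [hi] at c1 c2 c3
    exact ⟨c2, c3, c1⟩
  refine ⟨δ, S₁, S₂, m₁, m₂, p₁, p₂, ?_, hneg, hz⟩
  intro y hy hl
  set y₀ := y - l y • ν with hy₀
  have h0' : y₀ ∈ ball (0 : E) δ := proj_ball hπ hy
  have hl0 : l y₀ = 0 := proj_zero hν y
  have hseg : ∀ t ∈ Icc (l y) 0, y₀ + t • ν ∈ ball (0 : E) δ := fun t ht =>
    seg_ball hπ hy (Or.inr ht)
  have hlt : ∀ t : ℝ, l (y₀ + t • ν) = t := by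
    intro t
    rw [map_add, map_smul, hν, smul_eq_mul, mul_one, hl0, zero_add]
  have dS : ∀ {G : E → E →L[ℝ] E →L[ℝ] ℝ} {B : E → E →L[ℝ] A} {S : E → St E A},
      Sys G B U l ν σ δ S → ∀ t : ℝ, y₀ + t • ν ∈ ball (0 : E) δ →
      HasDerivAt (fun t : ℝ => S (y₀ + t • ν)) (fld G B (S (y₀ + t • ν))) t := by
    intro G B S h t ht
    rw [← h.d _ ht]
    exact hasDerivAt_line (h.df ht)
  have efld : ∀ t ∈ Icc (l y) 0, fld G₁ B₁ (S₁ (y₀ + t • ν)) = fld G₂ B₂ (S₁ (y₀ + t • ν)) := by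
    intro t ht
    have hb := hseg t ht
    have hu' := m₁.mem _ hb
    rcases ht.2.lt_or_eq with h | h
    · have hr' := hneg _ hb (by rw [hlt]; exact h)
      have e : G₁ =ᶠ[𝓝 (S₁ (y₀ + t • ν)).1] G₂ := by
        have ho : IsOpen {x | r x < 0} := isOpen_lt hr.continuous continuous_const
        filter_upwards [hG₁.isOpen.mem_nhds hu', ho.mem_nhds hr'] with x hx1 hx2
        exact (heq x hx1 hx2).1
      have e1 : chrisB G₁ (S₁ (y₀ + t • ν)).1 = chrisB G₂ (S₁ (y₀ + t • ν)).1 := by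
        unfold chrisB
        rw [e.fderiv_eq, e.self_of_nhds]
      unfold fld
      rw [e1, (heq _ hu' hr').2]
    · subst h
      rw [zero_smul, add_zero]
      obtain ⟨-, c2, c3⟩ := hz y₀ h0' hl0
      unfold fld
      rw [m₁.ini y₀ h0' hl0]
      simp only [c2, c3]
  have key := ODE_solution_unique_of_mem_Icc_left (v := fun _ => fld G₂ B₂) (s := fun _ => Q)
    (K := K) (f := fun t : ℝ => S₁ (y₀ + t • ν)) (g := fun t : ℝ => S₂ (y₀ + t • ν)) (a := l y)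
    (b := 0) (fun _ _ => hLip)
    (fun t ht => (dS m₁ t (hseg t ht)).continuousAt.continuousWithinAt)
    (fun t ht => by
      have := (dS m₁ t (hseg t (Ioc_subset_Icc_self ht))).hasDerivWithinAt (s := Iic t)
      rw [efld t (Ioc_subset_Icc_self ht)] at this
      exact this)
    (fun t ht => (q₁ _ (ball_subset_ball l1 (hseg t (Ioc_subset_Icc_self ht)))).1)
    (fun t ht => (dS m₂ t (hseg t ht)).continuousAt.continuousWithinAt)
    (fun t ht => (dS m₂ t (hseg t (Ioc_subset_Icc_self ht))).hasDerivWithinAt)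
    (fun t ht => (q₂ _ (ball_subset_ball l2 (hseg t (Ioc_subset_Icc_self ht)))).1)
    (by
      simp only [zero_smul, add_zero]
      rw [m₁.ini y₀ h0' hl0, m₂.ini y₀ h0' hl0])
  have := key (left_mem_Icc.2 hl)
  simp only at this
  rwa [hy₀, proj_add] at this

end Vale.Agent.P088.R2.H455
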