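import Vale.Agent.P088.R2.H455.Spec
import Vale.Agent.P088.R2.H455.PairS
import Vale.Agent.P088.H4.Push

/-!
# P088, quasi-analytic class: the metric as a bilinear form, coordinate formulas
-/

open Set Filter Topology Metric
open scoped ContDiff

set_option linter.all false
set_option maxSynthPendingDepth 3

noncomputable section

namespace Vale.Agent.P088.R2.H455

open Vale.Agent.P219.RG Vale.Agent.P088.EYM

variable {n N : ℕ} [NeZero n]

/-- the `i`-th coordinate -/
abbrev pj (i : Fin n) : EYM.E n →L[ℝ] ℝ := EuclideanSpace.proj i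

def toG (g : EYM.E n → Matrix (Fin n) (Fin n) ℝ) (x : EYM.E n) : EYM.E n →L[ℝ] EYM.E n →L[ℝ] ℝ :=
  ∑ i, ∑ j, g x i j • (pj i).smulRight (pj j)

def toB (B : Fin n → EYM.E n → EndF N) (x : EYM.E n) : EYM.E n →L[ℝ] EndF N :=
  ∑ i, (pj i).smulRight (B i x)

theorem toG_apply (g : EYM.E n → Matrix (Fin n) (Fin n) ℝ) (x u v : EYM.E n) :
    toG g x u v = gv g x u v := by
  unfold toG gv
  simp only [sum_apply, smul_apply, ContinuousLinearMap.smulRight_apply, smul_eq_mul]
  refine Finset.sum_congr rfl fun i _ => Finset.sum_congr rfl fun j _ => ?_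
  show g x i j * (u i * v j) = _
  ring

theorem toB_apply (B : Fin n → EYM.E n → EndF N) (x v : EYM.E n) : toB B x v = Bv B x v := by
  unfold toB Bv
  simp only [sum_apply, ContinuousLinearMap.smulRight_apply]
  rfl

/-- the data extended to an open set -/
structure Ext (L : LD n N) (D U : Set (EYM.E n)) (g : EYM.E n → Matrix (Fin n) (Fin n) ℝ)
    (B : Fin n → EYM.E n → EndF N) : Prop where
  op : IsOpen U
  rel : RelOpen D
  sub : D ⊆ U
  smg : ∀ i j, ContDiffOn ℝ ∞ (fun x => g x i j) U
  pos : ∀ x ∈ U, (g x).PosDef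
  smB : ∀ i, ContDiffOn ℝ ∞ (B i) U
  geq : ∀ x ∈ D, g x = L.g x
  Beq : ∀ x ∈ D, ∀ i, B i x = L.B i x

variable {L : LD n N} {D U : Set (EYM.E n)} {g : EYM.E n → Matrix (Fin n) (Fin n) ℝ}
  {B : Fin n → EYM.E n → EndF N}

theorem contDiffOn_toG (hg : ∀ i j, ContDiffOn ℝ ∞ (fun x => g x i j) U) :
    ContDiffOn ℝ ∞ (toG g) U := by
  unfold toG
  exact ContDiffOn.sum fun i _ => ContDiffOn.sum fun j _ => (hg i j).smul contDiffOn_const

theorem contDiffOn_toB (hB : ∀ i, ContDiffOn ℝ ∞ (B i) U) : ContDiffOn ℝ ∞ (toB B) U := by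
  unfold toB
  refine ContDiffOn.sum fun i _ => ?_
  exact contDiffOn_const.smulRight (hB i)

theorem gv_pos {x : EYM.E n} (hp : (g x).PosDef) {v : EYM.E n} (hv : v ≠ 0) : 0 < gv g x v v := by
  have h := hp.dotProduct_mulVec_pos (x := WithLp.ofLp v) (by
    intro h
    exact hv (WithLp.ofLp_injective 2 (by rw [h]; rfl)))
  have e : gv g x v v = star (WithLp.ofLp v) ⬝ᵥ (g x).mulVec (WithLp.ofLp v) := by
    unfold gv Matrix.mulVec dotProduct
    simp only [dotProduct, Finset.mul_sum]
    refine Finset.sum_congr rfl fun i _ => Finset.sum_congr rfl fun j _ => ?_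
    simp only [star_trivial]
    ring
  rw [e]
  exact h

theorem gv_symm {x : EYM.E n} (hp : (g x).PosDef) (u v : EYM.E n) : gv g x u v = gv g x v u := by
  unfold gv
  rw [Finset.sum_comm]
  refine Finset.sum_congr rfl fun i _ => Finset.sum_congr rfl fun j _ => ?_
  have h : g x j i = g x i j := by
    have h := hp.isHermitian.apply i j
    rw [← h]; rfl
  rw [h]; ring

theorem isMetricOn_toG (hU : IsOpen U) (hg : ∀ i j, ContDiffOn ℝ ∞ (fun x => g x i j) U)
    (hp : ∀ x ∈ U, (g x).PosDef) : IsMetricOn (toG g) U where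
  isOpen := hU
  smooth := contDiffOn_toG hg
  symm x hx u v := by rw [toG_apply, toG_apply, gv_symm (hp x hx)]
  pos x hx v hv := by rw [toG_apply]; exact gv_pos (hp x hx) hv

theorem Ext.metric (h : Ext L D U g B) : IsMetricOn (toG g) U := isMetricOn_toG h.op h.smg h.pos

theorem Ext.smB' (h : Ext L D U g B) : ContDiffOn ℝ ∞ (toB B) U := contDiffOn_toB h.smB

theorem Ext.pd_eq (h : Ext L D U g B) {F : Type} [NormedAddCommGroup F] [NormedSpace ℝ F]
    {f : EYM.E n → F} {x : EYM.E n} (hx : x ∈ D) (hf : DifferentiableAt ℝ f x) (i : Fin n) :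
    EYM.pd i f x = fderiv ℝ f x (ev i) :=
  pd_of_has (h.rel.subset hx) hf.hasFDerivAt.hasFDerivWithinAt i

theorem sum_ev (v : EYM.E n) : v = ∑ i, v i • (ev i : EYM.E n) := by
  ext j
  simp [ev, Finset.sum_apply, Pi.single_apply]

theorem fderiv_toG (hU : IsOpen U) (hg : ∀ i j, ContDiffOn ℝ ∞ (fun x => g x i j) U)
    {x : EYM.E n} (hx : x ∈ U) (v a b : EYM.E n) :
    fderiv ℝ (toG g) x v a b =
      ∑ i, ∑ j, fderiv ℝ (fun y => g y i j) x v * a i * b j := by
  have h1 : ∀ i j, HasFDerivAt (fun y => g y i j) (fderiv ℝ (fun y => g y i j) x) x := fun i j =>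
    (((hg i j).contDiffAt (hU.mem_nhds hx)).differentiableAt (by simp)).hasFDerivAt
  have h2 : HasFDerivAt (toG g) (fderiv ℝ (toG g) x) x :=
    (((contDiffOn_toG hg).contDiffAt (hU.mem_nhds hx)).differentiableAt (by simp)).hasFDerivAt
  have h3 : HasFDerivAt (fun y => toG g y a b) ((fderiv ℝ (toG g) x).flip a |>.flip b) x := by
    have := (h2.clm_apply (hasFDerivAt_const a x)).clm_apply (hasFDerivAt_const b x)
    refine this.congr_fderiv ?_
    ext z; simp
  have h4 : HasFDerivAt (fun y => toG g y a b)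
      (∑ i, ∑ j, (a i * b j) • fderiv ℝ (fun y => g y i j) x) x := by
    have e : (fun y => toG g y a b) = fun y => ∑ i, ∑ j, (a i * b j) • g y i j := by
      funext y
      rw [toG_apply]
      refine Finset.sum_congr rfl fun i _ => Finset.sum_congr rfl fun j _ => ?_
      rw [smul_eq_mul]; ring
    rw [e]
    exact HasFDerivAt.fun_sum fun i _ => HasFDerivAt.fun_sum fun j _ =>
      (h1 i j).const_smul (a i * b j)
  have h5 := congrArg (fun T : EYM.E n →L[ℝ] ℝ => T v) (h3.unique h4)
  simp only [ContinuousLinearMap.flip_apply, sum_apply, smul_apply, smul_eq_mul] at h5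
  rw [h5]
  refine Finset.sum_congr rfl fun i _ => Finset.sum_congr rfl fun j _ => ?_
  ring

/-- the Christoffel symbols -/
theorem Ext.chr_eq (h : Ext L D U g B) {x : EYM.E n} (hx : x ∈ D) (u v : EYM.E n) :
    chrisB (toG g) x u v = chv L.g x u v := by
  have hu := h.sub hx
  have hM := h.metric
  have hpd : ∀ i a b, EYM.pd i (fun y => L.g y a b) x =
      fderiv ℝ (fun y => g y a b) x (ev i) := by
    intro i a b
    rw [h.rel.pd_congr (g := fun y => g y a b) (fun y hy => by
      show L.g y a b = g y a b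
      rw [h.geq y hy]) hx i]
    exact h.pd_eq hx (((h.smg a b).contDiffAt (h.op.mem_nhds hu)).differentiableAt (by simp)) i
  rw [chrisB_apply]
  apply hM.ext_of hu
  intro z
  rw [hM.chris_spec hu]
  have e : ∀ {φ ψ : EYM.E n →L[ℝ] ℝ}, (∀ b, φ (ev b) = ψ (ev b)) → φ z = ψ z := by
    intro φ ψ hh
    rw [sum_ev z, map_sum, map_sum]
    exact Finset.sum_congr rfl fun b _ => by rw [map_smul, map_smul, hh]
  have hL : ∀ z, (fderiv ℝ (toG g) x u v z + fderiv ℝ (toG g) x v u z -
      fderiv ℝ (toG g) x z u v) / 2 = ((1 / 2 : ℝ) • (fderiv ℝ (toG g) x u v +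
        fderiv ℝ (toG g) x v u - ((fderiv ℝ (toG g) x).flip u).flip v)) z := by
    intro z
    simp only [smul_apply, sub_apply, add_apply, ContinuousLinearMap.flip_apply, smul_eq_mul]
    ring
  rw [hL]
  refine e fun b => ?_
  rw [← hL]
  -- the left hand side
  have l1 : ∀ a c : EYM.E n, fderiv ℝ (toG g) x a c (ev b) =
      ∑ i, ∑ j, fderiv ℝ (fun y => g y j b) x (ev i) * a i * c j := by
    intro a c
    rw [fderiv_toG h.op h.smg hu]
    have s1 : ∀ i, ∑ j, fderiv ℝ (fun y => g y i j) x a * c i * (ev b : EYM.E n) j =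
        fderiv ℝ (fun y => g y i b) x a * c i := by
      intro i
      rw [Finset.sum_eq_single b]
      · simp [ev]
      · intro j _ hj
        simp [ev, hj]
      · simp
    simp only [s1]
    rw [Finset.sum_comm]
    refine Finset.sum_congr rfl fun i _ => ?_
    rw [sum_ev a, map_sum, Finset.sum_mul]
    refine Finset.sum_congr rfl fun j _ => ?_
    rw [map_smul, smul_eq_mul, ← sum_ev a]
    ring
  have l2 : fderiv ℝ (toG g) x (ev b) u v =
      ∑ i, ∑ j, fderiv ℝ (fun y => g y i j) x (ev b) * u i * v j := fderiv_toG h.op h.smg hu _ _ _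
  -- the right hand side
  have hdet : IsUnit (L.g x).det := by
    rw [← h.geq x hx]
    exact (h.pos x hu).det_pos.ne'.isUnit
  have r1 : toG g x (chv L.g x u v) (ev b) =
      ∑ i, ∑ j, (∑ k, L.g x b k * EYM.chr L.g k i j x) * u i * v j := by
    rw [hM.symm x hu, toG_apply]
    unfold gv
    have s1 : ∀ i, ∑ j, g x i j * (ev b : EYM.E n) i * (chv L.g x u v) j =
        (if i = b then ∑ j, g x b j * (chv L.g x u v) j else 0) := by
      intro i
      by_cases hi : i = b
      · subst hi
        simp [ev]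
      · simp [ev, hi]
    simp only [s1, Finset.sum_ite_eq', Finset.mem_univ, if_true]
    rw [h.geq x hx]
    simp only [chv, Finset.mul_sum, Finset.sum_mul]
    rw [Finset.sum_comm]
    refine Finset.sum_congr rfl fun i _ => ?_
    rw [Finset.sum_comm]
    refine Finset.sum_congr rfl fun j _ => ?_
    refine Finset.sum_congr rfl fun k _ => ?_
    ring
  rw [r1, l1, l1, l2]
  simp only [Chr_low hdet, hpd]
  have s2 : ∑ i, ∑ j, fderiv ℝ (fun y => g y j b) x (ev i) * v i * u j =
      ∑ i, ∑ j, fderiv ℝ (fun y => g y i b) x (ev j) * u i * v j := by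
    rw [Finset.sum_comm]
    exact Finset.sum_congr rfl fun i _ => Finset.sum_congr rfl fun j _ => by ring
  rw [s2, ← Finset.sum_add_distrib, ← Finset.sum_sub_distrib, Finset.sum_div]
  refine Finset.sum_congr rfl fun i _ => ?_
  rw [← Finset.sum_add_distrib, ← Finset.sum_sub_distrib, Finset.sum_div]
  refine Finset.sum_congr rfl fun j _ => ?_
  have hs : ∀ a c : Fin n, fderiv ℝ (fun y => g y c a) x = fderiv ℝ (fun y => g y a c) x := by
    intro a c
    refine Filter.EventuallyEq.fderiv_eq ?_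
    filter_upwards [h.op.mem_nhds hu] with y hy
    have h := (h.pos y hy).isHermitian.apply a c
    rw [← h]; rfl
  rw [hs b j, hs b i]
  ring

theorem Ext.smL (h : Ext L D U g B) (i j : Fin n) : ContDiffOn ℝ ∞ (fun x => L.g x i j) D :=
  ((h.smg i j).mono h.sub).congr fun x hx => by rw [h.geq x hx]

theorem Ext.posL (h : Ext L D U g B) : ∀ x ∈ D, (L.g x).PosDef := fun x hx => by
  rw [← h.geq x hx]; exact h.pos x (h.sub hx)

theorem Ext.smchr (h : Ext L D U g B) (k i j : Fin n) : ContDiffOn ℝ ∞ (EYM.chr L.g k i j) D :=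
  djt_chr_smooth h.rel ⟨h.smL, fun x hx j k => by
    have h := (h.posL x hx).isHermitian.apply j k
    rw [← h]; rfl, h.posL⟩ k i j

/-- the derivative of the Christoffel symbols -/
theorem Ext.fderiv_chris (h : Ext L D U g B) {x : EYM.E n} (hx : x ∈ D) (a b d : EYM.E n)
    (k : Fin n) : fderiv ℝ (fun p => chris (toG g) p b d) x a k =
      ∑ i, ∑ j, ∑ c, EYM.pd i (EYM.chr L.g k j c) x * a i * b j * d c := by
  have hu := h.sub hx
  have hM := h.metric
  have hd : DifferentiableAt ℝ (fun p => chris (toG g) p b d) x :=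
    (hM.contDiffAt_chris hu b d).differentiableAt (by simp)
  have hsm : ∀ j c, ContDiffOn ℝ ∞ (fun p => (b j * d c) • EYM.chr L.g k j c p) D := fun j c =>
    (h.smchr k j c).const_smul (b j * d c)
  have h1 : ∀ i, (fderiv ℝ (fun p => chris (toG g) p b d) x (ev i)) k =
      ∑ j, ∑ c, EYM.pd i (EYM.chr L.g k j c) x * b j * d c := by
    intro i
    have e1 : (fderiv ℝ (fun p => chris (toG g) p b d) x (ev i)) k =
        fderiv ℝ (fun p => (chris (toG g) p b d) k) x (ev i) := by
      have := ((pj k).hasFDerivAt.comp x hd.hasFDerivAt).fderiv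
      have e : (⇑(pj k) ∘ fun p => chris (toG g) p b d) = fun p => (chris (toG g) p b d) k := rfl
      rw [e] at this
      rw [this]
      rfl
    have e5 : DifferentiableAt ℝ (fun p => (chris (toG g) p b d) k) x :=
      (pj k).differentiableAt.comp x hd
    rw [e1, ← h.pd_eq hx e5 i]
    rw [h.rel.pd_congr (g := fun p => ∑ j, ∑ c, (b j * d c) • EYM.chr L.g k j c p)
      (fun y hy => by
        show (chris (toG g) y b d) k = _
        rw [← chrisB_apply, h.chr_eq hy]
        show ∑ i, ∑ j, EYM.chr L.g k i j y * b i * d j = _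
        refine Finset.sum_congr rfl fun j _ => Finset.sum_congr rfl fun c _ => ?_
        rw [smul_eq_mul]; ring) hx i,
      h.rel.pd_sum _ (fun j _ => ContDiffOn.sum fun c _ => hsm j c) hx i]
    refine Finset.sum_congr rfl fun j _ => ?_
    rw [h.rel.pd_sum _ (fun c _ => hsm j c) hx i]
    refine Finset.sum_congr rfl fun c _ => ?_
    rw [h.rel.pd_const_smul _ (h.smchr k j c) hx i, smul_eq_mul]
    ring
  have h2 : fderiv ℝ (fun p => chris (toG g) p b d) x a =
      ∑ i, a i • fderiv ℝ (fun p => chris (toG g) p b d) x (ev i) := by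
    conv_lhs => rw [sum_ev a, map_sum]
    exact Finset.sum_congr rfl fun i _ => by rw [map_smul]
  rw [h2]
  have h3 : (∑ i, a i • fderiv ℝ (fun p => chris (toG g) p b d) x (ev i)) k =
      ∑ i, a i * (fderiv ℝ (fun p => chris (toG g) p b d) x (ev i)) k := by
    have := map_sum (pj k) (fun i => a i • fderiv ℝ (fun p => chris (toG g) p b d) x (ev i))
      Finset.univ
    exact this
  rw [h3]
  refine Finset.sum_congr rfl fun i _ => ?_
  rw [h1 i, Finset.mul_sum]
  refine Finset.sum_congr rfl fun j _ => ?_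
  rw [Finset.mul_sum]
  refine Finset.sum_congr rfl fun c _ => ?_
  ring

/-- the curvature tensor -/
theorem Ext.curv_comp (h : Ext L D U g B) {x : EYM.E n} (hx : x ∈ D) (a b d : EYM.E n)
    (k : Fin n) : curv (toG g) x a b d k = ∑ i, ∑ j, ∑ c,
      (EYM.pd i (EYM.chr L.g k j c) x - EYM.pd j (EYM.chr L.g k i c) x +
        ∑ m, (EYM.chr L.g k i m x * EYM.chr L.g m j c x -
          EYM.chr L.g k j m x * EYM.chr L.g m i c x)) * a i * b j * d c := by
  have e1 : curv (toG g) x a b d k =
      fderiv ℝ (fun p => chris (toG g) p b d) x a k -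
        fderiv ℝ (fun p => chris (toG g) p a d) x b k +
      chrisB (toG g) x a (chrisB (toG g) x b d) k -
        chrisB (toG g) x b (chrisB (toG g) x a d) k := by
    unfold Vale.Agent.P219.RG.curv
    simp only [chrisB_apply]
    rfl
  have e2 : ∀ a b : EYM.E n, chrisB (toG g) x a (chrisB (toG g) x b d) k =
      ∑ i, ∑ j, ∑ c, (∑ m, EYM.chr L.g k i m x * EYM.chr L.g m j c x) * a i * b j * d c := by
    intro a b
    rw [h.chr_eq hx, h.chr_eq hx]
    show ∑ i, ∑ m, EYM.chr L.g k i m x * a i * (∑ j, ∑ c, EYM.chr L.g m j c x * b j * d c) = _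
    refine Finset.sum_congr rfl fun i _ => ?_
    simp only [Finset.mul_sum, Finset.sum_mul]
    rw [Finset.sum_comm]
    refine Finset.sum_congr rfl fun j _ => ?_
    rw [Finset.sum_comm]
    refine Finset.sum_congr rfl fun c _ => Finset.sum_congr rfl fun m _ => ?_
    ring
  have e3 : fderiv ℝ (fun p => chris (toG g) p a d) x b k =
      ∑ i, ∑ j, ∑ c, EYM.pd j (EYM.chr L.g k i c) x * a i * b j * d c := by
    rw [h.fderiv_chris hx, Finset.sum_comm]
    refine Finset.sum_congr rfl fun i _ => Finset.sum_congr rfl fun j _ =>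
      Finset.sum_congr rfl fun c _ => ?_
    ring
  have e4 : chrisB (toG g) x b (chrisB (toG g) x a d) k =
      ∑ i, ∑ j, ∑ c, (∑ m, EYM.chr L.g k j m x * EYM.chr L.g m i c x) * a i * b j * d c := by
    rw [e2 b a, Finset.sum_comm]
    refine Finset.sum_congr rfl fun i _ => Finset.sum_congr rfl fun j _ =>
      Finset.sum_congr rfl fun c _ => ?_
    ring
  rw [e1, h.fderiv_chris hx, e3, e2 a b, e4, ← Finset.sum_sub_distrib, ← Finset.sum_add_distrib,
    ← Finset.sum_sub_distrib]
  refine Finset.sum_congr rfl fun i _ => ?_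
  rw [← Finset.sum_sub_distrib, ← Finset.sum_add_distrib, ← Finset.sum_sub_distrib]
  refine Finset.sum_congr rfl fun j _ => ?_
  rw [← Finset.sum_sub_distrib, ← Finset.sum_add_distrib, ← Finset.sum_sub_distrib]
  refine Finset.sum_congr rfl fun c _ => ?_
  rw [Finset.sum_sub_distrib]
  ring

theorem Ext.rm_eq (h : Ext L D U g B) {x : EYM.E n} (hx : x ∈ D) (a b c d : EYM.E n) :
    toG g x c (curv (toG g) x a b d) = rmv L.g x a b c d := by
  rw [toG_apply]
  unfold gv rmv H.rm
  rw [h.geq x hx]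
  simp only [h.curv_comp hx]
  simp only [Finset.mul_sum, Finset.sum_mul]
  -- `∑ k l i j d' = ∑ i j k d' l`
  have e : ∀ k : Fin n, ∑ l, ∑ i, ∑ j, ∑ m, L.g x k l * c k *
      ((EYM.pd i (EYM.chr L.g l j m) x - EYM.pd j (EYM.chr L.g l i m) x +
        ∑ m_1, (EYM.chr L.g l i m_1 x * EYM.chr L.g m_1 j m x -
          EYM.chr L.g l j m_1 x * EYM.chr L.g m_1 i m x)) * a i * b j * d m) =
      ∑ i, ∑ j, ∑ m, ∑ l, L.g x k l * (EYM.pd i (EYM.chr L.g l j m) x -
        EYM.pd j (EYM.chr L.g l i m) x +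
        ∑ m_1, (EYM.chr L.g l i m_1 x * EYM.chr L.g m_1 j m x -
          EYM.chr L.g l j m_1 x * EYM.chr L.g m_1 i m x)) * a i * b j * c k * d m := by
    intro k
    rw [Finset.sum_comm]
    refine Finset.sum_congr rfl fun i _ => ?_
    rw [Finset.sum_comm]
    refine Finset.sum_congr rfl fun j _ => ?_
    rw [Finset.sum_comm]
    refine Finset.sum_congr rfl fun m _ => Finset.sum_congr rfl fun l _ => ?_
    ring
  simp only [e]
  rw [Finset.sum_comm]
  refine Finset.sum_congr rfl fun i _ => ?_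
  rw [Finset.sum_comm]

/-- the curvature of the connection -/
theorem Ext.cur_eq (h : Ext L D U g B) {x : EYM.E n} (hx : x ∈ D) (a b : EYM.E n) :
    curvB (toB B) x a b = curv2 L.B x a b := by
  have hu := h.sub hx
  have hdB : DifferentiableAt ℝ (toB B) x :=
    ((h.smB').contDiffAt (h.op.mem_nhds hu)).differentiableAt (by simp)
  have hBd : ∀ i, DifferentiableAt ℝ (B i) x := fun i =>
    ((h.smB i).contDiffAt (h.op.mem_nhds hu)).differentiableAt (by simp)
  have hpd : ∀ i j, EYM.pd i (L.B j) x = fderiv ℝ (B j) x (ev i) := by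
    intro i j
    rw [h.rel.pd_congr (g := B j) (fun y hy => (h.Beq y hy j).symm) hx i]
    exact h.pd_eq hx (hBd j) i
  have hf : ∀ a b : EYM.E n, fderiv ℝ (toB B) x a b = ∑ i, ∑ j, (a i * b j) • EYM.pd i (L.B j) x := by
    intro a b
    have h2 : HasFDerivAt (fun y => toB B y b) ((fderiv ℝ (toB B) x).flip b) x := by
      have := hdB.hasFDerivAt.clm_apply (hasFDerivAt_const b x)
      refine this.congr_fderiv ?_
      ext z; simp
    have h3 : HasFDerivAt (fun y => toB B y b) (∑ j, b j • fderiv ℝ (B j) x) x := by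
      have e : (fun y => toB B y b) = fun y => ∑ j, b j • B j y := by
        funext y; rw [toB_apply]; rfl
      rw [e]
      exact HasFDerivAt.fun_sum fun j _ => (hBd j).hasFDerivAt.const_smul (b j)
    have h5 := congrArg (fun T : EYM.E n →L[ℝ] EndF N => T a) (h2.unique h3)
    simp only [ContinuousLinearMap.flip_apply] at h5
    rw [h5, sum_apply, Finset.sum_comm]
    refine Finset.sum_congr rfl fun j _ => ?_
    rw [smul_apply]
    conv_lhs => rw [sum_ev a, map_sum]
    rw [Finset.smul_sum]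
    refine Finset.sum_congr rfl fun i _ => ?_
    rw [map_smul, smul_smul, hpd, mul_comm]
  have hm : ∀ a b : EYM.E n, toB B x a * toB B x b = ∑ i, ∑ j, (a i * b j) • (L.B i x * L.B j x) := by
    intro a b
    rw [toB_apply, toB_apply]
    unfold Bv
    simp only [h.Beq x hx]
    rw [Finset.sum_mul]
    refine Finset.sum_congr rfl fun i _ => ?_
    rw [Finset.mul_sum]
    refine Finset.sum_congr rfl fun j _ => ?_
    rw [smul_mul_smul_comm]
  unfold curvB curv2 EYM.cur
  have s1 : fderiv ℝ (toB B) x b a = ∑ i, ∑ j, (a i * b j) • EYM.pd j (L.B i) x := by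
    rw [hf b a, Finset.sum_comm]
    exact Finset.sum_congr rfl fun i _ => Finset.sum_congr rfl fun j _ => by rw [mul_comm]
  have s2 : toB B x b * toB B x a = ∑ i, ∑ j, (a i * b j) • (L.B j x * L.B i x) := by
    rw [hm b a, Finset.sum_comm]
    exact Finset.sum_congr rfl fun i _ => Finset.sum_congr rfl fun j _ => by rw [mul_comm]
  rw [hf a b, s1, hm a b, s2]
  simp only [← Finset.sum_sub_distrib, ← Finset.sum_add_distrib, ← smul_sub, ← smul_add]

end Vale.Agent.P088.R2.H455
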