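import Vale.Agent.P088.R2.H455.Coord

/-!
# P088, quasi-analytic class: the curvatures along the two flows agree
-/

open Set Filter Topology Metric
open scoped ContDiff

set_option linter.all false
set_option maxSynthPendingDepth 3

noncomputable section

namespace Vale.Agent.P088.R2.H455

open Vale.Agent.P219.RG

/-! ### One variable -/

theorem iter_eq_left {f g : ℝ → ℂ} (hf : ContDiffAt ℝ ∞ f 0) (hg : ContDiffAt ℝ ∞ g 0)
    (h : ∀ᶠ s : ℝ in 𝓝[<] 0, f s = g s) (k : ℕ) : iteratedDeriv k f 0 = iteratedDeriv k g 0 := by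
  have hc : ∀ {f : ℝ → ℂ}, ContDiffAt ℝ ∞ f 0 →
      Tendsto (iteratedDeriv k f) (𝓝[<] 0) (𝓝 (iteratedDeriv k f 0)) := by
    intro f hf
    have h1 : ContDiffAt ℝ 0 (iteratedFDeriv ℝ k f) 0 := hf.iteratedFDeriv_right (by
      rw [zero_add]; exact_mod_cast le_top)
    rw [iteratedDeriv_eq_equiv_comp]
    exact ((ContinuousMultilinearMap.piFieldEquiv ℝ (Fin k) ℂ).symm.continuous.continuousAt.comp
      h1.continuousAt).tendsto.mono_left nhdsWithin_le_nhds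
  refine tendsto_nhds_unique ((hc hf).congr' ?_) (hc hg)
  have h2 : ∀ᶠ s : ℝ in 𝓝[<] 0, ∀ᶠ t in 𝓝 s, f t = g t := by
    rw [eventually_nhdsWithin_iff] at h
    have h3 := eventually_eventually_nhds.2 h
    rw [eventually_nhdsWithin_iff]
    filter_upwards [h3] with s hs hs0
    filter_upwards [hs, isOpen_Iio.mem_nhds hs0] with t ht ht0 using ht ht0
  filter_upwards [h2] with s hs
  exact Filter.EventuallyEq.iteratedDeriv_eq k hs

theorem qa_eq {𝒬 : ℝ → (ℝ → ℂ) → Prop} (hQ : QAn 𝒬) {ℓ : ℝ} (hℓ : 0 < ℓ) {f₁ f₂ : ℝ → ℂ}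
    (s₁ : ∀ s ∈ Icc 0 ℓ, ContDiffAt ℝ ∞ f₁ s) (s₂ : ∀ s ∈ Icc 0 ℓ, ContDiffAt ℝ ∞ f₂ s)
    (hneg : ∀ᶠ s : ℝ in 𝓝[<] 0, f₁ s = f₂ s) (h₁ : InQ 𝒬 ℓ f₁) (h₂ : InQ 𝒬 ℓ f₂) :
    EqOn f₁ f₂ (Icc 0 ℓ) := by
  obtain ⟨q₁, k₁, e₁⟩ := h₁
  obtain ⟨q₂, k₂, e₂⟩ := h₂
  have hu : UniqueDiffOn ℝ (Icc 0 ℓ) := uniqueDiffOn_Icc hℓ
  have h0 : (0 : ℝ) ∈ Icc 0 ℓ := ⟨le_rfl, hℓ.le⟩
  have key := hQ ℓ hℓ q₁ q₂ k₁ k₂
    (ContDiffOn.congr (fun s hs => (s₁ s hs).contDiffWithinAt) e₁)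
    (ContDiffOn.congr (fun s hs => (s₂ s hs).contDiffWithinAt) e₂) (fun k => by
      rw [iteratedDerivWithin_congr e₁ h0, iteratedDerivWithin_congr e₂ h0,
        iteratedDerivWithin_eq_iteratedDeriv hu ((s₁ 0 h0).of_le (by exact_mod_cast le_top)) h0,
        iteratedDerivWithin_eq_iteratedDeriv hu ((s₂ 0 h0).of_le (by exact_mod_cast le_top)) h0]
      exact iter_eq_left (s₁ 0 h0) (s₂ 0 h0) hneg k)
  intro s hs
  rw [← e₁ hs, key hs, e₂ hs]

/-! ### The curvature as a trilinear map -/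

section Tri

variable {E : Type} [NormedAddCommGroup E] [NormedSpace ℝ E] [FiniteDimensional ℝ E]
variable {A : Type} [NormedRing A] [NormedAlgebra ℝ A] [FiniteDimensional ℝ A]
variable {G : E → E →L[ℝ] E →L[ℝ] ℝ} {B : E → E →L[ℝ] A} {U : Set E} {l : E →L[ℝ] ℝ}
  {ν : E} {σ : E → E} {δ : ℝ} {S : E → St E A}

omit [FiniteDimensional ℝ E] in
/-- `(x, y, z) ↦ Γ(x, Γ(y, z))` -/
def gamT (Γ : E →L[ℝ] E →L[ℝ] E) : E →L[ℝ] E →L[ℝ] E →L[ℝ] E :=
  ((ContinuousLinearMap.compL ℝ E (E →L[ℝ] E) (E →L[ℝ] E)).flip Γ) ∘L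
    ((ContinuousLinearMap.compL ℝ E E E) ∘L Γ)

omit [FiniteDimensional ℝ E] in
theorem gamT_apply (Γ : E →L[ℝ] E →L[ℝ] E) (x y z : E) : gamT Γ x y z = Γ x (Γ y z) := rfl

/-- the curvature tensor as a trilinear map -/
def curvT (G : E → E →L[ℝ] E →L[ℝ] ℝ) (x : E) : E →L[ℝ] E →L[ℝ] E →L[ℝ] E :=
  fderiv ℝ (chrisB G) x - (fderiv ℝ (chrisB G) x).flip +
    (gamT (chrisB G x) - (gamT (chrisB G x)).flip)

theorem curvT_apply (hG : IsMetricOn G U) {x : E} (hx : x ∈ U) (a b c : E) :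
    curvT G x a b c = curv G x a b c := by
  rw [hG.curv_eq hx]
  unfold curvT
  simp only [add_apply, sub_apply, ContinuousLinearMap.flip_apply, gamT_apply]
  abel

omit [FiniteDimensional ℝ E] in
theorem contDiff_gamT : ContDiff ℝ ∞ (gamT : (E →L[ℝ] E →L[ℝ] E) → E →L[ℝ] E →L[ℝ] E →L[ℝ] E) := by
  unfold gamT
  have h1 : ContDiff ℝ ∞ (fun Γ : E →L[ℝ] E →L[ℝ] E =>
      (ContinuousLinearMap.compL ℝ E (E →L[ℝ] E) (E →L[ℝ] E)).flip Γ) :=
    ((ContinuousLinearMap.compL ℝ E (E →L[ℝ] E) (E →L[ℝ] E)).flip).contDiff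
  have h2 : ContDiff ℝ ∞ (fun Γ : E →L[ℝ] E →L[ℝ] E =>
      (ContinuousLinearMap.compL ℝ E E E) ∘L Γ) := contDiff_const.clm_comp contDiff_id
  exact h1.clm_comp h2

theorem contDiffAt_curvT (hG : IsMetricOn G U) {x : E} (hx : x ∈ U) :
    ContDiffAt ℝ ∞ (curvT G) x := by
  have h1 := hG.contDiffAt_chrisB hx
  have h2 : ContDiffAt ℝ ∞ (fderiv ℝ (chrisB G)) x := h1.fderiv_right (m := ∞) (by simp)
  have h3 : ContDiffAt ℝ ∞ (fun x => (fderiv ℝ (chrisB G) x).flip) x :=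
    ((ContinuousLinearMap.flipₗᵢ ℝ E E (E →L[ℝ] E)).toContinuousLinearEquiv.contDiff.contDiffAt).comp
      x h2
  have h4 : ContDiffAt ℝ ∞ (fun x => gamT (chrisB G x)) x :=
    ContDiffAt.comp (g := gamT (E := E)) x (contDiff_gamT (E := E)).contDiffAt h1
  have h5 : ContDiffAt ℝ ∞ (fun x => (gamT (chrisB G x)).flip) x :=
    ((ContinuousLinearMap.flipₗᵢ ℝ E E (E →L[ℝ] E)).toContinuousLinearEquiv.contDiff.contDiffAt).comp
      x h4
  exact (h2.sub h3).add (h4.sub h5)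

theorem contDiffAt_curvB (hU : IsOpen U) (hB : ContDiffOn ℝ ∞ B U) {x : E} (hx : x ∈ U)
    {a b : E → E} {y : E} {F : E → E} (hF : ContDiffAt ℝ ∞ F y) (hFy : F y = x)
    (ha : ContDiffAt ℝ ∞ a y) (hb : ContDiffAt ℝ ∞ b y) :
    ContDiffAt ℝ ∞ (fun z => curvB B (F z) (a z) (b z)) y := by
  have h0 : ContDiffAt ℝ ∞ B (F y) := by rw [hFy]; exact hB.contDiffAt (hU.mem_nhds hx)
  have h1 : ContDiffAt ℝ ∞ (fun z => B (F z)) y := h0.comp y hF
  have h2 : ContDiffAt ℝ ∞ (fun z => fderiv ℝ B (F z)) y :=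
    ContDiffAt.comp (g := fderiv ℝ B) y (h0.fderiv_right (m := ∞) (by simp)) hF
  unfold curvB
  exact (((h2.clm_apply ha).clm_apply hb).sub ((h2.clm_apply hb).clm_apply ha)).add
    (((h1.clm_apply ha).mul (h1.clm_apply hb)).sub ((h1.clm_apply hb).mul (h1.clm_apply ha)))

namespace Sys

theorem at_ (h : Sys G B U l ν σ δ S) {y : E} (hy : y ∈ ball (0 : E) δ) : ContDiffAt ℝ ∞ S y :=
  h.sm.contDiffAt (isOpen_ball.mem_nhds hy)

theorem smooth_hatR (h : Sys G B U l ν σ δ S) (hG : IsMetricOn G U) {y : E}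
    (hy : y ∈ ball (0 : E) δ) (a b c : E) : ContDiffAt ℝ ∞ (fun y => hatR G S y a b c) y := by
  have : CompleteSpace E := FiniteDimensional.complete ℝ E
  have hS := h.at_ hy
  have h1 : ContDiffAt ℝ ∞ (fun y => (S y).1) y := hS.fst
  have hT : ContDiffAt ℝ ∞ (fun y => (S y).2.2.1) y := hS.snd.snd.fst
  have hTi : ContDiffAt ℝ ∞ (fun y => Ring.inverse (S y).2.2.1) y := by
    obtain ⟨u, hu⟩ := h.unT y hy
    have h2 : ContDiffAt ℝ ∞ (Ring.inverse : (E →L[ℝ] E) → E →L[ℝ] E) (S y).2.2.1 := by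
      rw [← hu]; exact contDiffAt_ringInverse ℝ u
    exact h2.comp y hT
  have hc : ContDiffAt ℝ ∞ (fun y => curvT G (S y).1) y :=
    ContDiffAt.comp (g := curvT G) y (contDiffAt_curvT hG (h.mem y hy)) h1
  have hv : ∀ a : E, ContDiffAt ℝ ∞ (fun y => (S y).2.2.1 a) y := fun a =>
    hT.clm_apply contDiffAt_const
  have key : ContDiffAt ℝ ∞ (fun y => Ring.inverse (S y).2.2.1
      (curvT G (S y).1 ((S y).2.2.1 a) ((S y).2.2.1 b) ((S y).2.2.1 c))) y :=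
    hTi.clm_apply (((hc.clm_apply (hv a)).clm_apply (hv b)).clm_apply (hv c))
  refine key.congr_of_eventuallyEq ?_
  filter_upwards [isOpen_ball.mem_nhds hy] with z hz
  unfold hatR
  rw [curvT_apply hG (h.mem z hz)]

theorem smooth_hatF (h : Sys G B U l ν σ δ S) (hU : IsOpen U) (hB : ContDiffOn ℝ ∞ B U) {y : E}
    (hy : y ∈ ball (0 : E) δ) (a b : E) : ContDiffAt ℝ ∞ (fun y => hatF B S y a b) y := by
  have : CompleteSpace A := FiniteDimensional.complete ℝ A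
  have hS := h.at_ hy
  have h1 : ContDiffAt ℝ ∞ (fun y => (S y).1) y := hS.fst
  have hT : ContDiffAt ℝ ∞ (fun y => (S y).2.2.1) y := hS.snd.snd.fst
  have hP : ContDiffAt ℝ ∞ (fun y => (S y).2.2.2) y := hS.snd.snd.snd
  have hPi : ContDiffAt ℝ ∞ (fun y => Ring.inverse (S y).2.2.2) y := by
    obtain ⟨u, hu⟩ := h.unP y hy
    have h2 : ContDiffAt ℝ ∞ (Ring.inverse : A → A) (S y).2.2.2 := by
      rw [← hu]; exact contDiffAt_ringInverse ℝ u
    exact h2.comp y hP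
  have hv : ∀ a : E, ContDiffAt ℝ ∞ (fun y => (S y).2.2.1 a) y := fun a =>
    hT.clm_apply contDiffAt_const
  unfold hatF
  exact (hPi.mul (contDiffAt_curvB hU hB (h.mem y hy) h1 rfl (hv a) (hv b))).mul hP

end Sys

/-- linearity of the curvatures -/
theorem linR (hG : IsMetricOn G U) {y : E} (hy : (S y).1 ∈ U) :
    (∀ b c, IsLinearMap ℝ (fun a => hatR G S y a b c)) ∧
    (∀ a c, IsLinearMap ℝ (fun b => hatR G S y a b c)) ∧
    (∀ a b, IsLinearMap ℝ (fun c => hatR G S y a b c)) := by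
  have e : ∀ a b c, hatR G S y a b c = Ring.inverse (S y).2.2.1
      (curvT G (S y).1 ((S y).2.2.1 a) ((S y).2.2.1 b) ((S y).2.2.1 c)) := by
    intro a b c
    unfold hatR
    rw [curvT_apply hG hy]
  refine ⟨fun b c => ⟨fun x y => ?_, fun r x => ?_⟩, fun b c => ⟨fun x y => ?_, fun r x => ?_⟩,
    fun b c => ⟨fun x y => ?_, fun r x => ?_⟩⟩ <;>
  simp only [e, map_add, map_smul, add_apply, smul_apply]

omit [FiniteDimensional ℝ E] [FiniteDimensional ℝ A] in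
theorem linF {y : E} :
    (∀ b, IsLinearMap ℝ (fun a => hatF B S y a b)) ∧
    (∀ a, IsLinearMap ℝ (fun b => hatF B S y a b)) := by
  constructor
  · intro b
    constructor
    · intro x z
      simp only [hatF, curvB, map_add, add_apply]
      noncomm_ring
    · intro r x
      simp only [hatF, curvB, map_smul, smul_apply, smul_mul_assoc, mul_smul_comm, ← smul_sub,
        ← smul_add]
  · intro b
    constructor
    · intro x z
      simp only [hatF, curvB, map_add, add_apply]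
      noncomm_ring
    · intro r x
      simp only [hatF, curvB, map_smul, smul_apply, smul_mul_assoc, mul_smul_comm, ← smul_sub,
        ← smul_add]

omit [FiniteDimensional ℝ E] in
theorem ext1 {W ι : Type} [AddCommGroup W] [Module ℝ W] {f g : E → W} (hf : IsLinearMap ℝ f)
    (hg : IsLinearMap ℝ g) {e : ι → E} (hs : Submodule.span ℝ (range e) = ⊤)
    (h : ∀ i, f (e i) = g (e i)) (a : E) : f a = g a := by
  have := LinearMap.ext_on (f := hf.mk' f) (g := hg.mk' g) hs (by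
    rintro _ ⟨i, rfl⟩
    exact h i)
  exact congrArg (fun T : E →ₗ[ℝ] W => T a) this

end Tri

end Vale.Agent.P088.R2.H455
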