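import Vale.Agent.P088.R2.H455.Core
import Vale.Agent.P088.H820.Sq

/-!
# P088, quasi-analytic class: the curvatures along the two flows agree (second part)
-/

open Set Filter Topology Metric
open scoped ContDiff

set_option linter.all false
set_option maxSynthPendingDepth 3

noncomputable section

namespace Vale.Agent.P088.R2.H455

open Vale.Agent.P219.RG Vale.Agent.P088.EYM

section Frame

open scoped MatrixOrder

variable {n N : ℕ} [NeZero n]

/-- an orthonormal frame -/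
theorem exists_frame {g : EYM.E n → Matrix (Fin n) (Fin n) ℝ} {x : EYM.E n} (hp : (g x).PosDef) :
    ∃ e : Fin n → EYM.E n, (∀ a b, gv g x (e a) (e b) = if a = b then 1 else 0) ∧
      Submodule.span ℝ (range e) = ⊤ := by
  obtain ⟨C, hC⟩ := CStarAlgebra.nonneg_iff_eq_star_mul_self.mp hp.posSemidef.nonneg
  have hdet : IsUnit C.det := by
    rw [isUnit_iff_ne_zero]
    intro h0
    have h1 := hp.det_pos
    rw [hC, Matrix.det_mul, h0, mul_zero] at h1
    exact lt_irrefl _ h1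
  have hCM : C * C⁻¹ = 1 := Matrix.mul_nonsing_inv _ hdet
  set M := C⁻¹ with hM
  have hMg : M.transpose * g x * M = 1 := by
    rw [hC]
    have e1 : M.transpose * (star C * C) * M = (C * M).transpose * (C * M) := by
      rw [Matrix.transpose_mul]
      have : star C = C.transpose := by
        ext i j
        simp [Matrix.star_apply]
      rw [this]
      simp only [Matrix.mul_assoc]
    rw [e1, hCM, Matrix.transpose_one, Matrix.mul_one]
  refine ⟨fun a => WithLp.toLp 2 fun i => M i a, fun a b => ?_, ?_⟩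
  · have h1 := congrFun (congrFun hMg a) b
    rw [Matrix.mul_apply] at h1
    simp only [Matrix.mul_apply, Matrix.transpose_apply, Finset.sum_mul] at h1
    rw [Matrix.one_apply] at h1
    rw [← h1]
    unfold gv
    rw [Finset.sum_comm]
    refine Finset.sum_congr rfl fun i _ => Finset.sum_congr rfl fun j _ => ?_
    show g x j i * M j a * M i b = M j a * g x j i * M i b
    ring
  · rw [eq_top_iff]
    intro v _
    have hMC : M * C = 1 := Matrix.nonsing_inv_mul _ hdet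
    have hv : v = ∑ a, (C.mulVec (WithLp.ofLp v)) a • (WithLp.toLp 2 fun i => M i a : EYM.E n) := by
      have h2 : M.mulVec (C.mulVec (WithLp.ofLp v)) = WithLp.ofLp v := by
        rw [Matrix.mulVec_mulVec, hMC, Matrix.one_mulVec]
      ext i
      have h3 := congrFun h2 i
      rw [← h3]
      have h4 : (∑ a, (C.mulVec (WithLp.ofLp v)) a •
          (WithLp.toLp 2 fun i => M i a : EYM.E n)) i =
          ∑ a, (C.mulVec (WithLp.ofLp v)) a * M i a := by
        have := map_sum (pj i) (fun a => (C.mulVec (WithLp.ofLp v)) a •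
          (WithLp.toLp 2 fun i => M i a : EYM.E n)) Finset.univ
        exact this
      rw [h4]
      simp only [Matrix.mulVec, dotProduct]
      exact Finset.sum_congr rfl fun a _ => mul_comm _ _
    rw [hv]
    exact Submodule.sum_mem _ fun a _ => Submodule.smul_mem _ _ (Submodule.subset_span ⟨a, rfl⟩)

/-- a unitary frame -/
theorem exists_unitary {h : EndF N} (hadj : ContinuousLinearMap.adjoint h = h)
    (hpos : ∀ v : Fib N, v ≠ 0 → 0 < (inner ℂ v (h v) : ℂ).re) :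
    ∃ u : EndF N, IsUnit u ∧ ContinuousLinearMap.adjoint u * h * u = 1 := by
  obtain ⟨S, hu, hS, -⟩ := EYM.G.sqrel (S₀ := (1 : EndF N)) isUnit_one hadj hpos
  refine ⟨Ring.inverse S, hu.ringInverse, ?_⟩
  have hST : S * Ring.inverse S = 1 := Ring.mul_inverse_cancel _ hu
  have e1 : ContinuousLinearMap.adjoint (Ring.inverse S) * ContinuousLinearMap.adjoint S = 1 := by
    rw [← adj_mulE, hST]
    exact star_one (EndF N)
  calc ContinuousLinearMap.adjoint (Ring.inverse S) * h * Ring.inverse S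
      = (ContinuousLinearMap.adjoint (Ring.inverse S) * ContinuousLinearMap.adjoint S) *
        (S * Ring.inverse S) := by rw [← hS]; noncomm_ring
    _ = 1 := by rw [e1, hST, one_mul]

end Frame

variable {n N : ℕ} [NeZero n] {L L₁ L₂ : LD n N} {D U : Set (EYM.E n)}
  {g g₁ g₂ : EYM.E n → Matrix (Fin n) (Fin n) ℝ} {B B₁ B₂ : Fin n → EYM.E n → EndF N}
  {l : EYM.E n →L[ℝ] ℝ} {ν : EYM.E n} {σ : EYM.E n → EYM.E n} {δ : ℝ}
  {S S₁ S₂ : EYM.E n → St (EYM.E n) (EndF N)}

theorem adj_Bv (B : Fin n → EYM.E n → EndF N) (x v : EYM.E n) :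
    ContinuousLinearMap.adjoint (Bv B x v) = ∑ i, v i • ContinuousLinearMap.adjoint (B i x) := by
  unfold Bv
  rw [← adjRE_apply, map_sum]
  exact Finset.sum_congr rfl fun i _ => by rw [map_smul, adjRE_apply]

/-- the Hermitian form is parallel -/
theorem fd_h (hD : RelOpen D) (ok : L.Ok D) {x : EYM.E n} (hx : x ∈ D) (v : EYM.E n) :
    fderivWithin ℝ L.h (Hs n) x v = ContinuousLinearMap.adjoint (Bv L.B x v) * L.h x +
      L.h x * Bv L.B x v := by
  rw [fderivWithin_eq_sum, adj_Bv, Finset.sum_mul]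
  unfold Bv
  rw [Finset.mul_sum, ← Finset.sum_add_distrib]
  refine Finset.sum_congr rfl fun i _ => ?_
  rw [ok.compat x hx i, smul_add, smul_mul_assoc, mul_smul_comm]

/-- a function with derivative zero within a segment is constant -/
theorem const_seg' {W : Type} [NormedAddCommGroup W] [NormedSpace ℝ W] {f : ℝ → W} {a : ℝ}
    (ha : 0 ≤ a) (h : ∀ t ∈ Icc 0 a, HasDerivWithinAt f 0 (Icc 0 a) t) : f a = f 0 := by
  have h1 := (convex_Icc (0 : ℝ) a).norm_image_sub_le_of_norm_hasDerivWithin_le (f := f)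
    (f' := fun _ => 0) (C := 0) (x := 0) (y := a) (fun t ht => h t ht)
    (fun t _ => by simp) ⟨le_rfl, ha⟩ ⟨ha, le_rfl⟩
  simp only [zero_mul] at h1
  exact sub_eq_zero.1 (norm_le_zero_iff.1 h1)

theorem hermS (hE : Ext L D U g B) (ok : L.Ok D) (h : Sys (toG g) (toB B) U l ν σ δ S)
    (hν : l ν = 1) {y₀ : EYM.E n} (h0 : y₀ ∈ ball (0 : EYM.E n) δ) (hl : l y₀ = 0) {a : ℝ}
    (ha : 0 ≤ a) (hb : ∀ t ∈ Icc 0 a, y₀ + t • ν ∈ ball (0 : EYM.E n) δ)
    (hD : ∀ t ∈ Icc 0 a, (S (y₀ + t • ν)).1 ∈ D) :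
    ContinuousLinearMap.adjoint (S (y₀ + a • ν)).2.2.2 * L.h (S (y₀ + a • ν)).1 *
      (S (y₀ + a • ν)).2.2.2 = L.h (σ y₀) := by
  have hc := const_seg' (f := fun t : ℝ => adjRE (S (y₀ + t • ν)).2.2.2 *
      L.h (S (y₀ + t • ν)).1 * (S (y₀ + t • ν)).2.2.2) ha
    (fun t ht => by
      have hbt := hb t ht
      set x := y₀ + t • ν with hx
      have g1 : HasDerivWithinAt (fun t : ℝ => L.h (S (y₀ + t • ν)).1)
          (fderivWithin ℝ L.h (Hs n) (S x).1 (S x).2.1) (Icc 0 a) t :=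
        HasFDerivWithinAt.comp_hasDerivWithinAt (l := L.h) (t := Hs n)
          (f := fun t : ℝ => (S (y₀ + t • ν)).1) t
          (hE.rel.hasD (hD t ht) ok.h_smooth (by simp)) ((h.l1 hbt).hasDerivWithinAt)
          (fun s hs => hE.rel.subset (hD s hs))
      have a1 : HasDerivWithinAt (fun t : ℝ => adjRE (S (y₀ + t • ν)).2.2.2)
          (adjRE (-(toB B (S x).1 (S x).2.1 * (S x).2.2.2))) (Icc 0 a) t :=
        (HasFDerivAt.comp_hasDerivAt (l := (adjRE : EndF N →L[ℝ] EndF N))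
          (f := fun t : ℝ => (S (y₀ + t • ν)).2.2.2) t
          (adjRE : EndF N →L[ℝ] EndF N).hasFDerivAt (h.l4 hbt)).hasDerivWithinAt
      refine ((a1.mul g1).mul (h.l4 hbt).hasDerivWithinAt).congr_deriv ?_
      rw [fd_h hE.rel ok (hD t ht)]
      have e1 : toB B (S x).1 (S x).2.1 = Bv L.B (S x).1 (S x).2.1 := by
        rw [toB_apply]
        unfold Bv
        exact Finset.sum_congr rfl fun i _ => by rw [hE.Beq _ (hD t ht)]
      simp only [← hx, Pi.mul_apply]
      rw [e1, map_neg, adjRE_apply, adj_mulE, adjRE_apply]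
      noncomm_ring)
  simp only [zero_smul, add_zero] at hc
  rw [adjRE_apply] at hc
  rw [hc, h.ini y₀ h0 hl]
  simp only [mul_one]
  have e2 : (adjRE (1 : EndF N)) = 1 := star_one (EndF N)
  rw [e2, one_mul]

/-- `0 ≤ t ≤ a` -/
theorem seg_ball' (hν : l ν = 1) (hπ : ∀ y : EYM.E n, ‖y - l y • ν‖ ≤ ‖y‖) {y₀ : EYM.E n}
    (hl : l y₀ = 0) {a : ℝ} (ha : 0 ≤ a) (hb : y₀ + a • ν ∈ ball (0 : EYM.E n) δ) :
    ∀ t ∈ Icc 0 a, y₀ + t • ν ∈ ball (0 : EYM.E n) δ := by
  intro t ht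
  have e : l (y₀ + a • ν) = a := by rw [map_add, map_smul, hν, hl]; simp
  have := seg_ball (t := t) hπ hb (Or.inl (by rw [e]; exact ht))
  rwa [e, add_sub_cancel_right] at this

theorem gram' (h : Sys (toG g) (toB B) U l ν σ δ S) (hG : IsMetricOn (toG g) U) (hν : l ν = 1)
    (hπ : ∀ y : EYM.E n, ‖y - l y • ν‖ ≤ ‖y‖) {y₀ : EYM.E n} (hl : l y₀ = 0) {t : ℝ}
    (hb : y₀ + t • ν ∈ ball (0 : EYM.E n) δ) (a b : EYM.E n) :
    toG g (S (y₀ + t • ν)).1 ((S (y₀ + t • ν)).2.2.1 a) ((S (y₀ + t • ν)).2.2.1 b) =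
      toG g (σ y₀) a b := by
  have e : l (y₀ + t • ν) = t := by rw [map_add, map_smul, hν, hl]; simp
  have := h.gram hG hν hπ hb a b
  rwa [e, add_sub_cancel_right] at this

/-- the flow lines with their frames are admissible in the definition of the class -/
theorem parS (hE : Ext L D U g B) (ok : L.Ok D) (h : Sys (toG g) (toB B) U l ν σ δ S)
    (hν : l ν = 1) (hπ : ∀ y : EYM.E n, ‖y - l y • ν‖ ≤ ‖y‖) {y₀ : EYM.E n}
    (h0 : y₀ ∈ ball (0 : EYM.E n) δ) (hl : l y₀ = 0) {ℓ : ℝ}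
    (hℓ : 0 ≤ ℓ) (hb : y₀ + ℓ • ν ∈ ball (0 : EYM.E n) δ)
    (hD : ∀ t ∈ Icc 0 ℓ, (S (y₀ + t • ν)).1 ∈ D) {e : Fin n → EYM.E n}
    (he : ∀ a b, gv g (σ y₀) (e a) (e b) = if a = b then 1 else 0) {u : EndF N}
    (hu : ContinuousLinearMap.adjoint u * L.h (σ y₀) * u = 1) :
    Par L D ℓ (fun s => (S (y₀ + s • ν)).1) (fun s => (S (y₀ + s • ν)).2.1)
      (fun a s => (S (y₀ + s • ν)).2.2.1 (e a)) (fun s => (S (y₀ + s • ν)).2.2.2 * u) where
  mem := hD
  dγ s hs := (h.l1 (seg_ball' hν hπ hl hℓ hb s hs)).hasDerivWithinAt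
  dw s hs := by
    have := (h.l2 (seg_ball' hν hπ hl hℓ hb s hs)).hasDerivWithinAt (s := Icc 0 ℓ)
    rwa [hE.chr_eq (hD s hs)] at this
  de s hs a := by
    have h1 := ((h.l3 (seg_ball' hν hπ hl hℓ hb s hs)).clm_apply
      (hasDerivAt_const s (e a))).hasDerivWithinAt (s := Icc 0 ℓ)
    refine h1.congr_deriv ?_
    rw [map_zero, add_zero]
    show -(chrisB (toG g) (S (y₀ + s • ν)).1 (S (y₀ + s • ν)).2.1
      ((S (y₀ + s • ν)).2.2.1 (e a))) = _
    rw [hE.chr_eq (hD s hs)]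
  dσ s hs := by
    have h1 := ((h.l4 (seg_ball' hν hπ hl hℓ hb s hs)).mul_const u).hasDerivWithinAt
      (s := Icc 0 ℓ)
    refine h1.congr_deriv ?_
    have e1 : toB B (S (y₀ + s • ν)).1 (S (y₀ + s • ν)).2.1 =
        Bv L.B (S (y₀ + s • ν)).1 (S (y₀ + s • ν)).2.1 := by
      rw [toB_apply]
      unfold Bv
      exact Finset.sum_congr rfl fun i _ => by rw [hE.Beq _ (hD s hs)]
    rw [e1, neg_mul, mul_assoc]
  on s hs a b := by
    have h1 := gram' h hE.metric hν hπ hl (seg_ball' hν hπ hl hℓ hb s hs) (e a) (e b)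
    rw [toG_apply, toG_apply, he] at h1
    rw [← h1]
    unfold gv
    rw [hE.geq _ (hD s hs)]
  un s hs := by
    have h1 := hermS hE ok h hν h0 hl hs.1
      (fun t ht => seg_ball' hν hπ hl hℓ hb t ⟨ht.1, ht.2.trans hs.2⟩)
      (fun t ht => hD t ⟨ht.1, ht.2.trans hs.2⟩)
    rw [adj_mulE]
    calc ContinuousLinearMap.adjoint u * ContinuousLinearMap.adjoint (S (y₀ + s • ν)).2.2.2 *
          L.h (S (y₀ + s • ν)).1 * ((S (y₀ + s • ν)).2.2.2 * u)
        = ContinuousLinearMap.adjoint u * (ContinuousLinearMap.adjoint (S (y₀ + s • ν)).2.2.2 *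
          L.h (S (y₀ + s • ν)).1 * (S (y₀ + s • ν)).2.2.2) * u := by noncomm_ring
      _ = 1 := by rw [h1, hu]

end Vale.Agent.P088.R2.H455
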