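import Vale.Agent.P088.R2.H455.Core2

/-!
# P088, quasi-analytic class: the curvatures along the two flows agree (third part)
-/

open Set Filter Topology Metric
open scoped ContDiff

set_option linter.all false
set_option maxSynthPendingDepth 3

noncomputable section

namespace Vale.Agent.P088.R2.H455

open Vale.Agent.P219.RG Vale.Agent.P088.EYM

variable {n N : ℕ} [NeZero n] {L L₁ L₂ : LD n N} {D U : Set (EYM.E n)}
  {g g₁ g₂ : EYM.E n → Matrix (Fin n) (Fin n) ℝ} {B B₁ B₂ : Fin n → EYM.E n → EndF N}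
  {l : EYM.E n →L[ℝ] ℝ} {ν : EYM.E n} {σ : EYM.E n → EYM.E n} {δ : ℝ}
  {S S₁ S₂ : EYM.E n → St (EYM.E n) (EndF N)} {𝒬 : ℝ → (ℝ → ℂ) → Prop}

/-- the component of the curvature tensor along a flow line, in terms of `hatR` -/
def cR (g : EYM.E n → Matrix (Fin n) (Fin n) ℝ) (G₀ : EYM.E n →L[ℝ] EYM.E n →L[ℝ] ℝ)
    (S : EYM.E n → St (EYM.E n) (EndF N)) (y₀ ν a b c d : EYM.E n) (s : ℝ) : ℂ :=
  ((G₀ c (hatR (toG g) S (y₀ + s • ν) a b d) : ℝ) : ℂ)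

/-- the component of the curvature of the connection along a flow line, in terms of `hatF` -/
def cF (B : Fin n → EYM.E n → EndF N) (h₀ u : EndF N)
    (S : EYM.E n → St (EYM.E n) (EndF N)) (y₀ ν a b : EYM.E n) (p q : Fin N) (s : ℝ) : ℂ :=
  (ContinuousLinearMap.adjoint u * h₀ * hatF (toB B) S (y₀ + s • ν) a b * u)
    (EuclideanSpace.single q (1 : ℂ)) p

theorem inQ_R (hE : Ext L D U g B) (ok : L.Ok D) (hq : QEq 𝒬 L D)
    (h : Sys (toG g) (toB B) U l ν σ δ S)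
    (hν : l ν = 1) (hπ : ∀ y : EYM.E n, ‖y - l y • ν‖ ≤ ‖y‖) {y₀ : EYM.E n}
    (h0 : y₀ ∈ ball (0 : EYM.E n) δ) (hl : l y₀ = 0) {ℓ : ℝ}
    (hℓ : 0 < ℓ) (hb : y₀ + ℓ • ν ∈ ball (0 : EYM.E n) δ)
    (hD : ∀ t ∈ Icc 0 ℓ, (S (y₀ + t • ν)).1 ∈ D) {e : Fin n → EYM.E n}
    (he : ∀ a b, gv g (σ y₀) (e a) (e b) = if a = b then 1 else 0) {u : EndF N}
    (hu : ContinuousLinearMap.adjoint u * L.h (σ y₀) * u = 1) (a b c d : Fin n) :
    InQ 𝒬 ℓ (cR g (toG g (σ y₀)) S y₀ ν (e a) (e b) (e c) (e d)) := by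
  obtain ⟨q, hq1, hq2⟩ := hq.rm ℓ _ _ _ _ hℓ (parS hE ok h hν hπ h0 hl hℓ.le hb hD he hu) a b c d
  refine ⟨q, hq1, fun s hs => ?_⟩
  rw [hq2 hs]
  show ((rmv L.g (S (y₀ + s • ν)).1 ((S (y₀ + s • ν)).2.2.1 (e a)) ((S (y₀ + s • ν)).2.2.1 (e b))
    ((S (y₀ + s • ν)).2.2.1 (e c)) ((S (y₀ + s • ν)).2.2.1 (e d)) : ℝ) : ℂ) = _
  unfold cR
  congr 1
  have hbs := seg_ball' hν hπ hl hℓ.le hb s hs
  rw [← hE.rm_eq (hD s hs), ← gram' h hE.metric hν hπ hl hbs]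
  unfold hatR
  rw [unit_inv (h.unT _ hbs)]

theorem inQ_F (hE : Ext L D U g B) (ok : L.Ok D) (hq : QEq 𝒬 L D)
    (h : Sys (toG g) (toB B) U l ν σ δ S)
    (hν : l ν = 1) (hπ : ∀ y : EYM.E n, ‖y - l y • ν‖ ≤ ‖y‖) {y₀ : EYM.E n}
    (h0 : y₀ ∈ ball (0 : EYM.E n) δ) (hl : l y₀ = 0) {ℓ : ℝ}
    (hℓ : 0 < ℓ) (hb : y₀ + ℓ • ν ∈ ball (0 : EYM.E n) δ)
    (hD : ∀ t ∈ Icc 0 ℓ, (S (y₀ + t • ν)).1 ∈ D) {e : Fin n → EYM.E n}
    (he : ∀ a b, gv g (σ y₀) (e a) (e b) = if a = b then 1 else 0) {u : EndF N}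
    (hu : ContinuousLinearMap.adjoint u * L.h (σ y₀) * u = 1) (a b : Fin n) (p q : Fin N) :
    InQ 𝒬 ℓ (cF B (L.h (σ y₀)) u S y₀ ν (e a) (e b) p q) := by
  obtain ⟨f, hf1, hf2⟩ := hq.cur ℓ _ _ _ _ hℓ (parS hE ok h hν hπ h0 hl hℓ.le hb hD he hu) a b p q
  refine ⟨f, hf1, fun s hs => ?_⟩
  rw [hf2 hs]
  have hbs := seg_ball' hν hπ hl hℓ.le hb s hs
  show (ContinuousLinearMap.adjoint ((S (y₀ + s • ν)).2.2.2 * u) * L.h (S (y₀ + s • ν)).1 *
    curv2 L.B (S (y₀ + s • ν)).1 ((S (y₀ + s • ν)).2.2.1 (e a)) ((S (y₀ + s • ν)).2.2.1 (e b)) *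
    ((S (y₀ + s • ν)).2.2.2 * u)) (EuclideanSpace.single q (1 : ℂ)) p = _
  have h1 := hermS hE ok h hν h0 hl hs.1
      (fun t ht => seg_ball' hν hπ hl hℓ.le hb t ⟨ht.1, ht.2.trans hs.2⟩)
      (fun t ht => hD t ⟨ht.1, ht.2.trans hs.2⟩)
  unfold cF hatF
  rw [hE.cur_eq (hD s hs), ← h1]
  set P := (S (y₀ + s • ν)).2.2.2 with hP
  set C := curv2 L.B (S (y₀ + s • ν)).1 ((S (y₀ + s • ν)).2.2.1 (e a))
    ((S (y₀ + s • ν)).2.2.1 (e b)) with hC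
  set H := L.h (S (y₀ + s • ν)).1 with hH
  have h2 : P * Ring.inverse P = 1 := Ring.mul_inverse_cancel _ (h.unP _ hbs)
  have h3 : ContinuousLinearMap.adjoint (P * u) * H * C * (P * u) =
      ContinuousLinearMap.adjoint u * (ContinuousLinearMap.adjoint P * H * P) *
        (Ring.inverse P * C * P) * u := by
    rw [adj_mulE]
    calc ContinuousLinearMap.adjoint u * ContinuousLinearMap.adjoint P * H * C * (P * u)
        = ContinuousLinearMap.adjoint u * ContinuousLinearMap.adjoint P * H * 1 * C * P * u := by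
          rw [mul_one]; noncomm_ring
      _ = _ := by rw [← h2]; noncomm_ring
  rw [h3]

theorem curv_congr {E : Type} [NormedAddCommGroup E] [NormedSpace ℝ E]
    {G₁ G₂ : E → E →L[ℝ] E →L[ℝ] ℝ} {x : E} (h : G₁ =ᶠ[𝓝 x] G₂) (a b c : E) :
    Vale.Agent.P219.RG.curv G₁ x a b c = Vale.Agent.P219.RG.curv G₂ x a b c := by
  have h1 : ∀ᶠ p in 𝓝 x, ∀ v w : E, chris G₁ p v w = chris G₂ p v w := by
    filter_upwards [eventually_eventually_nhds.2 h] with p hp v w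
    unfold chris
    rw [Filter.EventuallyEq.fderiv_eq hp, hp.self_of_nhds]
  have h2 : ∀ v w : E, (fun p => chris G₁ p v w) =ᶠ[𝓝 x] fun p => chris G₂ p v w := fun v w => by
    filter_upwards [h1] with p hp using hp v w
  unfold Vale.Agent.P219.RG.curv
  rw [(h2 b c).fderiv_eq, (h2 a c).fderiv_eq]
  have h3 := h1.self_of_nhds
  simp only [h3]

theorem curvB_congr {E A : Type} [NormedAddCommGroup E] [NormedSpace ℝ E] [NormedRing A]
    [NormedAlgebra ℝ A] {B₁ B₂ : E → E →L[ℝ] A} {x : E} (h : B₁ =ᶠ[𝓝 x] B₂) (a b : E) :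
    curvB B₁ x a b = curvB B₂ x a b := by
  unfold curvB
  rw [h.fderiv_eq, h.self_of_nhds]

/-- The curvatures of two flows agree, if the data agree for negative times. -/
theorem hat_eq (hQ : QAn 𝒬) (hE₁ : Ext L₁ D U g₁ B₁) (hE₂ : Ext L₂ D U g₂ B₂) (ok₁ : L₁.Ok D)
    (ok₂ : L₂.Ok D) (hq₁ : QEq 𝒬 L₁ D) (hq₂ : QEq 𝒬 L₂ D)
    (h₁ : Sys (toG g₁) (toB B₁) U l ν σ δ S₁) (h₂ : Sys (toG g₂) (toB B₂) U l ν σ δ S₂)
    (hν : l ν = 1) (hπ : ∀ y : EYM.E n, ‖y - l y • ν‖ ≤ ‖y‖)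
    (hD₁ : ∀ y ∈ ball (0 : EYM.E n) δ, 0 ≤ l y → (S₁ y).1 ∈ D)
    (hD₂ : ∀ y ∈ ball (0 : EYM.E n) δ, 0 ≤ l y → (S₂ y).1 ∈ D)
    (hneg : ∀ y ∈ ball (0 : EYM.E n) δ, l y ≤ 0 → S₁ y = S₂ y)
    (hloc : ∀ y ∈ ball (0 : EYM.E n) δ, l y < 0 → toG g₁ =ᶠ[𝓝 (S₁ y).1] toG g₂ ∧
      toB B₁ =ᶠ[𝓝 (S₁ y).1] toB B₂)
    (h0 : ∀ y ∈ ball (0 : EYM.E n) δ, l y = 0 → toG g₁ (σ y) = toG g₂ (σ y) ∧
      L₁.h (σ y) = L₂.h (σ y))
    {y : EYM.E n} (hy : y ∈ ball (0 : EYM.E n) δ) (hly : 0 ≤ l y) :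
    (∀ a b c, hatR (toG g₁) S₁ y a b c = hatR (toG g₂) S₂ y a b c) ∧
      (∀ a b, hatF (toB B₁) S₁ y a b = hatF (toB B₂) S₂ y a b) := by
  set y₀ := y - l y • ν with hy₀
  have hb0 : y₀ ∈ ball (0 : EYM.E n) δ := proj_ball hπ hy
  have hl0 : l y₀ = 0 := proj_zero hν y
  have hlt : ∀ t : ℝ, l (y₀ + t • ν) = t := by
    intro t
    rw [map_add, map_smul, hν, smul_eq_mul, mul_one, hl0, zero_add]
  have hyy : y₀ + l y • ν = y := proj_add y
  -- a slightly longer segment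
  obtain ⟨ℓ, hℓ0, hℓ1, hbℓ⟩ : ∃ ℓ : ℝ, 0 < ℓ ∧ l y ≤ ℓ ∧ y₀ + ℓ • ν ∈ ball (0 : EYM.E n) δ := by
    have hc : ContinuousAt (fun t : ℝ => y₀ + t • ν) (l y) := by fun_prop
    have h1 : ∀ᶠ t : ℝ in 𝓝 (l y), y₀ + t • ν ∈ ball (0 : EYM.E n) δ :=
      hc (isOpen_ball.mem_nhds (by show y₀ + l y • ν ∈ _; rw [hyy]; exact hy))
    obtain ⟨ε, hε, h2⟩ := Metric.eventually_nhds_iff_ball.1 h1
    refine ⟨l y + ε / 2, by linarith, by linarith, h2 _ ?_⟩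
    rw [mem_ball, Real.dist_eq]
    rw [add_sub_cancel_left, abs_of_pos (by linarith)]
    linarith
  have hseg := seg_ball' hν hπ hl0 hℓ0.le hbℓ
  obtain ⟨k1, k2⟩ := h0 y₀ hb0 hl0
  have hσU : σ y₀ ∈ U := by
    have := h₁.mem y₀ hb0
    rwa [h₁.ini y₀ hb0 hl0] at this
  have hσD : σ y₀ ∈ D := by
    have := hD₁ y₀ hb0 hl0.ge
    rwa [h₁.ini y₀ hb0 hl0] at this
  obtain ⟨e, he, hspan⟩ := exists_frame (hE₁.pos _ hσU)
  have he2 : ∀ a b, gv g₂ (σ y₀) (e a) (e b) = if a = b then 1 else 0 := by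
    intro a b
    rw [← toG_apply, ← k1, toG_apply, he]
  obtain ⟨u, huu, hu⟩ := exists_unitary (ok₁.h_adj _ hσD) (ok₁.h_pos _ hσD)
  have hu2 : ContinuousLinearMap.adjoint u * L₂.h (σ y₀) * u = 1 := by rw [← k2]; exact hu
  have hDs₁ : ∀ t ∈ Icc 0 ℓ, (S₁ (y₀ + t • ν)).1 ∈ D := fun t ht =>
    hD₁ _ (hseg t ht) (by rw [hlt]; exact ht.1)
  have hDs₂ : ∀ t ∈ Icc 0 ℓ, (S₂ (y₀ + t • ν)).1 ∈ D := fun t ht =>
    hD₂ _ (hseg t ht) (by rw [hlt]; exact ht.1)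
  have hnegev : ∀ᶠ s : ℝ in 𝓝[<] 0, y₀ + s • ν ∈ ball (0 : EYM.E n) δ ∧ s < 0 := by
    have h1 : ∀ᶠ t : ℝ in 𝓝 0, y₀ + t • ν ∈ ball (0 : EYM.E n) δ := by
      have hc : ContinuousAt (fun t : ℝ => y₀ + t • ν) 0 := by fun_prop
      exact hc (isOpen_ball.mem_nhds (by
        show y₀ + (0 : ℝ) • ν ∈ ball (0 : EYM.E n) δ
        rwa [zero_smul, add_zero]))
    filter_upwards [mem_nhdsWithin_of_mem_nhds h1, self_mem_nhdsWithin] with t h2 h3 using ⟨h2, h3⟩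
  have hline : ∀ s : ℝ, ContDiffAt ℝ ∞ (fun t : ℝ => y₀ + t • ν) s := fun s =>
    contDiffAt_const.add (contDiffAt_id.smul contDiffAt_const)
  have hcast : ∀ {f : ℝ → ℝ} {s : ℝ}, ContDiffAt ℝ ∞ f s →
      ContDiffAt ℝ ∞ (fun t => ((f t : ℝ) : ℂ)) s := fun hf =>
    Complex.ofRealCLM.contDiff.contDiffAt.comp _ hf
  -- smoothness along the flow line
  have hsR : ∀ {L : LD n N} {g : EYM.E n → Matrix (Fin n) (Fin n) ℝ} {B : Fin n → EYM.E n → EndF N}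
      {S : EYM.E n → St (EYM.E n) (EndF N)}, Ext L D U g B → Sys (toG g) (toB B) U l ν σ δ S →
      ∀ (G₀ : EYM.E n →L[ℝ] EYM.E n →L[ℝ] ℝ) (a b c d : EYM.E n), ∀ s ∈ Icc 0 ℓ,
      ContDiffAt ℝ ∞ (cR g G₀ S y₀ ν a b c d) s := by
    intro L g B S hE h G₀ a b c d s hs
    have h1 := h.smooth_hatR hE.metric (hseg s hs) a b d
    have h2 : ContDiffAt ℝ ∞ (fun t : ℝ => hatR (toG g) S (y₀ + t • ν) a b d) s :=
      ContDiffAt.comp (g := fun y => hatR (toG g) S y a b d) s h1 (hline s)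
    exact hcast ((G₀ c).contDiff.contDiffAt.comp s h2)
  have hsF : ∀ {L : LD n N} {g : EYM.E n → Matrix (Fin n) (Fin n) ℝ} {B : Fin n → EYM.E n → EndF N}
      {S : EYM.E n → St (EYM.E n) (EndF N)}, Ext L D U g B → Sys (toG g) (toB B) U l ν σ δ S →
      ∀ (h₀ u : EndF N) (a b : EYM.E n) (p q : Fin N), ∀ s ∈ Icc 0 ℓ,
      ContDiffAt ℝ ∞ (cF B h₀ u S y₀ ν a b p q) s := by
    intro L g B S hE h h₀ u a b p q s hs
    have h1 := h.smooth_hatF hE.op hE.smB' (hseg s hs) a b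
    have h2 : ContDiffAt ℝ ∞ (fun t : ℝ => hatF (toB B) S (y₀ + t • ν) a b) s :=
      ContDiffAt.comp (g := fun y => hatF (toB B) S y a b) s h1 (hline s)
    have h3 : ContDiffAt ℝ ∞ (fun t : ℝ => ContinuousLinearMap.adjoint u * h₀ *
        hatF (toB B) S (y₀ + t • ν) a b * u) s := (contDiffAt_const.mul h2).mul contDiffAt_const
    have h4 : ContDiffAt ℝ ∞ (fun t : ℝ => (ContinuousLinearMap.adjoint u * h₀ *
        hatF (toB B) S (y₀ + t • ν) a b * u) (EuclideanSpace.single q (1 : ℂ))) s := by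
      have hc : ContDiff ℝ ∞ (fun T : EndF N => T (EuclideanSpace.single q (1 : ℂ))) :=
        ((ContinuousLinearMap.apply ℂ (Fib N) (EuclideanSpace.single q (1 : ℂ))).restrictScalars
          ℝ).contDiff
      exact hc.contDiffAt.comp s h3
    have hp : ContDiff ℝ ∞ (fun v : Fib N => v p) :=
      (((EuclideanSpace.proj p : Fib N →L[ℂ] ℂ)).restrictScalars ℝ).contDiff
    exact hp.contDiffAt.comp s h4
  constructor
  · -- the metric part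
    have key : ∀ a b c d : Fin n, toG g₁ (σ y₀) (e c) (hatR (toG g₁) S₁ y (e a) (e b) (e d)) =
        toG g₁ (σ y₀) (e c) (hatR (toG g₂) S₂ y (e a) (e b) (e d)) := by
      intro a b c d
      have hR₁ := inQ_R hE₁ ok₁ hq₁ h₁ hν hπ hb0 hl0 hℓ0 hbℓ hDs₁ he hu a b c d
      have hR₂ := inQ_R hE₂ ok₂ hq₂ h₂ hν hπ hb0 hl0 hℓ0 hbℓ hDs₂ he2 hu2 a b c d
      rw [← k1] at hR₂
      have h5 := qa_eq hQ hℓ0 (hsR hE₁ h₁ _ _ _ _ _) (hsR hE₂ h₂ _ _ _ _ _) (by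
        filter_upwards [hnegev] with s hs
        unfold cR hatR
        have e1 := hneg _ hs.1 (by rw [hlt]; exact hs.2.le)
        have e2 := (hloc _ hs.1 (by rw [hlt]; exact hs.2)).1
        rw [curv_congr e2, e1]) hR₁ hR₂ ⟨hly, hℓ1⟩
      unfold cR at h5
      rw [hyy] at h5
      exact Complex.ofReal_injective h5
    have key2 : ∀ a b d : Fin n, hatR (toG g₁) S₁ y (e a) (e b) (e d) =
        hatR (toG g₂) S₂ y (e a) (e b) (e d) := by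
      intro a b d
      apply hE₁.metric.ext_of hσU
      intro z
      rw [hE₁.metric.symm _ hσU, hE₁.metric.symm _ hσU (hatR (toG g₂) S₂ y (e a) (e b) (e d))]
      exact ext1 (f := fun z => toG g₁ (σ y₀) z (hatR (toG g₁) S₁ y (e a) (e b) (e d)))
        (g := fun z => toG g₁ (σ y₀) z (hatR (toG g₂) S₂ y (e a) (e b) (e d)))
        ⟨fun x y => by simp, fun r x => by simp⟩ ⟨fun x y => by simp, fun r x => by simp⟩ hspan
        (fun c => key a b c d) z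
    obtain ⟨a1, a2, a3⟩ := linR (S := S₁) hE₁.metric (h₁.mem y hy)
    obtain ⟨b1, b2, b3⟩ := linR (S := S₂) hE₂.metric (h₂.mem y hy)
    have s1 : ∀ a, ∀ b d : Fin n, hatR (toG g₁) S₁ y a (e b) (e d) =
        hatR (toG g₂) S₂ y a (e b) (e d) := fun a b d =>
      ext1 (a1 _ _) (b1 _ _) hspan (fun i => key2 i b d) a
    have s2 : ∀ a b, ∀ d : Fin n, hatR (toG g₁) S₁ y a b (e d) =
        hatR (toG g₂) S₂ y a b (e d) := fun a b d =>
      ext1 (a2 _ _) (b2 _ _) hspan (fun i => s1 a i d) b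
    exact fun a b d => ext1 (a3 _ _) (b3 _ _) hspan (fun i => s2 a b i) d
  · -- the connection part
    have key2 : ∀ a b : Fin n, hatF (toB B₁) S₁ y (e a) (e b) = hatF (toB B₂) S₂ y (e a) (e b) := by
      intro a b
      have key : ContinuousLinearMap.adjoint u * L₁.h (σ y₀) * hatF (toB B₁) S₁ y (e a) (e b) * u =
          ContinuousLinearMap.adjoint u * L₁.h (σ y₀) * hatF (toB B₂) S₂ y (e a) (e b) * u := by
        have k5 : ∀ p q : Fin N, (ContinuousLinearMap.adjoint u * L₁.h (σ y₀) *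
            hatF (toB B₁) S₁ y (e a) (e b) * u) (EuclideanSpace.single q (1 : ℂ)) p =
            (ContinuousLinearMap.adjoint u * L₁.h (σ y₀) *
            hatF (toB B₂) S₂ y (e a) (e b) * u) (EuclideanSpace.single q (1 : ℂ)) p := by
          intro p q
          have hF₁ := inQ_F hE₁ ok₁ hq₁ h₁ hν hπ hb0 hl0 hℓ0 hbℓ hDs₁ he hu a b p q
          have hF₂ := inQ_F hE₂ ok₂ hq₂ h₂ hν hπ hb0 hl0 hℓ0 hbℓ hDs₂ he2 hu2 a b p q
          rw [← k2] at hF₂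
          have h5 := qa_eq hQ hℓ0 (hsF hE₁ h₁ _ _ _ _ _ _) (hsF hE₂ h₂ _ _ _ _ _ _) (by
            filter_upwards [hnegev] with s hs
            unfold cF hatF
            have e1 := hneg _ hs.1 (by rw [hlt]; exact hs.2.le)
            have e2 := (hloc _ hs.1 (by rw [hlt]; exact hs.2)).2
            rw [curvB_congr e2, e1]) hF₁ hF₂ ⟨hly, hℓ1⟩
          unfold cF at h5
          rwa [hyy] at h5
        apply ContinuousLinearMap.coe_injective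
        refine (EuclideanSpace.basisFun (Fin N) ℂ).toBasis.ext fun q => ?_
        ext p
        simpa using k5 p q
      -- cancel the invertible factors
      have hu1 : IsUnit (ContinuousLinearMap.adjoint u * L₁.h (σ y₀)) := by
        have : (ContinuousLinearMap.adjoint u * L₁.h (σ y₀)) * u = 1 := hu
        obtain ⟨v, hv⟩ := huu
        rw [← hv] at this ⊢
        rw [Units.mul_eq_one_iff_eq_inv] at this
        rw [this]
        exact Units.isUnit _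
      have c1 := huu.mul_right_cancel key
      exact hu1.mul_left_cancel c1
    obtain ⟨a1, a2⟩ := linF (B := toB B₁) (S := S₁) (y := y)
    obtain ⟨b1, b2⟩ := linF (B := toB B₂) (S := S₂) (y := y)
    have s1 : ∀ a, ∀ b : Fin n, hatF (toB B₁) S₁ y a (e b) = hatF (toB B₂) S₂ y a (e b) :=
      fun a b => ext1 (a1 _) (b1 _) hspan (fun i => key2 i b) a
    exact fun a b => ext1 (a2 _) (b2 _) hspan (fun i => s1 a i) b

end Vale.Agent.P088.R2.H455
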