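import Vale.Agent.P088.R2.H455.StQ
import Vale.Agent.P088.R2.H455.Bang

/-!
# P088: Denjoy-Carleman classes are quasi-analytic
-/

open Set Filter Topology Vale.Agent.P088.BQ
open scoped ContDiff

set_option linter.all false

namespace Vale.Agent.P088.R2.H455

/-- The Denjoy-Carleman theorem for the classes `DC m`. -/
theorem quasi_dc {m : ℕ → ℝ} (hm : ∀ k, 0 < m k) (hlog : ∀ k, m (k + 1) ^ 2 ≤ m k * m (k + 2))
    (hdiv : ¬ Summable (fun k => m k / m (k + 1))) : Quasi (DC m) := by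
  intro ℓ hℓ f g hf hg hfs hgs h0 x hx
  obtain ⟨-, C₁, R₁, h₁⟩ := hf
  obtain ⟨-, C₂, R₂, h₂⟩ := hg
  have hu : UniqueDiffOn ℝ (Icc 0 ℓ) := uniqueDiffOn_Icc hℓ
  have hsub : ∀ k : ℕ, ∀ s ∈ Icc 0 ℓ, iteratedDerivWithin k (fun t => f t - g t) (Icc 0 ℓ) s =
      iteratedDerivWithin k f (Icc 0 ℓ) s - iteratedDerivWithin k g (Icc 0 ℓ) s := by
    intro k s hs
    exact iteratedDerivWithin_sub (f := f) (g := g) hs hu
      ((hfs.of_le (by exact_mod_cast le_top)).contDiffWithinAt hs)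
      ((hgs.of_le (by exact_mod_cast le_top)).contDiffWithinAt hs)
  set R : ℝ := max |R₁| |R₂| with hR
  have hR1 : |R₁| ≤ R := le_max_left _ _
  have hR2 : |R₂| ≤ R := le_max_right _ _
  have key := denjoy_carleman (f := fun t => f t - g t) hℓ (hfs.sub hgs) hm
    hlog hdiv (C := |C₁| + |C₂|) (R := R) (fun k s hs => ?_) (fun k => ?_) x hx
  · exact sub_eq_zero.1 key
  · rw [hsub k s hs]
    have e1 : ∀ C R' : ℝ, |R'| ≤ R → C * R' ^ k * m k ≤ |C| * R ^ k * m k := by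
      intro C R' hR'
      refine mul_le_mul_of_nonneg_right ?_ (hm k).le
      calc C * R' ^ k ≤ |C * R' ^ k| := le_abs_self _
        _ = |C| * |R'| ^ k := by rw [abs_mul, abs_pow]
        _ ≤ |C| * R ^ k := mul_le_mul_of_nonneg_left
            (pow_le_pow_left₀ (abs_nonneg _) hR' _) (abs_nonneg _)
    calc ‖iteratedDerivWithin k f (Icc 0 ℓ) s - iteratedDerivWithin k g (Icc 0 ℓ) s‖
        ≤ ‖iteratedDerivWithin k f (Icc 0 ℓ) s‖ + ‖iteratedDerivWithin k g (Icc 0 ℓ) s‖ :=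
          norm_sub_le _ _
      _ ≤ |C₁| * R ^ k * m k + |C₂| * R ^ k * m k :=
          add_le_add ((h₁ k s hs).trans (e1 _ _ hR1)) ((h₂ k s hs).trans (e1 _ _ hR2))
      _ = (|C₁| + |C₂|) * R ^ k * m k := by ring
  · rw [hsub k 0 ⟨le_rfl, hℓ.le⟩, h0 k, sub_self]

end Vale.Agent.P088.R2.H455
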