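import Vale.Agent.P088.R2.H455.FinQ
import Vale.Agent.P088.R2.H455.DCq
import Vale.Agent.P088.R2.H349.Two

/-!
# P088: quasi-analytic pairs, the end
-/

open Bundle Manifold MeasureTheory Set Filter
open scoped ContDiff Matrix Topology ENNReal

noncomputable section

set_option linter.all false

namespace Vale.Agent.P088.R2.H455

open Vale.Agent.P088 Vale.Agent.P088.B Vale.Agent.P088.BQ Vale.Agent.P088.B2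

universe u

theorem wMain2_true : WMain2_statement.{u} := by
  intro n N _ M₁ M₂ _ _ _ _ _ _ _ _ _ _ _ _ _ _ _ _ P Q G K₀ K hn hN hG hS W₁ W₂ hW₁ hW₂ hP₀ hQ₀
    x hx hx2 hx1 W hW hWc hxW hP hQ
  exact TM.Q.wMain2 P Q G K₀ K hn hN hG hS hW₁ hW₂ hP₀ hQ₀ hx hx2 hx1 hW hWc hxW hP hQ

theorem fMain2_true : FMain2_statement.{u} := by
  intro n N _ M₁ M₂ _ _ _ _ _ _ _ _ _ _ _ _ _ _ _ _ P Q G K₀ K hn hN hG hS W₁ W₂ hW₁ hW₂ hP₀ hQ₀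
    x hx hx2 hx1 hP hQ
  exact TM.Q.fMain2 P Q G K₀ K hn hN hG hS hW₁ hW₂ hP₀ hQ₀ hx hx2 hx1 hP hQ

/-- Two manifolds. -/
theorem two_end {n N : ℕ} [NeZero n]
    (hn : 3 ≤ n) (hN : 1 ≤ N) {M₁ M₂ : Type u}
    [TopologicalSpace M₁] [ChartedSpace (EuclideanHalfSpace n) M₁] [IsManifold (𝓡∂ n) ∞ M₁]
    [T2Space M₁] [CompactSpace M₁] [ConnectedSpace M₁]
    [TopologicalSpace M₂] [ChartedSpace (EuclideanHalfSpace n) M₂] [IsManifold (𝓡∂ n) ∞ M₂]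
    [T2Space M₂] [CompactSpace M₂] [ConnectedSpace M₂]
    (Z₁ : At n M₁) (hZ₁ : Z₁ = at_ n M₁) (Z₂ : At n M₂) (hZ₂ : Z₂ = at_ n M₂)
    (Γ₁ O₁ : Set M₁) (hO₁ : IsOpen O₁) (hΓ₁ : Γ₁ = O₁ ∩ bd Z₁)
    (Γ₂ O₂ : Set M₂) (hO₂ : IsOpen O₂) (hΓ₂ : Γ₂ = O₂ ∩ bd Z₂) (ψ : M₂ → M₁)
    (hψ : Iden N Z₁ Z₂ Γ₁ Γ₂ ψ) (P : Pair Z₁ N) (Q : Pair Z₂ N)
    (hdata : SameData₂ Γ₁ Γ₂ ψ P Q) (W₁ : Set M₁) (hW₁ : IsOpen W₁) (W₂ : Set M₂)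
    (hW₂ : IsOpen W₂) (x : M₂) (hx : x ∈ Γ₂ ∩ W₂) (hx₁ : ψ x ∈ W₁) (hnear : Near W₁ W₂ P Q) :
    (∃ W ⊆ W₂, IsOpen W ∧ (W ∩ Γ₂).Nonempty ∧ B4.RelatedIn W Γ₁ Γ₂ ψ P Q) ∧
    (∀ W : Set M₂, IsOpen W → IsPreconnected W → x ∈ W → Inner W P Q →
      B4.RelatedIn W Γ₁ Γ₂ ψ P Q) ∧
    (Inner univ P Q → B4.UniqueRel Γ₁ Γ₂ ψ P Q) :=
  fin_quasi wMain2_true fMain2_true hn hN Z₁ hZ₁ Z₂ hZ₂ Γ₁ O₁ hO₁ hΓ₁ Γ₂ O₂ hO₂ hΓ₂ ψ hψ P Q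
    hdata W₁ hW₁ W₂ hW₂ x hx hx₁ hnear

/-- One manifold. -/
theorem one_end {n N : ℕ}
    [NeZero n] (hn : 3 ≤ n) (hN : 1 ≤ N) {M : Type u}
    [TopologicalSpace M] [ChartedSpace (EuclideanHalfSpace n) M] [IsManifold (𝓡∂ n) ∞ M]
    [T2Space M] [CompactSpace M] [ConnectedSpace M]
    (Z : At n M) (hZ : Z = at_ n M) (Γ O : Set M) (hO : IsOpen O) (hΓ : Γ = O ∩ bd Z)
    (P Q : Pair Z N) (hd : B.SameData Γ P Q) (W₁ W₂ : Set M) (hW₁ : IsOpen W₁) (hW₂ : IsOpen W₂)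
    (hne : (Γ ∩ W₁ ∩ W₂).Nonempty) (hnear : Near W₁ W₂ P Q) (hin : Inner univ P Q) :
    B4.UniqueRel Γ Γ id P Q :=
  fin_quasi_one wMain2_true fMain2_true hn hN Z hZ Γ O hO hΓ P Q hd W₁ W₂ hW₁ hW₂ hne hnear hin

end Vale.Agent.P088.R2.H455
end
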