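import Vale.Agent.P088.R2.H455.StQ2
import Vale.Agent.P088.R2.H455.BrK
import Vale.Agent.P088.H4.Blk

/-!
# P088: quasi-analytic pairs, the main theorem from the abstract theorem with two classes
-/

open Bundle Manifold MeasureTheory Set Filter
open scoped ContDiff Matrix Topology ENNReal

noncomputable section

set_option linter.all false

namespace Vale.Agent.P088.R2.H455

open Vale.Agent.P088 Vale.Agent.P088.B Vale.Agent.P088.BQ Vale.Agent.P088.B2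

universe u

/-- Open sets, two classes. -/
def WMain2_statement : Prop :=
  ∀ (n N : ℕ) [NeZero n] (M₁ M₂ : Type u) [TopologicalSpace M₁]
    [ChartedSpace (EuclideanHalfSpace n) M₁] [IsManifold (𝓡∂ n) ∞ M₁] [T2Space M₁] [CompactSpace M₁]
    [ConnectedSpace M₁] [MeasurableSpace M₁] [BorelSpace M₁] [TopologicalSpace M₂]
    [ChartedSpace (EuclideanHalfSpace n) M₂] [IsManifold (𝓡∂ n) ∞ M₂] [T2Space M₂] [CompactSpace M₂]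
    [ConnectedSpace M₂] [MeasurableSpace M₂] [BorelSpace M₂]
    (P : EYM.One n N M₁) (Q : EYM.One n N M₂) (G : TM.Gl M₁ M₂) (K₀ K : EYM.Q.Cls n N), 3 ≤ n → 0 < N →
    G.Ok n N → TM.SameD P Q G → ∀ (W₁ : Set M₁) (W₂ : Set M₂), IsOpen W₁ → IsOpen W₂ →
    EYM.Q.EYMw K₀ P W₁ → EYM.Q.EYMw K₀ Q W₂ → ∀ x ∈ G.Γ₂, x ∈ W₂ → G.ψ x ∈ W₁ → ∀ W : Set M₂,
    IsOpen W → IsPreconnected W → x ∈ W → EYM.Q.EYMw K P (EYM.Mi n M₁) →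
    EYM.Q.EYMw K Q (W ∩ EYM.Mi n M₂) → ∃ (F : M₂ → M₁) (H : M₂ → EndF N), TM.WMatch P Q G W F H

/-- Two manifolds, two classes. -/
def FMain2_statement : Prop :=
  ∀ (n N : ℕ) [NeZero n] (M₁ M₂ : Type u) [TopologicalSpace M₁]
    [ChartedSpace (EuclideanHalfSpace n) M₁] [IsManifold (𝓡∂ n) ∞ M₁] [T2Space M₁] [CompactSpace M₁]
    [ConnectedSpace M₁] [MeasurableSpace M₁] [BorelSpace M₁] [TopologicalSpace M₂]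
    [ChartedSpace (EuclideanHalfSpace n) M₂] [IsManifold (𝓡∂ n) ∞ M₂] [T2Space M₂] [CompactSpace M₂]
    [ConnectedSpace M₂] [MeasurableSpace M₂] [BorelSpace M₂]
    (P : EYM.One n N M₁) (Q : EYM.One n N M₂) (G : TM.Gl M₁ M₂) (K₀ K : EYM.Q.Cls n N), 3 ≤ n → 0 < N →
    G.Ok n N → TM.SameD P Q G → ∀ (W₁ : Set M₁) (W₂ : Set M₂), IsOpen W₁ → IsOpen W₂ →
    EYM.Q.EYMw K₀ P W₁ → EYM.Q.EYMw K₀ Q W₂ → ∀ x ∈ G.Γ₂, x ∈ W₂ → G.ψ x ∈ W₁ →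
    EYM.Q.EYMw K P (EYM.Mi n M₁) → EYM.Q.EYMw K Q (EYM.Mi n M₂) → TM.GE2 P Q G

/-- The class near the patch. -/
theorem near_cls {n N : ℕ} [NeZero n] (hn : 3 ≤ n) {M₁ M₂ : Type u}
    [TopologicalSpace M₁] [ChartedSpace (EuclideanHalfSpace n) M₁] [IsManifold (𝓡∂ n) ∞ M₁]
    [TopologicalSpace M₂] [ChartedSpace (EuclideanHalfSpace n) M₂] [IsManifold (𝓡∂ n) ∞ M₂]
    {P : Pair (at_ n M₁) N} {Q : Pair (at_ n M₂) N} {W₁ : Set M₁} (hW₁ : IsOpen W₁) {W₂ : Set M₂}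
    (hW₂ : IsOpen W₂) (h : Near W₁ W₂ P Q) :
    ∃ K : EYM.Q.Cls n N, @EYM.Q.EYMw n N _ M₁ _ _ _ (borel M₁) K (one P) W₁ ∧
      @EYM.Q.EYMw n N _ M₂ _ _ _ (borel M₂) K (one Q) W₂ := by
  rcases h with ⟨𝒬, hQ, h₁, h₂⟩ | h
  · exact ⟨EYM.Q.ofH EYM.H.dAll (qCls n N 𝒬 hQ), fun p => bridgeQ h₁ p, fun p => bridgeQ h₂ p⟩
  · obtain ⟨Φ, hΦ, h₁, h₂⟩ := same4_ex EYM.H.harmLap blocks.kah
      (EYM.H.bachLap EYM.H.ricciId EYM.H.cBianchi) hn rfl rfl hW₁ hW₂ h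
    exact ⟨EYM.Q.ofH EYM.H.dAll (cls4 EYM.H.push4 blocks.rigInt blocks.rigBd (rhsOf hΦ)),
      fun p => bridge4_on hΦ h₁ p, fun p => bridge4_on hΦ h₂ p⟩

/-- The class inside. -/
theorem inner_cls {n N : ℕ} [NeZero n] {M₁ M₂ : Type u}
    [TopologicalSpace M₁] [ChartedSpace (EuclideanHalfSpace n) M₁] [IsManifold (𝓡∂ n) ∞ M₁]
    [T2Space M₁] [CompactSpace M₁] [ConnectedSpace M₁]
    [TopologicalSpace M₂] [ChartedSpace (EuclideanHalfSpace n) M₂] [IsManifold (𝓡∂ n) ∞ M₂]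
    [T2Space M₂] [CompactSpace M₂] [ConnectedSpace M₂]
    {P : Pair (at_ n M₁) N} {Q : Pair (at_ n M₂) N} {W : Set M₂} (h : Inner W P Q) :
    ∃ K : EYM.Q.Cls n N, @EYM.Q.EYMw n N _ M₁ _ _ _ (borel M₁) K (one P) (EYM.Mi n M₁) ∧
      @EYM.Q.EYMw n N _ M₂ _ _ _ (borel M₂) K (one Q) (W ∩ EYM.Mi n M₂) := by
  let _ : MeasurableSpace M₁ := borel M₁
  have _ : BorelSpace M₁ := ⟨rfl⟩
  let _ : MeasurableSpace M₂ := borel M₂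
  have _ : BorelSpace M₂ := ⟨rfl⟩
  obtain ⟨𝒬, hQ, G₁, G₂, t₁, t₂, h₁, h₂⟩ := h
  have hb : ∀ {M : Type u} [TopologicalSpace M] [ChartedSpace (EuclideanHalfSpace n) M]
      [IsManifold (𝓡∂ n) ∞ M], ∀ x ∈ EYM.Mi n M, x ∉ (𝓡∂ n).boundary M := by
    intro M _ _ _ x hx hxb
    rw [← ModelWithCorners.compl_interior] at hxb
    exact hxb hx
  refine ⟨EYM.Q.ofH EYM.H.dAll (kCls n N 𝒬 hQ), fun p => ?_, fun p => ?_⟩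
  · exact bridgeK ⟨t₁.1, fun O hO => t₁.2 O fun x hx => ⟨mem_univ _, (hO hx).2⟩⟩
      (fun x hx hxb => absurd hxb (hb x hx)) h₁ p
  · exact bridgeK ⟨t₂.1, fun O hO => t₂.2 O fun x hx => ⟨(hO hx).1.1, (hO hx).2⟩⟩
      (fun x hx hxb => absurd hxb (hb x hx.2)) h₂ p

/-- Two manifolds. -/
theorem fin_quasi (b1 : WMain2_statement.{u}) (b2 : FMain2_statement.{u}) {n N : ℕ} [NeZero n]
    (hn : 3 ≤ n) (hN : 1 ≤ N) {M₁ M₂ : Type u}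
    [TopologicalSpace M₁] [ChartedSpace (EuclideanHalfSpace n) M₁] [IsManifold (𝓡∂ n) ∞ M₁]
    [T2Space M₁] [CompactSpace M₁] [ConnectedSpace M₁]
    [TopologicalSpace M₂] [ChartedSpace (EuclideanHalfSpace n) M₂] [IsManifold (𝓡∂ n) ∞ M₂]
    [T2Space M₂] [CompactSpace M₂] [ConnectedSpace M₂]
    (Z₁ : At n M₁) (hZ₁ : Z₁ = at_ n M₁) (Z₂ : At n M₂) (hZ₂ : Z₂ = at_ n M₂)
    (Γ₁ O₁ : Set M₁) (hO₁ : IsOpen O₁) (hΓ₁ : Γ₁ = O₁ ∩ bd Z₁)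
    (Γ₂ O₂ : Set M₂) (hO₂ : IsOpen O₂) (hΓ₂ : Γ₂ = O₂ ∩ bd Z₂) (ψ : M₂ → M₁)
    (hψ : Iden N Z₁ Z₂ Γ₁ Γ₂ ψ) (P : Pair Z₁ N) (Q : Pair Z₂ N)
    (hdata : SameData₂ Γ₁ Γ₂ ψ P Q) (W₁ : Set M₁) (hW₁ : IsOpen W₁) (W₂ : Set M₂)
    (hW₂ : IsOpen W₂) (x : M₂) (hx : x ∈ Γ₂ ∩ W₂) (hx₁ : ψ x ∈ W₁) (hnear : Near W₁ W₂ P Q) :
    (∃ W ⊆ W₂, IsOpen W ∧ (W ∩ Γ₂).Nonempty ∧ B4.RelatedIn W Γ₁ Γ₂ ψ P Q) ∧
    (∀ W : Set M₂, IsOpen W → IsPreconnected W → x ∈ W → Inner W P Q →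
      B4.RelatedIn W Γ₁ Γ₂ ψ P Q) ∧
    (Inner univ P Q → B4.UniqueRel Γ₁ Γ₂ ψ P Q) := by
  subst hZ₁ hZ₂
  have hne₂ : Γ₂.Nonempty := ⟨x, hx.1⟩
  obtain ⟨χ, hOk, hS⟩ := setup_of Γ₁ O₁ hO₁ hΓ₁ Γ₂ O₂ hO₂ hΓ₂ hne₂ ψ hψ P Q hdata
  let _ : MeasurableSpace M₁ := borel M₁
  have _ : BorelSpace M₁ := ⟨rfl⟩
  let _ : MeasurableSpace M₂ := borel M₂
  have _ : BorelSpace M₂ := ⟨rfl⟩
  obtain ⟨K₀, hP₀, hQ₀⟩ := near_cls hn hW₁ hW₂ hnear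
  refine ⟨?_, fun W hW hWc hxW hin => ?_, fun hin => ?_⟩
  · obtain ⟨W, hWs, hWo, hWne, F, H, hM⟩ := TM.Q.wLocal' (one P) (one Q) ⟨Γ₁, Γ₂, ψ, χ⟩
      K₀ hn hN hOk hS hW₁ hW₂ hP₀ hQ₀ hx.1 hx.2 hx₁
    exact ⟨W, hWs, hWo, hWne, relatedOn_of (by omega) hN hOk hS hWo hM⟩
  · obtain ⟨K, hP, hQ⟩ := inner_cls hin
    obtain ⟨F, H, hM⟩ := b1 n N M₁ M₂ (one P) (one Q) ⟨Γ₁, Γ₂, ψ, χ⟩ K₀ K hn hN hOk hS W₁ W₂ hW₁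
      hW₂ hP₀ hQ₀ x hx.1 hx.2 hx₁ W hW hWc hxW hP hQ
    exact relatedOn_of (by omega) hN hOk hS hW hM
  · obtain ⟨K, hP, hQ⟩ := inner_cls hin
    rw [univ_inter] at hQ
    exact uniqueRel_of (by omega) hN _ rfl _ rfl Γ₁ O₁ hO₁ hΓ₁ ⟨ψ x, hOk.maps hx.1⟩ Γ₂ O₂ hO₂ hΓ₂
      ψ hψ P Q hdata (related₂_of (b2 n N M₁ M₂ (one P) (one Q) ⟨Γ₁, Γ₂, ψ, χ⟩ K₀ K hn hN hOk hS
        W₁ W₂ hW₁ hW₂ hP₀ hQ₀ x hx.1 hx.2 hx₁ hP hQ))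

/-- One manifold. -/
theorem fin_quasi_one (b1 : WMain2_statement.{u}) (b2 : FMain2_statement.{u}) {n N : ℕ}
    [NeZero n] (hn : 3 ≤ n) (hN : 1 ≤ N) {M : Type u}
    [TopologicalSpace M] [ChartedSpace (EuclideanHalfSpace n) M] [IsManifold (𝓡∂ n) ∞ M]
    [T2Space M] [CompactSpace M] [ConnectedSpace M]
    (Z : At n M) (hZ : Z = at_ n M) (Γ O : Set M) (hO : IsOpen O) (hΓ : Γ = O ∩ bd Z)
    (P Q : Pair Z N) (hd : B.SameData Γ P Q) (W₁ W₂ : Set M) (hW₁ : IsOpen W₁) (hW₂ : IsOpen W₂)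
    (hne : (Γ ∩ W₁ ∩ W₂).Nonempty) (hnear : Near W₁ W₂ P Q) (hin : Inner univ P Q) :
    B4.UniqueRel Γ Γ id P Q := by
  obtain ⟨x, ⟨hx1, hx2⟩, hx3⟩ := hne
  exact (fin_quasi b1 b2 hn hN Z hZ Z hZ Γ O hO hΓ Γ O hO hΓ id (iden_id Γ) P Q (sameData_id hd)
    W₁ hW₁ W₂ hW₂ x ⟨hx1, hx3⟩ hx2 hnear).2.2 hin

end Vale.Agent.P088.R2.H455
end
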