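import Vale.Agent.P219.H381.R2

/-!
# P088, quasi-analytic class: the geodesic flow from a hypersurface, with parallel frames
-/

open Set Filter Topology Metric
open scoped ContDiff

noncomputable section

namespace Vale.Agent.P088.R2.H455

open Vale.Agent.P219.RG

variable {E : Type} [NormedAddCommGroup E] [NormedSpace ℝ E]
variable {A : Type} [NormedRing A] [NormedAlgebra ℝ A]

/-- position, velocity, parallel frame of the tangent bundle, parallel frame of the bundle -/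
abbrev St (E A : Type) [NormedAddCommGroup E] [NormedSpace ℝ E] [NormedRing A]
    [NormedAlgebra ℝ A] : Type := E × E × (E →L[ℝ] E) × A

/-- the vector field of the geodesic flow with parallel frames -/
def fld (G : E → E →L[ℝ] E →L[ℝ] ℝ) (B : E → E →L[ℝ] A) (p : St E A) : St E A :=
  (p.2.1, -chrisB G p.1 p.2.1 p.2.1, -(chrisB G p.1 p.2.1 * p.2.2.1), -(B p.1 p.2.1 * p.2.2.2))

/-- `S` is the flow of `fld G B` along the direction `ν` on the ball of radius `δ`. -/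
structure Sys (G : E → E →L[ℝ] E →L[ℝ] ℝ) (B : E → E →L[ℝ] A) (U : Set E) (l : E →L[ℝ] ℝ)
    (ν : E) (σ : E → E) (δ : ℝ) (S : E → St E A) : Prop where
  pos : 0 < δ
  sm : ContDiffOn ℝ ∞ S (ball 0 δ)
  mem : ∀ y ∈ ball 0 δ, (S y).1 ∈ U
  unT : ∀ y ∈ ball 0 δ, IsUnit (S y).2.2.1
  unP : ∀ y ∈ ball 0 δ, IsUnit (S y).2.2.2
  d : ∀ y ∈ ball 0 δ, fderiv ℝ S y ν = fld G B (S y)
  ini : ∀ y ∈ ball 0 δ, l y = 0 → S y = (σ y, ν, 1, 1)

theorem Sys.mono {G : E → E →L[ℝ] E →L[ℝ] ℝ} {B : E → E →L[ℝ] A} {U : Set E} {l : E →L[ℝ] ℝ}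
    {ν : E} {σ : E → E} {δ δ' : ℝ} {S : E → St E A} (h : Sys G B U l ν σ δ S) (h0 : 0 < δ')
    (hδ : δ' ≤ δ) : Sys G B U l ν σ δ' S where
  pos := h0
  sm := h.sm.mono (ball_subset_ball hδ)
  mem y hy := h.mem y (ball_subset_ball hδ hy)
  unT y hy := h.unT y (ball_subset_ball hδ hy)
  unP y hy := h.unP y (ball_subset_ball hδ hy)
  d y hy := h.d y (ball_subset_ball hδ hy)
  ini y hy := h.ini y (ball_subset_ball hδ hy)

variable [FiniteDimensional ℝ E] [FiniteDimensional ℝ A]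

omit [FiniteDimensional ℝ A] in
theorem contDiffAt_fld {G : E → E →L[ℝ] E →L[ℝ] ℝ} {B : E → E →L[ℝ] A} {U : Set E}
    (hG : IsMetricOn G U) (hB : ContDiffOn ℝ ∞ B U) {p : St E A} (hp : p.1 ∈ U) :
    ContDiffAt ℝ ∞ (fld G B) p := by
  have hc : ContDiffAt ℝ ∞ (fun q : St E A => chrisB G q.1) p :=
    ContDiffAt.comp p (hG.contDiffAt_chrisB hp) contDiffAt_fst
  have hb : ContDiffAt ℝ ∞ (fun q : St E A => B q.1) p :=
    ContDiffAt.comp p (hB.contDiffAt (hG.isOpen.mem_nhds hp)) contDiffAt_fst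
  have hid : ContDiffAt ℝ ∞ (fun q : St E A => q) p := contDiffAt_id
  have hv : ContDiffAt ℝ ∞ (fun q : St E A => q.2.1) p := hid.snd.fst
  have hT : ContDiffAt ℝ ∞ (fun q : St E A => q.2.2.1) p := hid.snd.snd.fst
  have hP : ContDiffAt ℝ ∞ (fun q : St E A => q.2.2.2) p := hid.snd.snd.snd
  have h1 : ContDiffAt ℝ ∞ (fun q : St E A => chrisB G q.1 q.2.1) p := hc.clm_apply hv
  exact hv.prodMk ((h1.clm_apply hv).neg.prodMk ((h1.mul hT).neg.prodMk
    (((hb.clm_apply hv).mul hP).neg)))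

theorem exists_sys {G : E → E →L[ℝ] E →L[ℝ] ℝ} {B : E → E →L[ℝ] A} {U : Set E}
    (hG : IsMetricOn G U) (hB : ContDiffOn ℝ ∞ B U) {l : E →L[ℝ] ℝ} {ν : E} (hν : l ν = 1)
    {σ : E → E} (hσ : ContDiff ℝ ∞ σ) (h0 : σ 0 ∈ U) {Q : Set (St E A)}
    (hQ : Q ∈ 𝓝 ((σ 0, ν, 1, 1) : St E A)) :
    ∃ (δ : ℝ) (S : E → St E A), Sys G B U l ν σ δ S ∧ ∀ y ∈ ball 0 δ, S y ∈ Q := by
  set x₀ : St E A := (σ 0, ν, 1, 1) with hx₀
  have hUo : IsOpen {p : St E A | p.1 ∈ U} := hG.isOpen.preimage continuous_fst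
  have hf : ContDiffOn ℝ ∞ (fld G B) {p : St E A | p.1 ∈ U} := fun p hp =>
    (contDiffAt_fld hG hB hp).contDiffWithinAt
  obtain ⟨ε, hε, W, hWo, hxW, Φ, hΦ0, hΦ1, hΦ2⟩ := exists_flow_smooth (fld G B) _ hUo hf x₀ h0
  have hO : IsOpen (Ioo (-ε) ε ×ˢ W) := isOpen_Ioo.prod hWo
  -- the initial state
  let i : E → ℝ × St E A := fun y => (l y, (σ (y - l y • ν), ν, 1, 1))
  have hpi : ContDiff ℝ ∞ (fun y : E => y - l y • ν) :=
    contDiff_id.sub (l.contDiff.smul contDiff_const)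
  have hi : ContDiff ℝ ∞ i :=
    l.contDiff.prodMk ((hσ.comp hpi).prodMk (contDiff_const.prodMk (contDiff_const.prodMk
      contDiff_const)))
  have hi0 : i 0 = (0, x₀) := by simp [i, hx₀]
  have hN : IsOpen (i ⁻¹' (Ioo (-ε) ε ×ˢ W)) := hO.preimage hi.continuous
  have h0N : (0 : E) ∈ i ⁻¹' (Ioo (-ε) ε ×ˢ W) := by
    rw [mem_preimage, hi0]
    exact ⟨⟨by linarith, hε⟩, hxW⟩
  set S : E → St E A := fun y => Φ (i y).1 (i y).2 with hS
  have hSs : ContDiffOn ℝ ∞ S (i ⁻¹' (Ioo (-ε) ε ×ˢ W)) :=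
    hΦ2.comp hi.contDiffOn (fun y hy => hy)
  have hS0 : S 0 = x₀ := by
    simp only [hS, hi0]
    exact hΦ0 x₀ hxW
  have hSc : ContinuousAt S 0 := (hSs.continuousOn).continuousAt (hN.mem_nhds h0N)
  have hT1 : ∀ᶠ y in 𝓝 (0 : E), IsUnit (S y).2.2.1 := by
    have h1 : ContinuousAt (fun y => (S y).2.2.1) 0 := hSc.snd.snd.fst
    have h2 : {T : E →L[ℝ] E | IsUnit T} ∈ 𝓝 (S 0).2.2.1 := by
      rw [hS0]
      exact Units.isOpen.mem_nhds (by simp [hx₀])
    exact h1 h2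
  have hP1 : ∀ᶠ y in 𝓝 (0 : E), IsUnit (S y).2.2.2 := by
    have h1 : ContinuousAt (fun y => (S y).2.2.2) 0 := hSc.snd.snd.snd
    have : CompleteSpace A := FiniteDimensional.complete ℝ A
    have h2 : {T : A | IsUnit T} ∈ 𝓝 (S 0).2.2.2 := by
      rw [hS0]
      exact Units.isOpen.mem_nhds (by simp [hx₀])
    exact h1 h2
  have hQ1 : ∀ᶠ y in 𝓝 (0 : E), S y ∈ Q := by
    have : Q ∈ 𝓝 (S 0) := by rw [hS0]; exact hQ
    exact hSc this
  obtain ⟨δ, hδ, hball⟩ := Metric.eventually_nhds_iff_ball.1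
    (((hN.eventually_mem h0N).and hT1).and (hP1.and hQ1))
  refine ⟨δ, S, ⟨hδ, hSs.mono fun y hy => (hball y hy).1.1, fun y hy => ?_,
    fun y hy => (hball y hy).1.2, fun y hy => (hball y hy).2.1, fun y hy => ?_, fun y hy hl => ?_⟩,
    fun y hy => (hball y hy).2.2⟩
  · exact (hΦ1 _ (hball y hy).1.1.2 _ (hball y hy).1.1.1).1
  · have hyN := (hball y hy).1.1
    have h1 : HasDerivAt (fun s : ℝ => y + s • ν) ν 0 := by
      simpa using ((hasDerivAt_id (0 : ℝ)).smul_const ν).const_add y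
    have hd : DifferentiableAt ℝ S y := (hSs.contDiffAt (hN.mem_nhds hyN)).differentiableAt
      (by simp)
    have hd' : HasFDerivAt S (fderiv ℝ S y) (y + (0 : ℝ) • ν) := by
      rw [zero_smul, add_zero]; exact hd.hasFDerivAt
    have h2 : HasDerivAt (fun s : ℝ => S (y + s • ν)) (fderiv ℝ S y ν) 0 :=
      HasFDerivAt.comp_hasDerivAt (l := S) (f := fun s : ℝ => y + s • ν) (0 : ℝ) hd' h1
    have h3 : ∀ s : ℝ, i (y + s • ν) = (l y + s, (i y).2) := by
      intro s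
      have : y + s • ν - (l y + s) • ν = y - l y • ν := by
        rw [add_smul]; abel
      simp only [i, map_add, map_smul, hν, smul_eq_mul, mul_one, this]
    have h4 : HasDerivAt (fun s : ℝ => S (y + s • ν)) (fld G B (S y)) 0 := by
      have e : (fun s : ℝ => S (y + s • ν)) = fun s => Φ (l y + s) (i y).2 := by
        funext s
        simp only [hS, h3 s]
      rw [e]
      have h5 := (hΦ1 _ hyN.2 _ hyN.1).2
      have h6 : HasDerivAt (fun s : ℝ => l y + s) 1 0 := by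
        simpa using (hasDerivAt_id (0 : ℝ)).const_add (l y)
      have h5' : HasDerivAt (fun s => Φ s (i y).2) (fld G B (S y)) (l y + 0) := by
        rw [add_zero]; exact h5
      have h7 : HasDerivAt (fun s => Φ (l y + s) (i y).2) ((1 : ℝ) • fld G B (S y)) 0 :=
        HasDerivAt.scomp (h := fun s : ℝ => l y + s) (0 : ℝ) h5' h6
      rwa [one_smul] at h7
    exact h2.unique h4
  · have hyN := (hball y hy).1.1
    have : i y = (0, (σ y, ν, 1, 1)) := by simp [i, hl]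
    have h1 := hΦ0 (i y).2 hyN.2
    simp only [hS]
    rw [this] at h1 ⊢
    exact h1

end Vale.Agent.P088.R2.H455
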