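import Vale.Agent.P088.R2.H455.Core3

/-!
# P088, quasi-analytic class: the data pulled back by the two flows agree
-/

open Set Filter Topology Metric
open scoped ContDiff

set_option linter.all false
set_option maxSynthPendingDepth 3

noncomputable section

namespace Vale.Agent.P088.R2.H455

open Vale.Agent.P219.RG Vale.Agent.P088.EYM

variable {n N : ℕ} [NeZero n]

/-- two flows for two extended data which agree for negative times -/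
structure Two (𝒬 : ℝ → (ℝ → ℂ) → Prop) (L₁ L₂ : LD n N) (D U : Set (EYM.E n))
    (g₁ g₂ : EYM.E n → Matrix (Fin n) (Fin n) ℝ) (B₁ B₂ : Fin n → EYM.E n → EndF N)
    (l : EYM.E n →L[ℝ] ℝ) (ν : EYM.E n) (σ : EYM.E n → EYM.E n) (δ : ℝ)
    (S₁ S₂ : EYM.E n → St (EYM.E n) (EndF N)) : Prop where
  Q : QAn 𝒬
  E₁ : Ext L₁ D U g₁ B₁
  E₂ : Ext L₂ D U g₂ B₂
  ok₁ : L₁.Ok D
  ok₂ : L₂.Ok D
  q₁ : QEq 𝒬 L₁ D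
  q₂ : QEq 𝒬 L₂ D
  s₁ : Sys (toG g₁) (toB B₁) U l ν σ δ S₁
  s₂ : Sys (toG g₂) (toB B₂) U l ν σ δ S₂
  ν1 : l ν = 1
  π1 : ∀ y : EYM.E n, ‖y - l y • ν‖ ≤ ‖y‖
  D₁ : ∀ y ∈ ball (0 : EYM.E n) δ, 0 ≤ l y → (S₁ y).1 ∈ D
  D₂ : ∀ y ∈ ball (0 : EYM.E n) δ, 0 ≤ l y → (S₂ y).1 ∈ D
  neg : ∀ y ∈ ball (0 : EYM.E n) δ, l y ≤ 0 → S₁ y = S₂ y
  loc : ∀ y ∈ ball (0 : EYM.E n) δ, l y < 0 → toG g₁ =ᶠ[𝓝 (S₁ y).1] toG g₂ ∧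
    toB B₁ =ᶠ[𝓝 (S₁ y).1] toB B₂
  zG : ∀ y ∈ ball (0 : EYM.E n) δ, l y = 0 → toG g₁ (σ y) = toG g₂ (σ y)
  zB : ∀ y ∈ ball (0 : EYM.E n) δ, l y = 0 → toB B₁ (σ y) = toB B₂ (σ y)
  zC : ∀ y ∈ ball (0 : EYM.E n) δ, l y = 0 → chrisB (toG g₁) (σ y) = chrisB (toG g₂) (σ y)
  zh : ∀ y ∈ ball (0 : EYM.E n) δ, l y = 0 → L₁.h (σ y) = L₂.h (σ y)
  hn : ∀ y ∈ ball (0 : EYM.E n) δ, l y < 0 → (S₁ y).1 ∈ D → L₁.h (S₁ y).1 = L₂.h (S₁ y).1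

variable {𝒬 : ℝ → (ℝ → ℂ) → Prop} {L₁ L₂ : LD n N} {D U : Set (EYM.E n)}
  {g₁ g₂ : EYM.E n → Matrix (Fin n) (Fin n) ℝ} {B₁ B₂ : Fin n → EYM.E n → EndF N}
  {l : EYM.E n →L[ℝ] ℝ} {ν : EYM.E n} {σ : EYM.E n → EYM.E n} {δ : ℝ}
  {S₁ S₂ : EYM.E n → St (EYM.E n) (EndF N)}

namespace Two

theorem hat (T : Two 𝒬 L₁ L₂ D U g₁ g₂ B₁ B₂ l ν σ δ S₁ S₂) {y : EYM.E n}
    (hy : y ∈ ball (0 : EYM.E n) δ) (hly : 0 ≤ l y) :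
    (∀ a b c, hatR (toG g₁) S₁ y a b c = hatR (toG g₂) S₂ y a b c) ∧
      (∀ a b, hatF (toB B₁) S₁ y a b = hatF (toB B₂) S₂ y a b) :=
  hat_eq T.Q T.E₁ T.E₂ T.ok₁ T.ok₂ T.q₁ T.q₂ T.s₁ T.s₂ T.ν1 T.π1 T.D₁ T.D₂ T.neg T.loc
    (fun y hy h0 => ⟨T.zG y hy h0, T.zh y hy h0⟩) hy hly

theorem ja_eq (T : Two 𝒬 L₁ L₂ D U g₁ g₂ B₁ B₂ l ν σ δ S₁ S₂) {y : EYM.E n}
    (hy : y ∈ ball (0 : EYM.E n) δ) (hly : 0 ≤ l y) (η : EYM.E n) : ja S₁ y η = ja S₂ y η :=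
  compare T.s₁ T.s₂ T.E₁.metric T.E₂.metric T.ν1 T.π1 T.neg
    (fun y hy h0 => (T.hat hy h0).1) (fun y hy h0 => by
      rw [T.s₁.ini y hy h0, T.s₂.ini y hy h0]
      exact T.zC y hy h0) hy hly η

/-- the first derivatives of the flows agree for negative times -/
theorem fd_neg (T : Two 𝒬 L₁ L₂ D U g₁ g₂ B₁ B₂ l ν σ δ S₁ S₂) {y : EYM.E n}
    (hy : y ∈ ball (0 : EYM.E n) δ) (hly : l y ≤ 0) :
    fderiv ℝ (fun z => (S₁ z).1) y = fderiv ℝ (fun z => (S₂ z).1) y ∧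
      fderiv ℝ (fun z => (S₁ z).2.2.2) y = fderiv ℝ (fun z => (S₂ z).2.2.2) y :=
  ⟨fderiv_eq_half T.ν1 hy hly (T.s₁.df hy).fst (T.s₂.df hy).fst
      (fun z hz hlz => by rw [T.neg z hz hlz]),
    fderiv_eq_half T.ν1 hy hly (T.s₁.df hy).snd.snd.snd (T.s₂.df hy).snd.snd.snd
      (fun z hz hlz => by rw [T.neg z hz hlz])⟩

theorem pg (T : Two 𝒬 L₁ L₂ D U g₁ g₂ B₁ B₂ l ν σ δ S₁ S₂) {y : EYM.E n}
    (hy : y ∈ ball (0 : EYM.E n) δ) (a b : EYM.E n) :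
    toG g₁ (S₁ y).1 (fderiv ℝ (fun z => (S₁ z).1) y a) (fderiv ℝ (fun z => (S₁ z).1) y b) =
      toG g₂ (S₂ y).1 (fderiv ℝ (fun z => (S₂ z).1) y a) (fderiv ℝ (fun z => (S₂ z).1) y b) := by
  rcases lt_or_ge (l y) 0 with h | h
  · rw [(T.fd_neg hy h.le).1, ← T.neg y hy h.le, (T.loc y hy h).1.self_of_nhds]
  · exact compareG T.s₁ T.s₂ T.E₁.metric T.E₂.metric T.ν1 T.π1 (fun y hy h0 η => T.ja_eq hy h0 η)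
      T.zG hy h a b

theorem pw (T : Two 𝒬 L₁ L₂ D U g₁ g₂ B₁ B₂ l ν σ δ S₁ S₂) {y : EYM.E n}
    (hy : y ∈ ball (0 : EYM.E n) δ) (η : EYM.E n) : jw (toB B₁) S₁ y η = jw (toB B₂) S₂ y η := by
  rcases lt_or_ge (l y) 0 with h | h
  · unfold jw
    rw [(T.fd_neg hy h.le).1, (T.fd_neg hy h.le).2, ← T.neg y hy h.le,
      (T.loc y hy h).2.self_of_nhds]
  · exact compareW T.s₁ T.s₂ T.E₁.op T.E₂.op T.E₁.smB' T.E₂.smB' T.ν1 T.π1 T.neg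
      (fun y hy h0 => (T.hat hy h0).2) (fun y hy h0 η => T.ja_eq hy h0 η) (fun y hy h0 => by
        rw [T.s₁.ini y hy h0, T.s₂.ini y hy h0]
        exact T.zB y hy h0) hy h η

theorem ph (T : Two 𝒬 L₁ L₂ D U g₁ g₂ B₁ B₂ l ν σ δ S₁ S₂) {y : EYM.E n}
    (hy : y ∈ ball (0 : EYM.E n) δ) (hyD : (S₁ y).1 ∈ D) :
    ContinuousLinearMap.adjoint (S₁ y).2.2.2 * L₁.h (S₁ y).1 * (S₁ y).2.2.2 =
      ContinuousLinearMap.adjoint (S₂ y).2.2.2 * L₂.h (S₂ y).1 * (S₂ y).2.2.2 := by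
  rcases lt_or_ge (l y) 0 with h | h
  · rw [← T.neg y hy h.le, T.hn y hy h hyD]
  · have hb0 := proj_ball T.π1 hy
    have hl0 := proj_zero T.ν1 y
    have hlt : ∀ t : ℝ, l ((y - l y • ν) + t • ν) = t := by
      intro t
      rw [map_add, map_smul, T.ν1, smul_eq_mul, mul_one, hl0, zero_add]
    have hseg : ∀ t ∈ Icc 0 (l y), (y - l y • ν) + t • ν ∈ ball (0 : EYM.E n) δ := fun t ht =>
      seg_ball T.π1 hy (Or.inl ht)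
    have e1 := hermS T.E₁ T.ok₁ T.s₁ T.ν1 hb0 hl0 h hseg
      (fun t ht => T.D₁ _ (hseg t ht) (by rw [hlt]; exact ht.1))
    have e2 := hermS T.E₂ T.ok₂ T.s₂ T.ν1 hb0 hl0 h hseg
      (fun t ht => T.D₂ _ (hseg t ht) (by rw [hlt]; exact ht.1))
    rw [proj_add] at e1 e2
    rw [e1, e2, T.zh _ hb0 hl0]

end Two

end Vale.Agent.P088.R2.H455
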