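import Vale.Agent.P088.R2.H455.Iso

/-!
# P088, quasi-analytic class: the local isometry given by the two flows
-/

open Set Filter Topology Metric
open scoped ContDiff

set_option linter.all false
set_option maxSynthPendingDepth 3

noncomputable section

namespace Vale.Agent.P088.R2.H455

open Vale.Agent.P219.RG Vale.Agent.P088.EYM

section Gen

variable {E : Type} [NormedAddCommGroup E] [NormedSpace ℝ E] [FiniteDimensional ℝ E]

/-- local inverse on small balls -/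
theorem loc_diffeo {F : E → E} {δ : ℝ} (hδ : 0 < δ) (hF : ContDiffOn ℝ ∞ F (ball 0 δ))
    (hd : fderiv ℝ F 0 = ContinuousLinearMap.id ℝ E) :
    ∃ δ₀ : ℝ, 0 < δ₀ ∧ δ₀ ≤ δ ∧ ∃ I : E → E, ∀ δ' : ℝ, 0 < δ' → δ' ≤ δ₀ →
      IsOpen (F '' ball 0 δ') ∧ (∀ y ∈ ball (0 : E) δ', I (F y) = y) ∧
      ContDiffOn ℝ ∞ I (F '' ball 0 δ') ∧
      ∀ s : Set E, IsOpen s → s ⊆ ball 0 δ' → IsOpen (F '' s) := by
  have hcE : CompleteSpace E := FiniteDimensional.complete ℝ E
  have h0 : (0 : E) ∈ ball (0 : E) δ := mem_ball_self hδ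
  have hFa : ∀ y ∈ ball (0 : E) δ, ContDiffAt ℝ ∞ F y := fun y hy =>
    hF.contDiffAt (isOpen_ball.mem_nhds hy)
  have hd0 : HasFDerivAt F ((ContinuousLinearEquiv.refl ℝ E : E ≃L[ℝ] E) : E →L[ℝ] E) 0 := by
    have := ((hFa 0 h0).differentiableAt (by simp)).hasFDerivAt
    rw [hd] at this
    exact this
  set e := (hFa 0 h0).toOpenPartialHomeomorph F hd0 (by simp) with he
  have hec : ∀ y, e y = F y := fun y => rfl
  have hs0 : (0 : E) ∈ e.source := (hFa 0 h0).mem_toOpenPartialHomeomorph_source hd0 (by simp)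
  have hcont : ContinuousOn (fderiv ℝ F) (ball (0 : E) δ) := by
    intro y hy
    exact (((hFa y hy).fderiv_right (m := 0) (by simp)).continuousAt).continuousWithinAt
  have hopen : IsOpen (ball (0 : E) δ ∩ fderiv ℝ F ⁻¹' {T | IsUnit T}) :=
    hcont.isOpen_inter_preimage isOpen_ball Units.isOpen
  have hmem : (0 : E) ∈ e.source ∩ (ball (0 : E) δ ∩ fderiv ℝ F ⁻¹' {T | IsUnit T}) := by
    refine ⟨hs0, h0, ?_⟩
    rw [mem_preimage, hd]
    exact isUnit_one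
  obtain ⟨δ₀, hδ₀, hb⟩ := Metric.isOpen_iff.1 (e.open_source.inter hopen) 0 hmem
  refine ⟨min δ₀ δ, lt_min hδ₀ hδ, min_le_right _ _, e.symm, fun δ' h1 h2 => ?_⟩
  have hb' : ball (0 : E) δ' ⊆ e.source ∩ (ball (0 : E) δ ∩ fderiv ℝ F ⁻¹' {T | IsUnit T}) :=
    (ball_subset_ball (h2.trans (min_le_left _ _))).trans hb
  have him : ∀ s : Set E, IsOpen s → s ⊆ ball 0 δ' → IsOpen (F '' s) := fun s hs hsub =>
    e.isOpen_image_of_subset_source hs (fun y hy => (hb' (hsub hy)).1)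
  refine ⟨him _ isOpen_ball subset_rfl, fun y hy => e.left_inv (hb' hy).1, ?_, him⟩
  rintro _ ⟨y, hy, rfl⟩
  have hy' := hb' hy
  obtain ⟨u, hu⟩ := hy'.2.2
  have h3 : HasFDerivAt F ((ContinuousLinearEquiv.unitsEquiv ℝ E u : E ≃L[ℝ] E) : E →L[ℝ] E) y := by
    have h4 := ((hFa y hy'.2.1).differentiableAt (by simp)).hasFDerivAt
    have h5 : ((ContinuousLinearEquiv.unitsEquiv ℝ E u : E ≃L[ℝ] E) : E →L[ℝ] E) = fderiv ℝ F y := by
      rw [← hu]; ext; rfl
    rw [h5]; exact h4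
  have h6 : e.symm (F y) = y := e.left_inv hy'.1
  refine (e.contDiffAt_symm (e.map_source hy'.1) (f₀' := ContinuousLinearEquiv.unitsEquiv ℝ E u)
    ?_ ?_).contDiffWithinAt
  · show HasFDerivAt e _ (e.symm (F y))
    rw [h6]; exact h3
  · show ContDiffAt ℝ ∞ e (e.symm (F y))
    rw [h6]; exact hFa y hy'.2.1

end Gen

variable {n N : ℕ} [NeZero n]
variable {𝒬 : ℝ → (ℝ → ℂ) → Prop} {L₁ L₂ : LD n N} {D U : Set (EYM.E n)}
  {g₁ g₂ : EYM.E n → Matrix (Fin n) (Fin n) ℝ} {B₁ B₂ : Fin n → EYM.E n → EndF N}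
  {l : EYM.E n →L[ℝ] ℝ} {ν : EYM.E n} {σ : EYM.E n → EYM.E n} {δ : ℝ}
  {S₁ S₂ : EYM.E n → St (EYM.E n) (EndF N)}

/-- the differential of the flow at the origin -/
theorem Sys.d0 {E A : Type} [NormedAddCommGroup E] [NormedSpace ℝ E] [FiniteDimensional ℝ E]
    [NormedRing A] [NormedAlgebra ℝ A] [FiniteDimensional ℝ A]
    {G : E → E →L[ℝ] E →L[ℝ] ℝ} {B : E → E →L[ℝ] A} {U : Set E} {l : E →L[ℝ] ℝ}
    {ν : E} {σ : E → E} {δ : ℝ} {S : E → St E A} (h : Sys G B U l ν σ δ S) (hν : l ν = 1)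
    (hσ : DifferentiableAt ℝ σ 0) (hσ' : ∀ v, l v = 0 → fderiv ℝ σ 0 v = v) :
    fderiv ℝ (fun z => (S z).1) 0 = ContinuousLinearMap.id ℝ E := by
  have h0 : (0 : E) ∈ ball (0 : E) δ := mem_ball_self h.pos
  have hF := (h.df h0).fst
  ext v
  have e1 : v = (v - l v • ν) + l v • ν := (sub_add_cancel _ _).symm
  have hl : l (v - l v • ν) = 0 := by rw [map_sub, map_smul, hν, smul_eq_mul, mul_one, sub_self]
  have e2 : fderiv ℝ (fun z => (S z).1) 0 ν = ν := by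
    rw [h.d1 h0, h.ini 0 h0 (map_zero l)]
  -- along the kernel of `l`
  have e3 : fderiv ℝ (fun z => (S z).1) 0 (v - l v • ν) = v - l v • ν := by
    set w := v - l v • ν with hw
    have h1 : HasDerivAt (fun t : ℝ => (S ((0 : E) + t • w)).1)
        (fderiv ℝ (fun z => (S z).1) ((0 : E) + (0 : ℝ) • w) w) 0 :=
      hasDerivAt_line (f := fun z => (S z).1) (by rw [zero_smul, add_zero]; exact hF)
    have h2 : HasDerivAt (fun t : ℝ => σ ((0 : E) + t • w))
        (fderiv ℝ σ ((0 : E) + (0 : ℝ) • w) w) 0 :=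
      hasDerivAt_line (f := σ) (by rw [zero_smul, add_zero]; exact hσ)
    have h3 : (fun t : ℝ => (S ((0 : E) + t • w)).1) =ᶠ[𝓝 0] fun t : ℝ => σ ((0 : E) + t • w) := by
      have hc : ContinuousAt (fun t : ℝ => (0 : E) + t • w) 0 := by fun_prop
      have h4 : ∀ᶠ t : ℝ in 𝓝 0, (0 : E) + t • w ∈ ball (0 : E) δ :=
        hc (isOpen_ball.mem_nhds (by
          show (0 : E) + (0 : ℝ) • w ∈ ball (0 : E) δ
          rw [zero_smul, add_zero]; exact h0))
      filter_upwards [h4] with t ht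
      rw [h.ini _ ht (by rw [zero_add, map_smul, hl, smul_zero])]
    have h5 := (h1.congr_of_eventuallyEq h3.symm).unique h2
    rw [zero_smul, add_zero] at h5
    rw [h5, hσ' w hl]
  rw [e1, map_add, map_smul, e2, e3]
  rfl

end Vale.Agent.P088.R2.H455
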