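import Vale.Agent.P088.R2.H455.Iso2

/-!
# P088, quasi-analytic class: the two data are isometric and gauge equivalent
-/

open Set Filter Topology Metric
open scoped ContDiff

set_option linter.all false
set_option maxSynthPendingDepth 3

noncomputable section

namespace Vale.Agent.P088.R2.H455

open Vale.Agent.P219.RG Vale.Agent.P088.EYM

/-- `I` is a smooth inverse of `F` on the ball of radius `δ`. -/
structure Inv {E : Type} [NormedAddCommGroup E] [NormedSpace ℝ E] (F : E → E) (δ : ℝ)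
    (I : E → E) : Prop where
  op : IsOpen (F '' ball 0 δ)
  left : ∀ y ∈ ball (0 : E) δ, I (F y) = y
  sm : ContDiffOn ℝ ∞ I (F '' ball 0 δ)
  img : ∀ s : Set E, IsOpen s → s ⊆ ball 0 δ → IsOpen (F '' s)

theorem Inv.fd {E : Type} [NormedAddCommGroup E] [NormedSpace ℝ E] {F : E → E} {δ : ℝ}
    {I : E → E} (i : Inv F δ I) (hF : ∀ y ∈ ball (0 : E) δ, DifferentiableAt ℝ F y) {y : E}
    (hy : y ∈ ball (0 : E) δ) (v : E) : fderiv ℝ F y (fderiv ℝ I (F y) v) = v := by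
  have h1 : HasFDerivAt I (fderiv ℝ I (F y)) (F y) :=
    ((i.sm.contDiffAt (i.op.mem_nhds ⟨y, hy, rfl⟩)).differentiableAt (by simp)).hasFDerivAt
  have h2 : HasFDerivAt F (fderiv ℝ F y) (I (F y)) := by
    rw [i.left y hy]; exact (hF y hy).hasFDerivAt
  have h3 := h2.comp (F y) h1
  have h4 : (F ∘ I) =ᶠ[𝓝 (F y)] id := by
    filter_upwards [i.op.mem_nhds ⟨y, hy, rfl⟩] with x hx
    obtain ⟨z, hz, rfl⟩ := hx
    show F (I (F z)) = F z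
    rw [i.left z hz]
  have h5 := (h3.congr_of_eventuallyEq h4.symm).unique (hasFDerivAt_id (F y))
  exact congrArg (fun T : E →L[ℝ] E => T v) h5

/-- the derivative of a function composed with the inverse -/
theorem Inv.fd_comp {E W : Type} [NormedAddCommGroup E] [NormedSpace ℝ E]
    [NormedAddCommGroup W] [NormedSpace ℝ W] {F : E → E} {δ : ℝ}
    {I : E → E} (i : Inv F δ I) {K : E → W} {y : E}
    (hy : y ∈ ball (0 : E) δ) (hK : DifferentiableAt ℝ K y) :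
    HasFDerivAt (fun x => K (I x)) ((fderiv ℝ K y).comp (fderiv ℝ I (F y))) (F y) := by
  have h1 : HasFDerivAt I (fderiv ℝ I (F y)) (F y) :=
    ((i.sm.contDiffAt (i.op.mem_nhds ⟨y, hy, rfl⟩)).differentiableAt (by simp)).hasFDerivAt
  have h2 : HasFDerivAt K (fderiv ℝ K y) (I (F y)) := by
    rw [i.left y hy]; exact hK.hasFDerivAt
  exact h2.comp (F y) h1

variable {n N : ℕ} [NeZero n]
variable {𝒬 : ℝ → (ℝ → ℂ) → Prop} {L₁ L₂ : LD n N} {D U : Set (EYM.E n)}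
  {g₁ g₂ : EYM.E n → Matrix (Fin n) (Fin n) ℝ} {B₁ B₂ : Fin n → EYM.E n → EndF N}
  {l : EYM.E n →L[ℝ] ℝ} {ν : EYM.E n} {σ : EYM.E n → EYM.E n} {δ : ℝ}
  {S₁ S₂ : EYM.E n → St (EYM.E n) (EndF N)}

theorem gv_ev (g : EYM.E n → Matrix (Fin n) (Fin n) ℝ) (x : EYM.E n) (a b : Fin n) :
    gv g x (ev a) (ev b) = g x a b := by
  unfold gv
  rw [Finset.sum_eq_single a]
  · rw [Finset.sum_eq_single b]
    · simp [ev]
    · intro j _ hj
      simp [ev, hj]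
    · simp
  · intro i _ hi
    refine Finset.sum_eq_zero fun j _ => ?_
    simp [ev, hi]
  · simp

theorem Bv_ev (B : Fin n → EYM.E n → EndF N) (x : EYM.E n) (a : Fin n) :
    Bv B x (ev a) = B a x := by
  unfold Bv
  rw [Finset.sum_eq_single a]
  · simp [ev]
  · intro j _ hj
    simp [ev, hj]
  · simp

/-- the derivative of `P₁ P₂⁻¹` -/
theorem fd_quot {E A : Type} [NormedAddCommGroup E] [NormedSpace ℝ E] [NormedRing A]
    [NormedAlgebra ℝ A] [CompleteSpace A] {P₁ P₂ : E → A} {y : E} (h₁ : DifferentiableAt ℝ P₁ y)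
    (h₂ : DifferentiableAt ℝ P₂ y) (hu : IsUnit (P₂ y)) :
    DifferentiableAt ℝ (fun z => P₁ z * Ring.inverse (P₂ z)) y ∧
      ∀ v, fderiv ℝ (fun z => P₁ z * Ring.inverse (P₂ z)) y v =
        fderiv ℝ P₁ y v * Ring.inverse (P₂ y) -
          P₁ y * (Ring.inverse (P₂ y) * fderiv ℝ P₂ y v * Ring.inverse (P₂ y)) := by
  obtain ⟨u, hu⟩ := hu
  have h3 : HasFDerivAt Ring.inverse (-ContinuousLinearMap.mulLeftRight ℝ A ↑u⁻¹ ↑u⁻¹) (P₂ y) := by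
    rw [← hu]; exact hasFDerivAt_ringInverse u
  have h4 := h3.comp y h₂.hasFDerivAt
  have h5 := h₁.hasFDerivAt.mul' h4
  have e : (fun z => P₁ z * Ring.inverse (P₂ z)) = P₁ * (Ring.inverse ∘ P₂) := rfl
  rw [e]
  refine ⟨h5.differentiableAt, fun v => ?_⟩
  rw [h5.fderiv]
  rw [← hu, Ring.inverse_unit]
  simp only [add_apply, smul_apply, ContinuousLinearMap.comp_apply, neg_apply,
    ContinuousLinearMap.mulLeftRight_apply, smul_eq_mul, MulOpposite.smul_eq_mul_unop,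
    MulOpposite.unop_op, Function.comp_apply]
  rw [← hu, Ring.inverse_unit]
  noncomm_ring

/-- The two data are isometric and gauge equivalent. -/
theorem Two.isPull (T : Two 𝒬 L₁ L₂ D U g₁ g₂ B₁ B₂ l ν σ δ S₁ S₂)
    (hDU : ∀ x ∈ U, x ∈ Hs n → x ∈ D)
    (hH : ∀ y ∈ ball (0 : EYM.E n) δ, (S₁ y).1 ∈ Hs n ↔ (S₂ y).1 ∈ Hs n) {δ' : ℝ} (hδ : δ' ≤ δ)
    {I₁ I₂ : EYM.E n → EYM.E n} (i₁ : Inv (fun z => (S₁ z).1) δ' I₁)
    (i₂ : Inv (fun z => (S₂ z).1) δ' I₂) :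
    IsPull L₁ L₂ ((fun z => (S₁ z).1) '' ball 0 δ' ∩ Hs n) ((fun z => (S₂ z).1) '' ball 0 δ' ∩ Hs n)
      (fun x => (S₂ (I₁ x)).1) (fun x => (S₁ (I₂ x)).1)
      (fun x => (S₁ (I₁ x)).2.2.2 * Ring.inverse (S₂ (I₁ x)).2.2.2) := by
  have hsub : ball (0 : EYM.E n) δ' ⊆ ball 0 δ := ball_subset_ball hδ
  have hF₁ : ∀ y ∈ ball (0 : EYM.E n) δ', DifferentiableAt ℝ (fun z => (S₁ z).1) y := fun y hy =>
    (T.s₁.df (hsub hy)).fst
  have hF₂ : ∀ y ∈ ball (0 : EYM.E n) δ', DifferentiableAt ℝ (fun z => (S₂ z).1) y := fun y hy =>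
    (T.s₂.df (hsub hy)).fst
  have hmap : ∀ {K : EYM.E n → EYM.E n} {I : EYM.E n → EYM.E n}, Inv K δ' I →
      MapsTo I (K '' ball 0 δ') (ball 0 δ) := by
    rintro K I i _ ⟨y, hy, rfl⟩
    rw [i.left y hy]; exact hsub hy
  have hU₁ : ∀ y ∈ ball (0 : EYM.E n) δ', (S₁ y).1 ∈ U := fun y hy => T.s₁.mem y (hsub hy)
  -- the partial derivatives
  have hpd : ∀ {W : Type} [NormedAddCommGroup W] [NormedSpace ℝ W] {K : EYM.E n → W}
      {y : EYM.E n}, y ∈ ball (0 : EYM.E n) δ' → (S₁ y).1 ∈ Hs n → DifferentiableAt ℝ K y →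
      ∀ j, EYM.pd j (fun x => K (I₁ x)) (S₁ y).1 =
        fderiv ℝ K y (fderiv ℝ I₁ (S₁ y).1 (ev j)) := by
    intro W _ _ K y hy hyH hK j
    have h1 := i₁.fd_comp hy hK
    exact pd_of_has hyH h1.hasFDerivWithinAt j
  have hJac : ∀ {y : EYM.E n}, y ∈ ball (0 : EYM.E n) δ' → (S₁ y).1 ∈ Hs n → ∀ i j,
      Jac (fun x => (S₂ (I₁ x)).1) (S₁ y).1 i j =
        (fderiv ℝ (fun z => (S₂ z).1) y (fderiv ℝ I₁ (S₁ y).1 (ev j))) i := by
    intro y hy hyH i j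
    have h1 : DifferentiableAt ℝ (fun z => (S₂ z).1 i) y :=
      (pj i).differentiableAt.comp y (hF₂ y hy)
    have h2 := hpd hy hyH h1 j
    show EYM.pd j (fun x => (S₂ (I₁ x)).1 i) (S₁ y).1 = _
    rw [h2]
    have h3 := ((pj i).hasFDerivAt.comp y (hF₂ y hy).hasFDerivAt).fderiv
    have e : (⇑(pj i) ∘ fun z => (S₂ z).1) = fun z => (S₂ z).1 i := rfl
    rw [e] at h3
    rw [h3]
    rfl
  have hJv : ∀ {y : EYM.E n}, y ∈ ball (0 : EYM.E n) δ' → (S₁ y).1 ∈ Hs n → ∀ j,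
      (WithLp.toLp 2 fun i => Jac (fun x => (S₂ (I₁ x)).1) (S₁ y).1 i j : EYM.E n) =
        fderiv ℝ (fun z => (S₂ z).1) y (fderiv ℝ I₁ (S₁ y).1 (ev j)) := by
    intro y hy hyH j
    ext i
    exact hJac hy hyH i j
  refine ⟨⟨?_, ?_, ?_, ?_, ?_, ?_⟩, ?_, ?_, ?_, ?_, ?_⟩
  · rintro _ ⟨⟨y, hy, rfl⟩, hyH⟩
    refine ⟨⟨y, hy, ?_⟩, ?_⟩
    · show (S₂ y).1 = (S₂ (I₁ (S₁ y).1)).1
      rw [i₁.left y hy]
    · show (S₂ (I₁ (S₁ y).1)).1 ∈ Hs n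
      rw [i₁.left y hy]
      exact (hH y (hsub hy)).1 hyH
  · rintro _ ⟨⟨y, hy, rfl⟩, hyH⟩
    refine ⟨⟨y, hy, ?_⟩, ?_⟩
    · show (S₁ y).1 = (S₁ (I₂ (S₂ y).1)).1
      rw [i₂.left y hy]
    · show (S₁ (I₂ (S₂ y).1)).1 ∈ Hs n
      rw [i₂.left y hy]
      exact (hH y (hsub hy)).2 hyH
  · rintro _ ⟨⟨y, hy, rfl⟩, hyH⟩
    show (S₁ (I₂ (S₂ (I₁ (S₁ y).1)).1)).1 = (S₁ y).1
    rw [i₁.left y hy, i₂.left y hy]
  · rintro _ ⟨⟨y, hy, rfl⟩, hyH⟩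
    show (S₂ (I₁ (S₁ (I₂ (S₂ y).1)).1)).1 = (S₂ y).1
    rw [i₂.left y hy, i₁.left y hy]
  · exact (T.s₂.cd1.comp i₁.sm (hmap i₁)).mono inter_subset_left
  · exact (T.s₁.cd1.comp i₂.sm (hmap i₂)).mono inter_subset_left
  · have h1 : ContDiffOn ℝ ∞ (fun x => (S₁ (I₁ x)).2.2.2) ((fun z => (S₁ z).1) '' ball 0 δ') :=
      T.s₁.cd4.comp i₁.sm (hmap i₁)
    have h2 : ContDiffOn ℝ ∞ (fun x => (S₂ (I₁ x)).2.2.2) ((fun z => (S₁ z).1) '' ball 0 δ') :=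
      T.s₂.cd4.comp i₁.sm (hmap i₁)
    have h3 : ContDiffOn ℝ ∞ (fun x => Ring.inverse (S₂ (I₁ x)).2.2.2)
        ((fun z => (S₁ z).1) '' ball 0 δ') :=
      smooth_ringInverse h2 (fun x hx => T.s₂.unP _ (hmap i₁ hx))
    exact (h1.mul h3).mono inter_subset_left
  · rintro _ ⟨⟨y, hy, rfl⟩, hyH⟩
    show IsUnit ((S₁ (I₁ (S₁ y).1)).2.2.2 * Ring.inverse (S₂ (I₁ (S₁ y).1)).2.2.2)
    rw [i₁.left y hy]
    exact (T.s₁.unP y (hsub hy)).mul (T.s₂.unP y (hsub hy)).ringInverse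
  · rintro _ ⟨⟨y, hy, rfl⟩, hyH⟩
    have hyD : (S₁ y).1 ∈ D := hDU _ (hU₁ y hy) hyH
    have hyD2 : (S₂ y).1 ∈ D := hDU _ (T.s₂.mem y (hsub hy)) ((hH y (hsub hy)).1 hyH)
    ext a b
    have h1 := T.pg (hsub hy) (fderiv ℝ I₁ (S₁ y).1 (ev a)) (fderiv ℝ I₁ (S₁ y).1 (ev b))
    have ha := i₁.fd hF₁ hy (ev a)
    have hb := i₁.fd hF₁ hy (ev b)
    rw [ha, hb, toG_apply, toG_apply] at h1
    have e1 : gv g₁ (S₁ y).1 (ev a) (ev b) = L₁.g (S₁ y).1 a b := by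
      rw [gv_ev, T.E₁.geq _ hyD]
    rw [e1, ← hJv hy hyH a, ← hJv hy hyH b] at h1
    show L₁.g (S₁ y).1 a b = _
    rw [h1]
    simp only [i₁.left y hy]
    unfold gv
    rw [T.E₂.geq _ hyD2]
    simp only [Matrix.mul_apply, Matrix.transpose_apply, Finset.sum_mul]
    rw [Finset.sum_comm]
    refine Finset.sum_congr rfl fun i _ => Finset.sum_congr rfl fun j _ => ?_
    ring
  · rintro _ ⟨⟨y, hy, rfl⟩, hyH⟩ j
    have hyD : (S₁ y).1 ∈ D := hDU _ (hU₁ y hy) hyH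
    have hyD2 : (S₂ y).1 ∈ D := hDU _ (T.s₂.mem y (hsub hy)) ((hH y (hsub hy)).1 hyH)
    set w := fderiv ℝ I₁ (S₁ y).1 (ev j) with hw
    have hP₁ : DifferentiableAt ℝ (fun z => (S₁ z).2.2.2) y := (T.s₁.df (hsub hy)).snd.snd.snd
    have hP₂ : DifferentiableAt ℝ (fun z => (S₂ z).2.2.2) y := (T.s₂.df (hsub hy)).snd.snd.snd
    obtain ⟨q1, q2⟩ := fd_quot hP₁ hP₂ (T.s₂.unP y (hsub hy))
    have h1 := hpd hy hyH q1 j
    rw [q2] at h1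
    show EYM.pd j (fun x => (S₁ (I₁ x)).2.2.2 * Ring.inverse (S₂ (I₁ x)).2.2.2) (S₁ y).1 +
      L₁.B j (S₁ y).1 * ((S₁ (I₁ (S₁ y).1)).2.2.2 * Ring.inverse (S₂ (I₁ (S₁ y).1)).2.2.2) =
      ((S₁ (I₁ (S₁ y).1)).2.2.2 * Ring.inverse (S₂ (I₁ (S₁ y).1)).2.2.2) *
        ∑ k, Jac (fun x => (S₂ (I₁ x)).1) (S₁ y).1 k j • L₂.B k (S₂ (I₁ (S₁ y).1)).1
    rw [h1, i₁.left y hy]
    have e2 : ∑ k, Jac (fun x => (S₂ (I₁ x)).1) (S₁ y).1 k j • L₂.B k (S₂ y).1 =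
        toB B₂ (S₂ y).1 (fderiv ℝ (fun z => (S₂ z).1) y w) := by
      rw [← hJv hy hyH j, toB_apply]
      unfold Bv
      exact Finset.sum_congr rfl fun k _ => by rw [T.E₂.Beq _ hyD2]
    have e3 : L₁.B j (S₁ y).1 = toB B₁ (S₁ y).1 (fderiv ℝ (fun z => (S₁ z).1) y w) := by
      rw [hw, i₁.fd hF₁ hy (ev j), toB_apply, Bv_ev, T.E₁.Beq _ hyD]
    rw [e2, e3]
    have h2 := T.pw (hsub hy) w
    unfold jw at h2
    set P₁ := (S₁ y).2.2.2 with hP1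
    set P₂ := (S₂ y).2.2.2 with hP2
    set a₁ := fderiv ℝ (fun z => (S₁ z).2.2.2) y w with ha₁
    set a₂ := fderiv ℝ (fun z => (S₂ z).2.2.2) y w with ha₂
    set b₁ := toB B₁ (S₁ y).1 (fderiv ℝ (fun z => (S₁ z).1) y w) with hb₁
    set b₂ := toB B₂ (S₂ y).1 (fderiv ℝ (fun z => (S₂ z).1) y w) with hb₂
    have u1 : P₁ * Ring.inverse P₁ = 1 := Ring.mul_inverse_cancel _ (T.s₁.unP y (hsub hy))
    have u2 : P₂ * Ring.inverse P₂ = 1 := Ring.mul_inverse_cancel _ (T.s₂.unP y (hsub hy))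
    have h3 := congrArg (fun Z => P₁ * Z * Ring.inverse P₂) h2
    beta_reduce at h3
    have h4 : P₁ * (Ring.inverse P₁ * a₁ + Ring.inverse P₁ * b₁ * P₁) * Ring.inverse P₂ =
        a₁ * Ring.inverse P₂ + b₁ * (P₁ * Ring.inverse P₂) := by
      calc P₁ * (Ring.inverse P₁ * a₁ + Ring.inverse P₁ * b₁ * P₁) * Ring.inverse P₂ =
          (P₁ * Ring.inverse P₁) * a₁ * Ring.inverse P₂ +
            (P₁ * Ring.inverse P₁) * b₁ * (P₁ * Ring.inverse P₂) := by noncomm_ring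
        _ = _ := by rw [u1]; noncomm_ring
    have h5 : P₁ * (Ring.inverse P₂ * a₂ + Ring.inverse P₂ * b₂ * P₂) * Ring.inverse P₂ =
        P₁ * (Ring.inverse P₂ * a₂ * Ring.inverse P₂) + P₁ * Ring.inverse P₂ * b₂ := by
      calc P₁ * (Ring.inverse P₂ * a₂ + Ring.inverse P₂ * b₂ * P₂) * Ring.inverse P₂ =
          P₁ * (Ring.inverse P₂ * a₂ * Ring.inverse P₂) +
            P₁ * Ring.inverse P₂ * b₂ * (P₂ * Ring.inverse P₂) := by noncomm_ring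
        _ = _ := by rw [u2]; noncomm_ring
    rw [h4, h5] at h3
    rw [sub_add_eq_add_sub, h3]
    abel
  · rintro _ ⟨⟨y, hy, rfl⟩, hyH⟩
    have hyD : (S₁ y).1 ∈ D := hDU _ (hU₁ y hy) hyH
    show ContinuousLinearMap.adjoint ((S₁ (I₁ (S₁ y).1)).2.2.2 *
      Ring.inverse (S₂ (I₁ (S₁ y).1)).2.2.2) * L₁.h (S₁ y).1 *
      ((S₁ (I₁ (S₁ y).1)).2.2.2 * Ring.inverse (S₂ (I₁ (S₁ y).1)).2.2.2) =
      L₂.h (S₂ (I₁ (S₁ y).1)).1
    rw [i₁.left y hy]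
    have h2 := T.ph (hsub hy) hyD
    set P₁ := (S₁ y).2.2.2 with hP1
    set P₂ := (S₂ y).2.2.2 with hP2
    have u2 : P₂ * Ring.inverse P₂ = 1 := Ring.mul_inverse_cancel _ (T.s₂.unP y (hsub hy))
    have u3 : ContinuousLinearMap.adjoint (Ring.inverse P₂) * ContinuousLinearMap.adjoint P₂ =
        1 := by
      rw [← adj_mulE, u2]; exact star_one (EndF N)
    rw [adj_mulE]
    calc ContinuousLinearMap.adjoint (Ring.inverse P₂) * ContinuousLinearMap.adjoint P₁ *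
          L₁.h (S₁ y).1 * (P₁ * Ring.inverse P₂) = ContinuousLinearMap.adjoint (Ring.inverse P₂) *
          (ContinuousLinearMap.adjoint P₁ * L₁.h (S₁ y).1 * P₁) * Ring.inverse P₂ := by
            noncomm_ring
      _ = (ContinuousLinearMap.adjoint (Ring.inverse P₂) * ContinuousLinearMap.adjoint P₂) *
          L₂.h (S₂ y).1 * (P₂ * Ring.inverse P₂) := by rw [h2]; noncomm_ring
      _ = L₂.h (S₂ y).1 := by rw [u3, u2, one_mul, mul_one]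

end Vale.Agent.P088.R2.H455
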