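import Vale.Agent.P088.R2.H455.Flow

/-!
# P088, quasi-analytic class: Jacobi fields and the radial gauge in parallel frames
-/

open Set Filter Topology Metric
open scoped ContDiff

set_option linter.all false

noncomputable section

namespace Vale.Agent.P088.R2.H455

open Vale.Agent.P219.RG

section Gen

variable {E W : Type} [NormedAddCommGroup E] [NormedSpace ℝ E] [NormedAddCommGroup W]
  [NormedSpace ℝ W]

/-- symmetry of second derivatives, in the form which is used here -/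
theorem fderiv_swap {O : Set E} (hO : IsOpen O) {f g : E → W} (hf : ContDiffOn ℝ ∞ f O) {ν : E}
    (h : ∀ y ∈ O, fderiv ℝ f y ν = g y) {y : E} (hy : y ∈ O) (η : E) :
    DifferentiableAt ℝ (fun z => fderiv ℝ f z η) y ∧
      fderiv ℝ (fun z => fderiv ℝ f z η) y ν = fderiv ℝ g y η := by
  have hf2 : ContDiffAt ℝ 2 f y := (hf.contDiffAt (hO.mem_nhds hy)).of_le (by norm_cast)
  have hd : DifferentiableAt ℝ (fderiv ℝ f) y :=
    (hf2.fderiv_right (m := 1) (by norm_num)).differentiableAt (by simp)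
  have e : ∀ a, HasFDerivAt (fun z => fderiv ℝ f z a)
      ((ContinuousLinearMap.apply ℝ W a).comp (fderiv ℝ (fderiv ℝ f) y)) y := fun a =>
    (ContinuousLinearMap.apply ℝ W a).hasFDerivAt.comp y hd.hasFDerivAt
  refine ⟨(e η).differentiableAt, ?_⟩
  have hs := (hf2.isSymmSndFDerivAt (by simp)) ν η
  have h1 : (fun z => fderiv ℝ f z ν) =ᶠ[𝓝 y] g := by
    filter_upwards [hO.mem_nhds hy] with z hz using h z hz
  have h2 := (e ν).congr_of_eventuallyEq h1.symm
  rw [(e η).fderiv, h2.fderiv]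
  simpa using hs

theorem hasDerivAt_line {f : E → W} {y ν : E} {s : ℝ} (hf : DifferentiableAt ℝ f (y + s • ν)) :
    HasDerivAt (fun t : ℝ => f (y + t • ν)) (fderiv ℝ f (y + s • ν) ν) s := by
  have h1 : HasDerivAt (fun t : ℝ => y + t • ν) ν s := by
    simpa using ((hasDerivAt_id s).smul_const ν).const_add y
  exact HasFDerivAt.comp_hasDerivAt (l := f) (f := fun t : ℝ => y + t • ν) s hf.hasFDerivAt h1

variable {R : Type} [NormedRing R] [NormedAlgebra ℝ R] [CompleteSpace R]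

theorem hasDerivAt_inv {T : ℝ → R} {C : R} {s : ℝ} (hT : HasDerivAt T (-(C * T s)) s)
    (hu : IsUnit (T s)) :
    HasDerivAt (fun t => Ring.inverse (T t)) (Ring.inverse (T s) * C) s := by
  obtain ⟨u, hu⟩ := hu
  have h1 : HasFDerivAt Ring.inverse (-ContinuousLinearMap.mulLeftRight ℝ R ↑u⁻¹ ↑u⁻¹) (T s) := by
    rw [← hu]; exact hasFDerivAt_ringInverse u
  have h2 := h1.comp_hasDerivAt s hT
  refine h2.congr_deriv ?_
  rw [← hu, Ring.inverse_unit]
  simp [mul_assoc]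

end Gen

section Inv

variable {E : Type} [NormedAddCommGroup E] [NormedSpace ℝ E] [FiniteDimensional ℝ E]

theorem hasDerivAt_inv_apply {T : ℝ → E →L[ℝ] E} {C : E →L[ℝ] E} {s : ℝ}
    (hT : HasDerivAt T (-(C * T s)) s) (hu : IsUnit (T s)) {Y : ℝ → E} {Y' : E}
    (hY : HasDerivAt Y Y' s) :
    HasDerivAt (fun t => Ring.inverse (T t) (Y t)) (Ring.inverse (T s) (Y' + C (Y s))) s := by
  have : CompleteSpace E := FiniteDimensional.complete ℝ E
  have h := (hasDerivAt_inv hT hu).clm_apply hY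
  refine h.congr_deriv ?_
  rw [mul_apply_eq_comp, map_add, add_comm]

end Inv

variable {E : Type} [NormedAddCommGroup E] [NormedSpace ℝ E] [FiniteDimensional ℝ E]
variable {A : Type} [NormedRing A] [NormedAlgebra ℝ A] [FiniteDimensional ℝ A]
variable {G : E → E →L[ℝ] E →L[ℝ] ℝ} {B : E → E →L[ℝ] A} {U : Set E} {l : E →L[ℝ] ℝ}
  {ν : E} {σ : E → E} {δ : ℝ} {S : E → St E A}

/-- the curvature of `d + B` -/
def curvB (B : E → E →L[ℝ] A) (x a b : E) : A :=
  fderiv ℝ B x a b - fderiv ℝ B x b a + (B x a * B x b - B x b * B x a)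

/-- the differential of the flow in the parallel frame -/
def ja (S : E → St E A) (y η : E) : E :=
  Ring.inverse (S y).2.2.1 (fderiv ℝ (fun z => (S z).1) y η)

/-- its covariant derivative -/
def jb (G : E → E →L[ℝ] E →L[ℝ] ℝ) (S : E → St E A) (y η : E) : E :=
  Ring.inverse (S y).2.2.1 (fderiv ℝ (fun z => (S z).2.1) y η +
    chrisB G (S y).1 (S y).2.1 (fderiv ℝ (fun z => (S z).1) y η))

/-- the connection in the radial gauge -/
def jw (B : E → E →L[ℝ] A) (S : E → St E A) (y η : E) : A :=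
  Ring.inverse (S y).2.2.2 * fderiv ℝ (fun z => (S z).2.2.2) y η +
    Ring.inverse (S y).2.2.2 * B (S y).1 (fderiv ℝ (fun z => (S z).1) y η) * (S y).2.2.2

/-- the curvature in the parallel frame -/
def hatR (G : E → E →L[ℝ] E →L[ℝ] ℝ) (S : E → St E A) (y a b c : E) : E :=
  Ring.inverse (S y).2.2.1 (curv G (S y).1 ((S y).2.2.1 a) ((S y).2.2.1 b) ((S y).2.2.1 c))

/-- the curvature of the connection in the parallel frames -/
def hatF (B : E → E →L[ℝ] A) (S : E → St E A) (y a b : E) : A :=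
  Ring.inverse (S y).2.2.2 * curvB B (S y).1 ((S y).2.2.1 a) ((S y).2.2.1 b) * (S y).2.2.2

namespace Sys

theorem cd1 (h : Sys G B U l ν σ δ S) : ContDiffOn ℝ ∞ (fun z => (S z).1) (ball 0 δ) := h.sm.fst
theorem cd2 (h : Sys G B U l ν σ δ S) : ContDiffOn ℝ ∞ (fun z => (S z).2.1) (ball 0 δ) :=
  h.sm.snd.fst
theorem cd3 (h : Sys G B U l ν σ δ S) : ContDiffOn ℝ ∞ (fun z => (S z).2.2.1) (ball 0 δ) :=
  h.sm.snd.snd.fst
theorem cd4 (h : Sys G B U l ν σ δ S) : ContDiffOn ℝ ∞ (fun z => (S z).2.2.2) (ball 0 δ) :=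
  h.sm.snd.snd.snd

theorem df (h : Sys G B U l ν σ δ S) {y : E} (hy : y ∈ ball 0 δ) : DifferentiableAt ℝ S y :=
  (h.sm.contDiffAt (isOpen_ball.mem_nhds hy)).differentiableAt (by simp)

theorem d1 (h : Sys G B U l ν σ δ S) {y : E} (hy : y ∈ ball 0 δ) :
    fderiv ℝ (fun z => (S z).1) y ν = (S y).2.1 := by
  have h1 := (h.df hy).hasFDerivAt.fst
  rw [h1.fderiv]
  have h2 := h.d y hy
  simp only [ContinuousLinearMap.comp_apply, ContinuousLinearMap.coe_fst', h2, fld]

theorem d2 (h : Sys G B U l ν σ δ S) {y : E} (hy : y ∈ ball 0 δ) :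
    fderiv ℝ (fun z => (S z).2.1) y ν = -chrisB G (S y).1 (S y).2.1 (S y).2.1 := by
  have h1 := (h.df hy).hasFDerivAt.snd.fst
  rw [h1.fderiv]
  have h2 := h.d y hy
  simp only [ContinuousLinearMap.comp_apply, ContinuousLinearMap.coe_fst',
    ContinuousLinearMap.coe_snd', h2, fld]

theorem d3 (h : Sys G B U l ν σ δ S) {y : E} (hy : y ∈ ball 0 δ) :
    fderiv ℝ (fun z => (S z).2.2.1) y ν = -(chrisB G (S y).1 (S y).2.1 * (S y).2.2.1) := by
  have h1 := (h.df hy).hasFDerivAt.snd.snd.fst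
  rw [h1.fderiv]
  have h2 := h.d y hy
  simp only [ContinuousLinearMap.comp_apply, ContinuousLinearMap.coe_fst',
    ContinuousLinearMap.coe_snd', h2, fld]

theorem d4 (h : Sys G B U l ν σ δ S) {y : E} (hy : y ∈ ball 0 δ) :
    fderiv ℝ (fun z => (S z).2.2.2) y ν = -(B (S y).1 (S y).2.1 * (S y).2.2.2) := by
  have h1 := (h.df hy).hasFDerivAt.snd.snd.snd
  rw [h1.fderiv]
  have h2 := h.d y hy
  simp only [ContinuousLinearMap.comp_apply, ContinuousLinearMap.coe_snd', h2, fld]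

theorem l1 (h : Sys G B U l ν σ δ S) {y : E} {s : ℝ} (hy : y + s • ν ∈ ball (0 : E) δ) :
    HasDerivAt (fun t : ℝ => (S (y + t • ν)).1) (S (y + s • ν)).2.1 s := by
  rw [← h.d1 hy]
  exact hasDerivAt_line (h.df hy).fst

theorem l2 (h : Sys G B U l ν σ δ S) {y : E} {s : ℝ} (hy : y + s • ν ∈ ball (0 : E) δ) :
    HasDerivAt (fun t : ℝ => (S (y + t • ν)).2.1)
      (-chrisB G (S (y + s • ν)).1 (S (y + s • ν)).2.1 (S (y + s • ν)).2.1) s := by
  rw [← h.d2 hy]
  exact hasDerivAt_line (h.df hy).snd.fst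

theorem l3 (h : Sys G B U l ν σ δ S) {y : E} {s : ℝ} (hy : y + s • ν ∈ ball (0 : E) δ) :
    HasDerivAt (fun t : ℝ => (S (y + t • ν)).2.2.1)
      (-(chrisB G (S (y + s • ν)).1 (S (y + s • ν)).2.1 * (S (y + s • ν)).2.2.1)) s := by
  rw [← h.d3 hy]
  exact hasDerivAt_line (h.df hy).snd.snd.fst

theorem l4 (h : Sys G B U l ν σ δ S) {y : E} {s : ℝ} (hy : y + s • ν ∈ ball (0 : E) δ) :
    HasDerivAt (fun t : ℝ => (S (y + t • ν)).2.2.2)
      (-(B (S (y + s • ν)).1 (S (y + s • ν)).2.1 * (S (y + s • ν)).2.2.2)) s := by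
  rw [← h.d4 hy]
  exact hasDerivAt_line (h.df hy).snd.snd.snd

/-- the derivative of `dF η` -/
theorem lJ (h : Sys G B U l ν σ δ S) {y : E} {s : ℝ} (hy : y + s • ν ∈ ball (0 : E) δ) (η : E) :
    HasDerivAt (fun t : ℝ => fderiv ℝ (fun z => (S z).1) (y + t • ν) η)
      (fderiv ℝ (fun z => (S z).2.1) (y + s • ν) η) s := by
  obtain ⟨h1, h2⟩ := fderiv_swap isOpen_ball h.cd1 (fun z hz => h.d1 hz) hy η
  rw [← h2]
  exact hasDerivAt_line h1

theorem hasDerivAt_ja (h : Sys G B U l ν σ δ S) {y : E} {s : ℝ}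
    (hy : y + s • ν ∈ ball (0 : E) δ) (η : E) :
    HasDerivAt (fun t : ℝ => ja S (y + t • ν) η) (jb G S (y + s • ν) η) s :=
  hasDerivAt_inv_apply (h.l3 hy) (h.unT _ hy) (h.lJ hy η)

/-- the velocity in the parallel frame is constant -/
theorem hasDerivAt_vel (h : Sys G B U l ν σ δ S) {y : E} {s : ℝ}
    (hy : y + s • ν ∈ ball (0 : E) δ) :
    HasDerivAt (fun t : ℝ => Ring.inverse (S (y + t • ν)).2.2.1 (S (y + t • ν)).2.1) 0 s := by
  refine (hasDerivAt_inv_apply (h.l3 hy) (h.unT _ hy) (h.l2 hy)).congr_deriv ?_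
  rw [neg_add_cancel, map_zero]

/-- the linearized geodesic equation -/
theorem lJ' (h : Sys G B U l ν σ δ S) (hG : IsMetricOn G U) {y : E} {s : ℝ}
    (hy : y + s • ν ∈ ball (0 : E) δ) (η : E) :
    HasDerivAt (fun t : ℝ => fderiv ℝ (fun z => (S z).2.1) (y + t • ν) η)
      (-(fderiv ℝ (fun p => chris G p (S (y + s • ν)).2.1 (S (y + s • ν)).2.1) (S (y + s • ν)).1
        (fderiv ℝ (fun z => (S z).1) (y + s • ν) η) +
        (2 : ℝ) • chris G (S (y + s • ν)).1 (S (y + s • ν)).2.1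
          (fderiv ℝ (fun z => (S z).2.1) (y + s • ν) η))) s := by
  obtain ⟨h1, h2⟩ := fderiv_swap isOpen_ball h.cd2 (fun z hz => h.d2 hz) hy η
  have h3 := hasDerivAt_line h1
  rw [h2] at h3
  refine h3.congr_deriv ?_
  set x := y + s • ν with hx
  have hu := h.mem x hy
  have f1 : HasFDerivAt (fun z => (S z).1) (fderiv ℝ (fun z => (S z).1) x) x :=
    (h.df hy).fst.hasFDerivAt
  have f2 : HasFDerivAt (fun z => (S z).2.1) (fderiv ℝ (fun z => (S z).2.1) x) x :=
    (h.df hy).snd.fst.hasFDerivAt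
  have f3 : HasFDerivAt (fun z => chrisB G (S z).1)
      ((fderiv ℝ (chrisB G) (S x).1).comp (fderiv ℝ (fun z => (S z).1) x)) x :=
    HasFDerivAt.comp (g := chrisB G) (f := fun z => (S z).1) x
      (hG.differentiableAt_chrisB hu).hasFDerivAt f1
  have f4 := ((f3.clm_apply f2).clm_apply f2).neg
  have e : (fun y => -chrisB G (S y).1 (S y).2.1 (S y).2.1) =
      -(fun y => chrisB G (S y).1 (S y).2.1 (S y).2.1) := rfl
  rw [e, f4.fderiv, hG.fderiv_chris hu]
  simp only [ContinuousLinearMap.neg_apply, ContinuousLinearMap.add_apply,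
    ContinuousLinearMap.comp_apply, ContinuousLinearMap.flip_apply, ← chrisB_apply, two_smul]
  rw [chrisB_apply G (S x).1 (fderiv ℝ (fun z => (S z).2.1) x η), hG.chris_symm hu,
    ← chrisB_apply]
  abel

theorem hasDerivAt_jb (h : Sys G B U l ν σ δ S) (hG : IsMetricOn G U) {y : E} {s : ℝ}
    (hy : y + s • ν ∈ ball (0 : E) δ) (η : E) :
    HasDerivAt (fun t : ℝ => jb G S (y + t • ν) η)
      (-Ring.inverse (S (y + s • ν)).2.2.1 (curv G (S (y + s • ν)).1
        (fderiv ℝ (fun z => (S z).1) (y + s • ν) η) (S (y + s • ν)).2.1 (S (y + s • ν)).2.1)) s := by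
  set c : ℝ → E := fun t => (S (y + t • ν)).1 with hc
  set J : ℝ → E := fun t => fderiv ℝ (fun z => (S z).1) (y + t • ν) η with hJ
  have hI : IsOpen {t : ℝ | y + t • ν ∈ ball (0 : E) δ} :=
    isOpen_ball.preimage (by fun_prop)
  have hev : ∀ᶠ t in 𝓝 s, y + t • ν ∈ ball (0 : E) δ := hI.mem_nhds hy
  have c1 : ∀ t, y + t • ν ∈ ball (0 : E) δ → HasDerivAt c (S (y + t • ν)).2.1 t :=
    fun t ht => h.l1 ht
  have e1 : ∀ t, y + t • ν ∈ ball (0 : E) δ → deriv c =ᶠ[𝓝 t] fun t => (S (y + t • ν)).2.1 := by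
    intro t ht
    filter_upwards [hI.mem_nhds ht] with u hu using (c1 u hu).deriv
  have c2 : ∀ t, y + t • ν ∈ ball (0 : E) δ → HasDerivAt (deriv c)
      (-chrisB G (S (y + t • ν)).1 (S (y + t • ν)).2.1 (S (y + t • ν)).2.1) t :=
    fun t ht => (h.l2 ht).congr_of_eventuallyEq (e1 t ht)
  have j1 : ∀ t, y + t • ν ∈ ball (0 : E) δ → HasDerivAt J
      (fderiv ℝ (fun z => (S z).2.1) (y + t • ν) η) t := fun t ht => h.lJ ht η
  have e2 : deriv J =ᶠ[𝓝 s] fun t => fderiv ℝ (fun z => (S z).2.1) (y + t • ν) η := by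
    filter_upwards [hI.mem_nhds hy] with u hu using (j1 u hu).deriv
  have j2 := (h.lJ' hG hy η).congr_of_eventuallyEq e2
  have key := hG.jacobi_of_linearized (c := c) (J := J) (t := s) (h.mem _ hy)
    (by
      filter_upwards [hI.mem_nhds hy] with t ht
      refine ⟨(c1 t ht).differentiableAt, (c2 t ht).differentiableAt, ?_⟩
      rw [(c2 t ht).deriv, (c1 t ht).deriv, chrisB_apply])
    (by filter_upwards [hI.mem_nhds hy] with t ht using (j1 t ht).differentiableAt)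
    (by
      have e3 : deriv J s = fderiv ℝ (fun z => (S z).2.1) (y + s • ν) η := e2.self_of_nhds
      have e4 : deriv c s = (S (y + s • ν)).2.1 := (c1 s hy).deriv
      rw [e3, e4]
      exact j2)
  obtain ⟨k1, k2⟩ := key
  have e5 : covD G c J =ᶠ[𝓝 s] fun t => fderiv ℝ (fun z => (S z).2.1) (y + t • ν) η +
      chrisB G (S (y + t • ν)).1 (S (y + t • ν)).2.1
        (fderiv ℝ (fun z => (S z).1) (y + t • ν) η) := by
    filter_upwards [hI.mem_nhds hy] with t ht
    show deriv J t + chris G (c t) (deriv c t) (J t) = _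
    rw [(j1 t ht).deriv, (c1 t ht).deriv, chrisB_apply]
  have k3 : HasDerivAt (fun t => fderiv ℝ (fun z => (S z).2.1) (y + t • ν) η +
      chrisB G (S (y + t • ν)).1 (S (y + t • ν)).2.1
        (fderiv ℝ (fun z => (S z).1) (y + t • ν) η)) (deriv (covD G c J) s) s :=
    k1.hasDerivAt.congr_of_eventuallyEq e5.symm
  refine (hasDerivAt_inv_apply (h.l3 hy) (h.unT _ hy) k3).congr_deriv ?_
  have e6 := e5.self_of_nhds
  beta_reduce at e6
  rw [← e6, ← map_neg]
  congr 1
  have k4 : deriv (covD G c J) s + chris G (c s) (deriv c s) (covD G c J s) +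
      curv G (c s) (J s) (deriv c s) (deriv c s) = 0 := k2
  rw [(c1 s hy).deriv] at k4
  rw [chrisB_apply]
  exact eq_neg_of_add_eq_zero_left k4

theorem hasDerivAt_jw (h : Sys G B U l ν σ δ S) (hU : IsOpen U) (hB : ContDiffOn ℝ ∞ B U) {y : E}
    {s : ℝ} (hy : y + s • ν ∈ ball (0 : E) δ) (η : E) :
    HasDerivAt (fun t : ℝ => jw B S (y + t • ν) η)
      (Ring.inverse (S (y + s • ν)).2.2.2 * curvB B (S (y + s • ν)).1 (S (y + s • ν)).2.1
        (fderiv ℝ (fun z => (S z).1) (y + s • ν) η) * (S (y + s • ν)).2.2.2) s := by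
  have : CompleteSpace A := FiniteDimensional.complete ℝ A
  set x := y + s • ν with hx
  have hu := h.mem x hy
  have hBd : HasFDerivAt B (fderiv ℝ B (S x).1) (S x).1 :=
    ((hB.contDiffAt (hU.mem_nhds hu)).differentiableAt (by simp)).hasFDerivAt
  have f1 : HasFDerivAt (fun z => (S z).1) (fderiv ℝ (fun z => (S z).1) x) x :=
    (h.df hy).fst.hasFDerivAt
  have f2 : HasFDerivAt (fun z => (S z).2.1) (fderiv ℝ (fun z => (S z).2.1) x) x :=
    (h.df hy).snd.fst.hasFDerivAt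
  have f4 : HasFDerivAt (fun z => (S z).2.2.2) (fderiv ℝ (fun z => (S z).2.2.2) x) x :=
    (h.df hy).snd.snd.snd.hasFDerivAt
  have f3 : HasFDerivAt (fun z => B (S z).1)
      ((fderiv ℝ B (S x).1).comp (fderiv ℝ (fun z => (S z).1) x)) x :=
    HasFDerivAt.comp (g := B) (f := fun z => (S z).1) x hBd f1
  -- the derivative of `dP η`
  have q1 : HasDerivAt (fun t : ℝ => fderiv ℝ (fun z => (S z).2.2.2) (y + t • ν) η)
      (-((fderiv ℝ B (S x).1 (fderiv ℝ (fun z => (S z).1) x η) (S x).2.1 +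
        B (S x).1 (fderiv ℝ (fun z => (S z).2.1) x η)) * (S x).2.2.2 +
        B (S x).1 (S x).2.1 * fderiv ℝ (fun z => (S z).2.2.2) x η)) s := by
    obtain ⟨h1, h2⟩ := fderiv_swap isOpen_ball h.cd4 (fun z hz => h.d4 hz) hy η
    have h3 := hasDerivAt_line h1
    rw [h2] at h3
    refine h3.congr_deriv ?_
    have f5 := ((f3.clm_apply f2).mul' f4).neg
    have e : (fun y => -(B (S y).1 (S y).2.1 * (S y).2.2.2)) =
      -((fun y => B (S y).1 (S y).2.1) * fun y => (S y).2.2.2) := rfl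
    rw [e, f5.fderiv]
    simp only [ContinuousLinearMap.neg_apply, ContinuousLinearMap.add_apply,
      ContinuousLinearMap.comp_apply, ContinuousLinearMap.flip_apply,
      ContinuousLinearMap.smul_apply, smul_eq_mul, MulOpposite.smul_eq_mul_unop,
      MulOpposite.unop_op]
    rw [neg_inj]
    noncomm_ring
  have p1 : HasDerivAt (fun t : ℝ => Ring.inverse (S (y + t • ν)).2.2.2)
      (Ring.inverse (S x).2.2.2 * B (S x).1 (S x).2.1) s := hasDerivAt_inv (h.l4 hy) (h.unP _ hy)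
  have b1 : HasDerivAt (fun t : ℝ => B (S (y + t • ν)).1)
      (fderiv ℝ B (S x).1 (S x).2.1) s :=
    HasFDerivAt.comp_hasDerivAt (l := B) (f := fun t : ℝ => (S (y + t • ν)).1) s hBd (h.l1 hy)
  have k := (p1.mul q1).add ((p1.mul (b1.clm_apply (h.lJ hy η))).mul (h.l4 hy))
  refine k.congr_deriv ?_
  unfold curvB
  simp only [← hx, Pi.mul_apply]
  noncomm_ring

end Sys

end Vale.Agent.P088.R2.H455
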