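import Vale.Agent.P088.R2.H455.Iso3
import Vale.Agent.P088.TM.H275BC

/-!
# P088, quasi-analytic class: isometric models with the same Cauchy data are equal
-/

open Set Filter Topology Metric
open scoped ContDiff

set_option linter.all false
set_option maxSynthPendingDepth 3

noncomputable section

namespace Vale.Agent.P088.R2.H455

open Vale.Agent.P088.EYM Vale.Agent.P088.EYM.H

variable {n N : ℕ} [NeZero n] {j0 : Fin N} {W₁ W₂ : Model n N} {D D₁ D₂ : Set (EYM.E n)}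
  {X Y : EYM.E n → EYM.E n} {S : EYM.E n → EndF N}

theorem sol_pull {L₁ L₂ : LD n N} (hD₁ : RelOpen D₁) (hD₂ : RelOpen D₂) (ok₁ : L₁.Ok D₁)
    (ok₂ : L₂.Ok D₂) (h : IsPull L₁ L₂ D₁ D₂ X Y S) {c : EYM.E n → Fib N} (hc : Sol L₂ D₂ c) :
    Sol L₁ D₁ (fun x => S x (c (X x))) := by
  have h1 := bSymm n N L₁ L₂ D₁ D₂ X Y S hD₁ hD₂ h
  have h2 := cClosed_tr bSol hD₂ hD₁ ok₂ ok₁ h1 hc
  refine cClosed_sol_congr hD₁ (fun _ _ => rfl) (fun _ _ _ => rfl) ?_ h2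
  intro x hx
  show S x (c (X x)) = Ring.inverse (Ring.inverse (S (Y (X x)))) (c (X x))
  rw [h.diffeo.inv1 x hx, Ring.inverse_inverse (h.unit x hx)]

theorem eqOnM_of (hD : RelOpen D) (hDD : D ⊆ D₁)
    (re₁ : ∀ a, ∀ x ∈ D, (W₁.c a x j0).re = x a) (re₂ : ∀ a, ∀ x ∈ D₂, (W₂.c a x j0).re = x a)
    (h : IsPull W₁.toLD W₂.toLD D₁ D₂ X Y S) (h1 : ∀ v, ∀ x ∈ D, S x v = v)
    (h2 : ∀ a, ∀ x ∈ D, S x (W₂.c a (X x)) = W₁.c a x) : EqOnM W₁ W₂ D := by
  have hc : ∀ a, ∀ x ∈ D, W₂.c a (X x) = W₁.c a x := fun a x hx => by rw [← h2 a x hx, h1 _ x hx]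
  have hX : ∀ x ∈ D, X x = x := by
    intro x hx
    ext a
    rw [← re₂ a (X x) (h.diffeo.mapsX (hDD hx)), hc a x hx, re₁ a x hx]
  have hS : ∀ x ∈ D, S x = 1 := fun x hx => by
    ext1 v
    exact h1 v x hx
  have hJ : ∀ x ∈ D, Jac X x = 1 := by
    intro x hx
    rw [← push_jac_id (hD.subset hx)]
    ext i j
    exact hD.pd_congr (fun y hy => by rw [hX y hy]) hx j
  refine ⟨fun x hx => ?_, fun x hx j => ?_, fun x hx => ?_, fun x hx a => ?_⟩
  · rw [h.g_eq x (hDD hx), hJ x hx, hX x hx, Matrix.transpose_one, Matrix.one_mul, Matrix.mul_one]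
  · have h3 := h.B_eq x (hDD hx) j
    have h4 : EYM.pd j S x = 0 := by
      rw [hD.pd_congr (g := fun _ => (1 : EndF N)) (fun y hy => hS y hy) hx j, pd_const]
    rw [h4, hS x hx, hX x hx, hJ x hx, zero_add, mul_one, one_mul] at h3
    rw [h3, Finset.sum_eq_single j]
    · rw [Matrix.one_apply_eq, one_smul]
    · intro k _ hk
      rw [Matrix.one_apply_ne hk, zero_smul]
    · simp
  · have h3 := h.h_eq x (hDD hx)
    rw [hS x hx, hX x hx, mul_one] at h3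
    have h4 : ContinuousLinearMap.adjoint (1 : EndF N) = 1 := star_one (EndF N)
    rw [h4, one_mul] at h3
    exact h3
  · rw [← hc a x hx, hX x hx]

/-- interior version -/
theorem li_int (hD₁ : RelOpen D₁) (hD₂ : RelOpen D₂) (o₁ : IsOpen D₁) (hcon : IsPreconnected D₁)
    (m₁ : IsMod j0 W₁ D₁) (m₂ : IsMod j0 W₂ D₂) (h : IsPull W₁.toLD W₂.toLD D₁ D₂ X Y S)
    {V : Set (EYM.E n)} (hV : IsOpen V) (hVD : V ⊆ D₁) (hVn : V.Nonempty)
    (hX : ∀ x ∈ V, X x = x) (hS : ∀ x ∈ V, S x = 1) (hc : ∀ x ∈ V, ∀ a, W₁.c a x = W₂.c a x) :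
    EqOnM W₁ W₂ D₁ := by
  have key : ∀ {c d : EYM.E n → Fib N}, Sol W₂.toLD D₂ c → Sol W₁.toLD D₁ d →
      (∀ x ∈ V, c x = d x) → ∀ x ∈ D₁, S x (c (X x)) = d x := by
    intro c d hc hd hcd x hx
    have h1 := cClosed_sol_sub hD₁ m₁.ok (sol_pull hD₁ hD₂ m₁.ok m₂.ok h hc) hd
    have h2 := TM.fLinInt n N W₁.toLD D₁ o₁ hD₁.subset m₁.ok hcon _ h1 V hV hVD hVn
      (fun x hx => by
        rw [hX x hx, hS x hx, hcd x hx]
        exact sub_self _)
    exact sub_eq_zero.1 (h2 x hx)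
  refine eqOnM_of (j0 := j0) hD₁ subset_rfl m₁.re m₂.re h ?_ ?_
  · intro v x hx
    exact key (m₂.frame v) (m₁.frame v) (fun _ _ => rfl) x hx
  · intro a x hx
    exact key (m₂.sol a) (m₁.sol a) (fun x hx => (hc x hx a).symm) x hx

/-- boundary version -/
theorem li_bd (hD₁ : RelOpen D₁) (hD₂ : RelOpen D₂)
    (m₁ : IsMod j0 W₁ D₁) (m₂ : IsMod j0 W₂ D₂) (h : IsPull W₁.toLD W₂.toLD D₁ D₂ X Y S)
    {p : EYM.E n} {r : ℝ} (hr : 0 < r) (hp : p 0 = 0) (hb : HB p r ⊆ D₁)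
    (hX : ∀ x ∈ HB p r, x 0 = 0 → X x = x ∧ S x = 1 ∧ Jac X x = 1 ∧ ∀ j, EYM.pd j S x = 0)
    (hc : ∀ x ∈ HB p r, x 0 = 0 → ∀ a, W₁.c a x = W₂.c a x ∧
      ∀ j, EYM.pd j (W₁.c a) x = EYM.pd j (W₂.c a) x) : EqOnM W₁ W₂ (HB p r) := by
  have hDB : RelOpen (HB p r) := cClosed_relOpen_HB p r
  have key : ∀ {c d : EYM.E n → Fib N}, Sol W₂.toLD D₂ c → Sol W₁.toLD D₁ d →
      (∀ x ∈ HB p r, x 0 = 0 → c x = d x ∧ ∀ j, EYM.pd j c x = EYM.pd j d x) →
      ∀ x ∈ HB p r, S x (c (X x)) = d x := by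
    intro c d hc hd hcd x hx
    have h1 := cClosed_sol_sub hD₁ m₁.ok (sol_pull hD₁ hD₂ m₁.ok m₂.ok h hc) hd
    have hsm : ContDiffOn ℝ ∞ (fun y => c (X y)) D₁ := hc.1.comp h.diffeo.smX h.diffeo.mapsX
    have h2 := TM.fLinBd n N W₁.toLD p r hr hp (cStart_Ok_mono m₁.ok hb) _ (cStart_Sol_mono h1 hb)
      (fun x hx hx0 => by
        obtain ⟨e1, e2, e3, e4⟩ := hX x hx hx0
        obtain ⟨f1, f2⟩ := hcd x hx hx0
        have hz : S x (c (X x)) - d x = 0 := by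
          rw [e1, e2, f1]
          exact sub_self _
        refine ⟨hz, ?_⟩
        unfold flux
        refine Finset.sum_eq_zero fun k _ => ?_
        have hn : nab W₁.toLD k (fun y => S y (c (X y)) - d y) x = 0 := by
          unfold nab
          beta_reduce
          rw [hz, map_zero, add_zero, hD₁.pd_sub (smooth_eval h.smS hsm) hd.1 (hb hx) k,
            hD₁.pd_eval h.smS hsm (by simp) (by simp) (hb hx) k, e4 k, e2,
            hD₁.pd_comp hD₂ h.diffeo.smX h.diffeo.mapsX hc.1 (hb hx) k]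
          have h5 : ∑ m, EYM.pd k (fun y => X y m) x • EYM.pd m c (X x) = EYM.pd k c x := by
            have h6 : ∀ m, EYM.pd k (fun y => X y m) x = (1 : Matrix (Fin n) (Fin n) ℝ) m k :=
              fun m => by rw [← e3]; rfl
            rw [Finset.sum_eq_single k]
            · rw [h6, Matrix.one_apply_eq, one_smul, e1]
            · intro m _ hm
              rw [h6, Matrix.one_apply_ne hm, zero_smul]
            · simp
          rw [h5, ← f2 k]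
          show EYM.pd k c x + 0 - EYM.pd k c x = 0
          abel
        rw [hn, smul_zero])
    exact sub_eq_zero.1 (h2 x hx)
  refine eqOnM_of (j0 := j0) hDB hb (fun a x hx => m₁.re a x (hb hx)) m₂.re h ?_ ?_
  · intro v x hx
    exact key (m₂.frame v) (m₁.frame v) (fun _ _ _ => ⟨rfl, fun _ => rfl⟩) x hx
  · intro a x hx
    exact key (m₂.sol a) (m₁.sol a) (fun x hx hx0 => ⟨(hc x hx hx0 a).1.symm,
      fun j => ((hc x hx hx0 a).2 j).symm⟩) x hx

theorem IsMod.mono {W : Model n N} (h : IsMod j0 W D) (hD : D₁ ⊆ D) : IsMod j0 W D₁ where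
  ok := cStart_Ok_mono h.ok hD
  frame v := cStart_Sol_mono (h.frame v) hD
  sol a := cStart_Sol_mono (h.sol a) hD
  re a x hx := h.re a x (hD hx)

end Vale.Agent.P088.R2.H455
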