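import Vale.Agent.P088.R2.H455.Coord

/-!
# P088, quasi-analytic class: invariance under changes of coordinates and frames
-/

open Set Filter Topology Metric
open scoped ContDiff

set_option linter.all false
set_option maxSynthPendingDepth 3

noncomputable section

namespace Vale.Agent.P088.R2.H455

open Vale.Agent.P088.EYM Vale.Agent.P088.EYM.H

variable {n N : ℕ} [NeZero n] {L L' : LD n N} {D D' : Set (EYM.E n)}
  {X Y : EYM.E n → EYM.E n} {S : EYM.E n → EndF N} {𝒬 : ℝ → (ℝ → ℂ) → Prop}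

/-- the differential of `X` -/
def DX (X : EYM.E n → EYM.E n) (x v : EYM.E n) : EYM.E n := fderivWithin ℝ X (Hs n) x v

theorem DX_comp (hD : RelOpen D) (hX : ContDiffOn ℝ ∞ X D) {x : EYM.E n} (hx : x ∈ D)
    (v : EYM.E n) (p : Fin n) : DX X x v p = ∑ i, Jac X x p i * v i := by
  unfold DX
  rw [fderivWithin_eq_sum]
  have h1 : (∑ i, v i • EYM.pd i X x) p = ∑ i, v i * (EYM.pd i X x) p := by
    have := map_sum (pj p) (fun i => v i • EYM.pd i X x) Finset.univ
    exact this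
  rw [h1]
  refine Finset.sum_congr rfl fun i _ => ?_
  have h2 : Jac X x p i = (EYM.pd i X x) p := hD.pd_clm (pj p) hX hx i
  rw [h2, mul_comm]

theorem sc2 (c : ℝ) (A B : Fin n → ℝ) : c * (∑ i, A i) * (∑ i, B i) =
    ∑ i, ∑ j, c * A i * B j := by
  rw [mul_assoc, Finset.sum_mul_sum, Finset.mul_sum]
  refine Finset.sum_congr rfl fun i _ => ?_
  rw [Finset.mul_sum]
  exact Finset.sum_congr rfl fun j _ => by ring

theorem prod4 (A B C E : Fin n → ℝ) : (∑ i, A i) * (∑ i, B i) * (∑ i, C i) * (∑ i, E i) =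
    ∑ i, ∑ j, ∑ k, ∑ m, A i * B j * C k * E m := by
  rw [Finset.sum_mul_sum, Finset.sum_mul, Finset.sum_mul]
  refine Finset.sum_congr rfl fun i _ => ?_
  rw [Finset.sum_mul, Finset.sum_mul]
  exact Finset.sum_congr rfl fun j _ => sc2 _ _ _

theorem sum4 (f : Fin n → Fin n → Fin n → Fin n → ℝ) : ∑ i, ∑ j, ∑ k, ∑ m, f i j k m =
    ∑ t : Fin n × Fin n × Fin n × Fin n, f t.1 t.2.1 t.2.2.1 t.2.2.2 := by
  simp only [Fintype.sum_prod_type]

theorem rmv_pull (hD : RelOpen D) (hD' : RelOpen D') (ok : L.Ok D) (ok' : L'.Ok D')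
    (h : IsPull L L' D D' X Y S) {x : EYM.E n} (hx : x ∈ D) (a b c d : EYM.E n) :
    rmv L'.g (X x) (DX X x a) (DX X x b) (DX X x c) (DX X x d) = rmv L.g x a b c d := by
  have hX := h.diffeo.smX
  unfold rmv
  rw [sum4, sum4]
  have e1 : ∀ t : Fin n × Fin n × Fin n × Fin n,
      H.rm L'.g t.1 t.2.1 t.2.2.1 t.2.2.2 (X x) * DX X x a t.1 * DX X x b t.2.1 *
        DX X x c t.2.2.1 * DX X x d t.2.2.2 = ∑ u : Fin n × Fin n × Fin n × Fin n,
      H.rm L'.g t.1 t.2.1 t.2.2.1 t.2.2.2 (X x) * ((Jac X x t.1 u.1 * a u.1) *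
        (Jac X x t.2.1 u.2.1 * b u.2.1) * (Jac X x t.2.2.1 u.2.2.1 * c u.2.2.1) *
        (Jac X x t.2.2.2 u.2.2.2 * d u.2.2.2)) := by
    intro t
    rw [← Finset.mul_sum, ← sum4 (fun i j k m => (Jac X x t.1 i * a i) *
        (Jac X x t.2.1 j * b j) * (Jac X x t.2.2.1 k * c k) * (Jac X x t.2.2.2 m * d m)),
      ← prod4, DX_comp hD hX hx, DX_comp hD hX hx, DX_comp hD hX hx, DX_comp hD hX hx]
    ring
  simp only [e1]
  rw [Finset.sum_comm]
  refine Finset.sum_congr rfl fun u _ => ?_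
  rw [rm_pull hD hD' hX h.diffeo.mapsX ok.g_smooth ok'.g_smooth ok.g_pos ok'.g_pos h.g_eq hx,
    sum4, Finset.sum_mul, Finset.sum_mul, Finset.sum_mul, Finset.sum_mul]
  refine Finset.sum_congr rfl fun t _ => ?_
  ring

theorem curv2_pull (hD : RelOpen D) (hD' : RelOpen D') (ok' : L'.Ok D')
    (h : IsPull L L' D D' X Y S) {x : EYM.E n} (hx : x ∈ D) (a b : EYM.E n) :
    curv2 L.B x a b = S x * curv2 L'.B (X x) (DX X x a) (DX X x b) * Ring.inverse (S x) := by
  have hX := h.diffeo.smX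
  unfold curv2
  simp only [cur_pull hD hD' ok' h hx, DX_comp hD hX hx]
  have e1 : ∀ i j, (a i * b j) • (S x * (∑ k, ∑ l, (Jac X x k i * Jac X x l j) •
      EYM.cur L'.B k l (X x)) * Ring.inverse (S x)) =
      S x * ((a i * b j) • ∑ k, ∑ l, (Jac X x k i * Jac X x l j) •
      EYM.cur L'.B k l (X x)) * Ring.inverse (S x) := by
    intro i j
    rw [mul_smul_comm, smul_mul_assoc]
  simp only [e1, ← Finset.mul_sum, ← Finset.sum_mul]
  congr 2
  simp only [Finset.smul_sum, smul_smul]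
  have e2 : ∀ k l, ((∑ i, Jac X x k i * a i) * ∑ i, Jac X x l i * b i) • EYM.cur L'.B k l (X x) =
      ∑ i, ∑ j, (a i * b j * (Jac X x k i * Jac X x l j)) • EYM.cur L'.B k l (X x) := by
    intro k l
    rw [Finset.sum_mul_sum, Finset.sum_smul]
    refine Finset.sum_congr rfl fun i _ => ?_
    rw [Finset.sum_smul]
    refine Finset.sum_congr rfl fun j _ => ?_
    congr 1
    ring
  simp only [e2]
  have e3 : ∀ f : Fin n → Fin n → Fin n → Fin n → EndF N, ∑ i, ∑ j, ∑ k, ∑ l, f i j k l =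
      ∑ k, ∑ l, ∑ i, ∑ j, f i j k l := by
    intro f
    calc ∑ i, ∑ j, ∑ k, ∑ l, f i j k l = ∑ i, ∑ k, ∑ j, ∑ l, f i j k l :=
          Finset.sum_congr rfl fun i _ => Finset.sum_comm
      _ = ∑ k, ∑ i, ∑ j, ∑ l, f i j k l := Finset.sum_comm
      _ = ∑ k, ∑ i, ∑ l, ∑ j, f i j k l := Finset.sum_congr rfl fun k _ =>
          Finset.sum_congr rfl fun i _ => Finset.sum_comm
      _ = ∑ k, ∑ l, ∑ i, ∑ j, f i j k l := Finset.sum_congr rfl fun k _ => Finset.sum_comm
  exact e3 _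

/-- the second derivatives of `X` -/
theorem chv_pull (hD : RelOpen D) (hD' : RelOpen D') (ok : L.Ok D) (ok' : L'.Ok D')
    (h : IsPull L L' D D' X Y S) {x : EYM.E n} (hx : x ∈ D) (u v : EYM.E n) (p : Fin n) :
    DX X x (chv L.g x u v) p = (∑ i, ∑ j, EYM.pd i (fun y => Jac X y p j) x * u i * v j) +
      chv L'.g (X x) (DX X x u) (DX X x v) p := by
  have hX := h.diffeo.smX
  have key : ∀ i j, ∑ k, Jac X x p k * EYM.chr L.g k i j x =
      EYM.pd i (fun y => Jac X y p j) x +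
        ∑ l, (∑ k, Jac X x k i * EYM.chr L'.g p k l (X x)) * Jac X x l j := by
    intro i j
    have h1 := congrFun (congrFun (chr_pull hD hD' h.diffeo.mapsX hX ok'.g_smooth ok.g_pos
      ok'.g_pos h.g_eq hx i) p) j
    rw [Matrix.mul_apply, Matrix.add_apply, Matrix.mul_apply] at h1
    have e1 : ∀ l, (∑ k, Jac X x k i • mchr L'.g k (X x)) p l =
        ∑ k, Jac X x k i * EYM.chr L'.g p k l (X x) := by
      intro l
      rw [Matrix.sum_apply]
      rfl
    simp only [e1] at h1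
    exact h1
  rw [DX_comp hD hX hx]
  show ∑ k, Jac X x p k * ∑ i, ∑ j, EYM.chr L.g k i j x * u i * v j = _
  have e2 : ∑ k, Jac X x p k * ∑ i, ∑ j, EYM.chr L.g k i j x * u i * v j =
      ∑ i, ∑ j, (∑ k, Jac X x p k * EYM.chr L.g k i j x) * u i * v j := by
    simp only [Finset.mul_sum, Finset.sum_mul]
    rw [Finset.sum_comm]
    refine Finset.sum_congr rfl fun i _ => ?_
    rw [Finset.sum_comm]
    refine Finset.sum_congr rfl fun j _ => Finset.sum_congr rfl fun k _ => ?_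
    ring
  rw [e2]
  simp only [key, add_mul, Finset.sum_add_distrib]
  congr 1
  show _ = ∑ k, ∑ l, EYM.chr L'.g p k l (X x) * DX X x u k * DX X x v l
  simp only [DX_comp hD hX hx]
  have e3 : ∀ i j, (∑ l, (∑ k, Jac X x k i * EYM.chr L'.g p k l (X x)) * Jac X x l j) * u i * v j =
      ∑ k, ∑ l, (EYM.chr L'.g p k l (X x)) * (Jac X x k i * u i) * (Jac X x l j * v j) := by
    intro i j
    simp only [Finset.sum_mul]
    rw [Finset.sum_comm]
    refine Finset.sum_congr rfl fun k _ => Finset.sum_congr rfl fun l _ => ?_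
    ring
  have e4 : ∀ k l, EYM.chr L'.g p k l (X x) * (∑ i, Jac X x k i * u i) * ∑ i, Jac X x l i * v i =
      ∑ i, ∑ j, (EYM.chr L'.g p k l (X x)) * (Jac X x k i * u i) * (Jac X x l j * v j) := by
    intro k l
    exact sc2 _ _ _
  simp only [e3, e4]
  calc ∑ i, ∑ j, ∑ k, ∑ l, (EYM.chr L'.g p k l (X x)) * (Jac X x k i * u i) * (Jac X x l j * v j)
      = ∑ i, ∑ k, ∑ j, ∑ l, (EYM.chr L'.g p k l (X x)) * (Jac X x k i * u i) *
        (Jac X x l j * v j) := Finset.sum_congr rfl fun i _ => Finset.sum_comm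
    _ = ∑ k, ∑ i, ∑ j, ∑ l, (EYM.chr L'.g p k l (X x)) * (Jac X x k i * u i) *
        (Jac X x l j * v j) := Finset.sum_comm
    _ = ∑ k, ∑ i, ∑ l, ∑ j, (EYM.chr L'.g p k l (X x)) * (Jac X x k i * u i) *
        (Jac X x l j * v j) := Finset.sum_congr rfl fun k _ =>
          Finset.sum_congr rfl fun i _ => Finset.sum_comm
    _ = _ := Finset.sum_congr rfl fun k _ => Finset.sum_comm

theorem gv_pull (hD : RelOpen D) (h : IsPull L L' D D' X Y S) {x : EYM.E n} (hx : x ∈ D)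
    (a b : EYM.E n) : gv L'.g (X x) (DX X x a) (DX X x b) = gv L.g x a b := by
  have hX := h.diffeo.smX
  unfold gv
  rw [h.g_eq x hx]
  simp only [DX_comp hD hX hx, Matrix.mul_apply, Matrix.transpose_apply]
  have e4 : ∀ k l, L'.g (X x) k l * (∑ i, Jac X x k i * a i) * ∑ i, Jac X x l i * b i =
      ∑ i, ∑ j, (L'.g (X x) k l) * (Jac X x k i * a i) * (Jac X x l j * b j) := by
    intro k l
    exact sc2 _ _ _
  have e3 : ∀ i j, (∑ l, (∑ k, Jac X x k i * L'.g (X x) k l) * Jac X x l j) * a i * b j =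
      ∑ k, ∑ l, (L'.g (X x) k l) * (Jac X x k i * a i) * (Jac X x l j * b j) := by
    intro i j
    simp only [Finset.sum_mul]
    rw [Finset.sum_comm]
    refine Finset.sum_congr rfl fun k _ => Finset.sum_congr rfl fun l _ => ?_
    ring
  simp only [e3, e4]
  symm
  calc ∑ i, ∑ j, ∑ k, ∑ l, (L'.g (X x) k l) * (Jac X x k i * a i) * (Jac X x l j * b j)
      = ∑ i, ∑ k, ∑ j, ∑ l, (L'.g (X x) k l) * (Jac X x k i * a i) *
        (Jac X x l j * b j) := Finset.sum_congr rfl fun i _ => Finset.sum_comm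
    _ = ∑ k, ∑ i, ∑ j, ∑ l, (L'.g (X x) k l) * (Jac X x k i * a i) *
        (Jac X x l j * b j) := Finset.sum_comm
    _ = ∑ k, ∑ i, ∑ l, ∑ j, (L'.g (X x) k l) * (Jac X x k i * a i) *
        (Jac X x l j * b j) := Finset.sum_congr rfl fun k _ =>
          Finset.sum_congr rfl fun i _ => Finset.sum_comm
    _ = _ := Finset.sum_congr rfl fun k _ => Finset.sum_comm

end Vale.Agent.P088.R2.H455
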