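import Vale.Agent.P088.R2.H455.Seel2

/-!
# P088, quasi-analytic class: rigidity from the boundary
-/

open Set Filter Topology Metric
open scoped ContDiff

set_option linter.all false
set_option maxSynthPendingDepth 3

noncomputable section

namespace Vale.Agent.P088.R2.H455

open Vale.Agent.P219.RG Vale.Agent.P088.EYM Vale.Agent.P088.EYM.H

variable {n N : ℕ} [NeZero n] {j0 : Fin N} {W₁ W₂ : Model n N} {D : Set (EYM.E n)}
  {𝒬 : ℝ → (ℝ → ℂ) → Prop}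

theorem Van.mono_set {W : Type} [NormedAddCommGroup W] [NormedSpace ℝ W] {D D' : Set (EYM.E n)}
    {k : ℕ} {f : EYM.E n → W} (h : Van D k f) (hD : D' ⊆ D) : Van D' k f :=
  fun i hi x hx h0 => h i hi x (hD hx) h0

/-- both data are extended in the same way across the boundary -/
theorem exists_ext {z : EYM.E n} {R : ℝ} (hR : 0 < R) (hz : z 0 = 0) {L₁ L₂ : LD n N}
    (ok₁ : L₁.Ok (HB z R)) (ok₂ : L₂.Ok (HB z R))
    (hg : ∀ k i j, Van (HB z R) k (fun x => L₁.g x i j - L₂.g x i j))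
    (hB : ∀ k i, Van (HB z R) k (fun x => L₁.B i x - L₂.B i x)) :
    ∃ (r : ℝ) (g₁ g₂ : EYM.E n → Matrix (Fin n) (Fin n) ℝ) (B₁ B₂ : Fin n → EYM.E n → EndF N),
      0 < r ∧ r ≤ R ∧ Ext L₁ (HB z r) (ball z r) g₁ B₁ ∧ Ext L₂ (HB z r) (ball z r) g₂ B₂ ∧
      ∀ x, x 0 < 0 → g₁ x = g₂ x ∧ ∀ i, B₁ i x = B₂ i x := by
  have hF : ∀ i j, ∃ F : EYM.E n → ℝ, ContDiff ℝ ∞ F ∧ ∀ x ∈ HB z (R / 2), F x = L₁.g x i j :=
    fun i j => ext_real hR (ok₁.g_smooth i j)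
  choose F hF1 hF2 using hF
  have hG : ∀ i, ∃ F : EYM.E n → EndF N, ContDiff ℝ ∞ F ∧ ∀ x ∈ HB z (R / 2), F x = L₁.B i x :=
    fun i => ext_vec hR (ok₁.B_smooth i)
  choose B₁ hB1 hB2 using hG
  have hsub : HB z (R / 2) ⊆ HB z R := inter_subset_inter_left _ (ball_subset_ball (by linarith))
  have hsymm : ∀ {L : LD n N}, L.Ok (HB z R) → ∀ x ∈ HB z R, ∀ i j, L.g x i j = L.g x j i := by
    intro L ok x hx i j
    have h := (ok.g_pos x hx).isHermitian.apply i j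
    rw [← h]; rfl
  set g₁ : EYM.E n → Matrix (Fin n) (Fin n) ℝ := fun x => Matrix.of fun i j =>
    (1 / 2 : ℝ) * (F i j x + F j i x) with hg₁
  set g₂ : EYM.E n → Matrix (Fin n) (Fin n) ℝ := fun x => Matrix.of fun i j =>
    g₁ x i j - ez (fun x => L₁.g x i j - L₂.g x i j) x with hg₂
  set B₂ : Fin n → EYM.E n → EndF N := fun i x =>
    B₁ i x - ez (fun x => L₁.B i x - L₂.B i x) x with hB₂
  have e1 : ∀ x ∈ HB z (R / 2), g₁ x = L₁.g x := by
    intro x hx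
    ext i j
    show (1 / 2 : ℝ) * (F i j x + F j i x) = _
    rw [hF2 i j x hx, hF2 j i x hx, hsymm ok₁ x (hsub hx) j i]
    ring
  have e2 : ∀ x ∈ HB z (R / 2), g₂ x = L₂.g x := by
    intro x hx
    ext i j
    show g₁ x i j - ez (fun x => L₁.g x i j - L₂.g x i j) x = _
    rw [ez_pos _ (show 0 ≤ x 0 from hx.2), e1 x hx]
    ring
  have e3 : ∀ x, x 0 < 0 → g₁ x = g₂ x ∧ ∀ i, B₁ i x = B₂ i x := by
    intro x hx
    constructor
    · ext i j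
      show _ = g₁ x i j - ez (fun x => L₁.g x i j - L₂.g x i j) x
      rw [ez_neg _ hx, sub_zero]
    · intro i
      show _ = B₁ i x - ez (fun x => L₁.B i x - L₂.B i x) x
      rw [ez_neg _ hx, sub_zero]
  have s1 : ∀ i j, ContDiff ℝ ∞ fun x => g₁ x i j := fun i j =>
    contDiff_const.mul ((hF1 i j).add (hF1 j i))
  have s2 : ∀ i j, ContDiffOn ℝ ∞ (fun x => g₂ x i j) (ball z (R / 2)) := fun i j =>
    (s1 i j).contDiffOn.sub (ez_smooth' isOpen_ball (((ok₁.g_smooth i j).sub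
      (ok₂.g_smooth i j)).mono hsub) fun k => Van.mono_set (hg k i j) hsub)
  have s3 : ∀ i, ContDiffOn ℝ ∞ (B₂ i) (ball z (R / 2)) := fun i =>
    (hB1 i).contDiffOn.sub (ez_smooth' isOpen_ball (((ok₁.B_smooth i).sub
      (ok₂.B_smooth i)).mono hsub) fun k => Van.mono_set (hB k i) hsub)
  have hzB : z ∈ HB z (R / 2) := ⟨mem_ball_self (half_pos hR), by show 0 ≤ z 0; rw [hz]⟩
  have hpd := posDef_nhds (g := g₁) (p := z) (fun i j => (s1 i j).continuous) (fun x i j => by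
      show (1 / 2 : ℝ) * (F i j x + F j i x) = (1 / 2 : ℝ) * (F j i x + F i j x)
      rw [add_comm (F i j x)]) (by rw [e1 z hzB]; exact ok₁.g_pos z (hsub hzB))
  obtain ⟨ε, hε, hb⟩ := Metric.eventually_nhds_iff_ball.1 hpd
  set r := min ε (R / 2) with hr
  have hr0 : 0 < r := lt_min hε (half_pos hR)
  have hr1 : ball z r ⊆ ball z (R / 2) := ball_subset_ball (min_le_right _ _)
  have hr2 : ball z r ⊆ ball z ε := ball_subset_ball (min_le_left _ _)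
  have hr3 : HB z r ⊆ HB z (R / 2) := inter_subset_inter_left _ hr1
  refine ⟨r, g₁, g₂, B₁, B₂, hr0, (min_le_right _ _).trans (by linarith), ?_, ?_, e3⟩
  · exact ⟨isOpen_ball, cClosed_relOpen_HB z r, inter_subset_left, fun i j => (s1 i j).contDiffOn,
      fun x hx => hb x (hr2 hx), fun i => (hB1 i).contDiffOn, fun x hx => e1 x (hr3 hx),
      fun x hx i => hB2 i x (hr3 hx)⟩
  · refine ⟨isOpen_ball, cClosed_relOpen_HB z r, inter_subset_left, fun i j => (s2 i j).mono hr1,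
      fun x hx => ?_, fun i => (s3 i).mono hr1, fun x hx => e2 x (hr3 hx), fun x hx i => ?_⟩
    · rcases lt_or_ge (x 0) 0 with h | h
      · rw [← (e3 x h).1]; exact hb x (hr2 hx)
      · rw [e2 x ⟨hr1 hx, h⟩]; exact ok₂.g_pos x (hsub ⟨hr1 hx, h⟩)
    · show B₁ i x - ez (fun x => L₁.B i x - L₂.B i x) x = _
      rw [ez_pos _ (show 0 ≤ x 0 from hx.2), hB2 i x (hr3 hx)]
      abel

/-- one step of the rigidity from the boundary -/
theorem bd_step (hQ : QAn 𝒬) {z : EYM.E n} {R : ℝ} (hR : 0 < R) (hz : z 0 = 0)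
    (m₁ : IsMod j0 W₁ (HB z R)) (m₂ : IsMod j0 W₂ (HB z R)) (q₁ : QEq 𝒬 W₁.toLD (HB z R))
    (q₂ : QEq 𝒬 W₂.toLD (HB z R)) (hj : JetAll W₁ W₂ (HB z R)) :
    ∃ r > 0, r ≤ R ∧ EqOnM W₁ W₂ (HB z r) := by
  obtain ⟨r, g₁, g₂, B₁, B₂, hr, hrR, e₁, e₂, hext⟩ := exists_ext hR hz m₁.ok m₂.ok hj.g hj.B
  have hsubr : HB z r ⊆ HB z R := inter_subset_inter_left _ (ball_subset_ball hrR)
  set l : EYM.E n →L[ℝ] ℝ := pj 0 with hl
  have hlx : ∀ x : EYM.E n, l x = x 0 := fun x => rfl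
  set ν : EYM.E n := ev 0 with hν
  have hlν : l ν = 1 := by rw [hlx, hν]; simp [ev]
  have hν1 : ‖ν‖ = 1 := by rw [hν]; simp [ev]
  have hπ : ∀ y : EYM.E n, ‖y - l y • ν‖ ≤ ‖y‖ := by
    intro y
    have h1 := proj_le hν1 y
    have h2 : innerSL ℝ ν y = l y := by
      rw [innerSL_apply_apply, hν, hlx]
      simp [ev, EuclideanSpace.inner_single_left]
    rwa [h2] at h1
  set σ : EYM.E n → EYM.E n := fun y => z + y with hσ
  have hσs : ContDiff ℝ ∞ σ := contDiff_const.add contDiff_id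
  have hσ0 : σ 0 = z := by rw [hσ]; simp
  have hdσ : DifferentiableAt ℝ σ 0 := (hσs.differentiable (by simp)) 0
  have hfσ : ∀ v, fderiv ℝ σ 0 v = v := by
    intro v
    have : HasFDerivAt σ (ContinuousLinearMap.id ℝ (EYM.E n)) 0 :=
      (hasFDerivAt_id (0 : EYM.E n)).const_add z
    rw [this.fderiv]; rfl
  have hlσ : ∀ y, l (σ y) = l y := by
    intro y
    show l (z + y) = l y
    rw [map_add, hlx z, hz, zero_add]
  have hrc : ContDiff ℝ 1 (fun x : EYM.E n => l x) := l.contDiff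
  have hfl : ∀ x v, fderiv ℝ (fun x : EYM.E n => l x) x v = l v := by
    intro x v
    have : HasFDerivAt (fun x : EYM.E n => l x) l x := l.hasFDerivAt
    rw [this.fderiv]
  obtain ⟨δ, S₁, S₂, s₁, s₂, p₁, p₂, hneg, hrn, hzz⟩ := exists_pair e₁.metric e₂.metric e₁.smB'
    e₂.smB' hlν hπ hσs (by rw [hσ0]; exact mem_ball_self hr) hrc (by rw [hfl, hlν]; exact one_pos)
    (Eventually.of_forall fun y hy => by rw [hlσ, hy])
    (fun x hx hrx => ⟨toG_congr (hext x hrx).1, toB_congr (hext x hrx).2⟩)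
  have hpos : ∀ {G : EYM.E n → EYM.E n →L[ℝ] EYM.E n →L[ℝ] ℝ} {B : EYM.E n → EYM.E n →L[ℝ] EndF N}
      {U : Set (EYM.E n)} {S : EYM.E n → St (EYM.E n) (EndF N)}, Sys G B U l ν σ δ S →
      (∀ y ∈ ball (0 : EYM.E n) δ, 0 < fderiv ℝ (fun x : EYM.E n => l x) (S y).1 (S y).2.1) →
      ∀ y ∈ ball (0 : EYM.E n) δ, (0 < l y → 0 < l (S y).1) ∧ (l y = 0 → l (S y).1 = 0) := by
    intro G B U S s p y hy
    constructor
    · intro h
      have h1 := (s.incr hlν hπ hrc p hy).1 h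
      rwa [hlσ, proj_zero hlν] at h1
    · intro h
      rw [s.ini y hy h]
      show l (σ y) = 0
      rw [hlσ, h]
  have hHs : ∀ {G : EYM.E n → EYM.E n →L[ℝ] EYM.E n →L[ℝ] ℝ} {B : EYM.E n → EYM.E n →L[ℝ] EndF N}
      {U : Set (EYM.E n)} {S : EYM.E n → St (EYM.E n) (EndF N)}, Sys G B U l ν σ δ S →
      (∀ y ∈ ball (0 : EYM.E n) δ, 0 < fderiv ℝ (fun x : EYM.E n => l x) (S y).1 (S y).2.1) →
      ∀ y ∈ ball (0 : EYM.E n) δ, 0 ≤ l y → (S y).1 ∈ Hs n := by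
    intro G B U S s p y hy h
    show 0 ≤ l (S y).1
    rcases h.lt_or_eq with h1 | h1
    · exact ((hpos s p y hy).1 h1).le
    · exact ((hpos s p y hy).2 h1.symm).ge
  have hnHs : ∀ y ∈ ball (0 : EYM.E n) δ, l y < 0 → (S₁ y).1 ∉ Hs n := by
    intro y hy h h1
    have h2 : 0 ≤ l (S₁ y).1 := h1
    exact absurd (hrn y hy h) (not_lt.2 h2)
  have hro : IsOpen {x : EYM.E n | l x < 0} := isOpen_lt l.continuous continuous_const
  have T : Two 𝒬 W₁.toLD W₂.toLD (HB z r) (ball z r) g₁ g₂ B₁ B₂ l ν σ δ S₁ S₂ := by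
    refine ⟨hQ, e₁, e₂, cStart_Ok_mono m₁.ok hsubr, cStart_Ok_mono m₂.ok hsubr, q₁.mono hsubr,
      q₂.mono hsubr, s₁, s₂, hlν, hπ, fun y hy h => ⟨s₁.mem y hy, hHs s₁ p₁ y hy h⟩,
      fun y hy h => ⟨s₂.mem y hy, hHs s₂ p₂ y hy h⟩, hneg, fun y hy hly => ?_,
      fun y hy h0 => (hzz y hy h0).1,
      fun y hy h0 => (hzz y hy h0).2.1, fun y hy h0 => (hzz y hy h0).2.2, fun y hy h0 => ?_,
      fun y hy hly h => absurd h.2 (hnHs y hy hly)⟩
    · have hev : ∀ᶠ x in 𝓝 (S₁ y).1, l x < 0 := hro.mem_nhds (hrn y hy hly)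
      constructor
      · filter_upwards [hev] with x hx using toG_congr (hext x hx).1
      · filter_upwards [hev] with x hx using toB_congr (hext x hx).2
    · have h1 : σ y ∈ HB z R := by
        have h2 := s₁.mem y hy
        rw [s₁.ini y hy h0] at h2
        exact ⟨ball_subset_ball hrR h2, by
          show 0 ≤ l (σ y)
          rw [hlσ, h0]⟩
      have h3 := hj.h 1
      exact djt_val h3 h1 (by
        show l (σ y) = 0
        rw [hlσ, h0])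
  have hH : ∀ y ∈ ball (0 : EYM.E n) δ, (S₁ y).1 ∈ Hs n ↔ (S₂ y).1 ∈ Hs n := by
    intro y hy
    rcases lt_or_ge (l y) 0 with h | h
    · rw [hneg y hy h.le]
    · exact ⟨fun _ => hHs s₂ p₂ y hy h, fun _ => hHs s₁ p₁ y hy h⟩
  obtain ⟨δ₁, a1, a2, I₁, a3⟩ := loc_diffeo s₁.pos s₁.cd1
    (s₁.d0 hlν hdσ (fun v _ => hfσ v))
  obtain ⟨δ₂, b1, b2, I₂, b3⟩ := loc_diffeo s₂.pos s₂.cd1
    (s₂.d0 hlν hdσ (fun v _ => hfσ v))
  set δ' := min δ₁ δ₂ with hδ'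
  have hδ0 : 0 < δ' := lt_min a1 b1
  obtain ⟨c1, c2, c3, c4⟩ := a3 δ' hδ0 (min_le_left _ _)
  obtain ⟨c1', c2', c3', c4'⟩ := b3 δ' hδ0 (min_le_right _ _)
  have hδδ : δ' ≤ δ := (min_le_left _ _).trans a2
  have hsub : ball (0 : EYM.E n) δ' ⊆ ball 0 δ := ball_subset_ball hδδ
  have i₁ : Inv (fun z => (S₁ z).1) δ' I₁ := ⟨c1, c2, c3, c4⟩
  have P := T.isPull (fun x hx h => ⟨hx, h⟩) hH hδδ i₁ ⟨c1', c2', c3', c4'⟩
  set F₁ : EYM.E n → EYM.E n := fun z => (S₁ z).1 with hF₁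
  set F₂ : EYM.E n → EYM.E n := fun z => (S₂ z).1 with hF₂
  have hF₁D : F₁ '' ball 0 δ' ∩ Hs n ⊆ HB z R := by
    rintro _ ⟨⟨y, hy, rfl⟩, h⟩
    exact ⟨ball_subset_ball hrR (s₁.mem y (hsub hy)), h⟩
  have hF₂D : F₂ '' ball 0 δ' ∩ Hs n ⊆ HB z R := by
    rintro _ ⟨⟨y, hy, rfl⟩, h⟩
    exact ⟨ball_subset_ball hrR (s₂.mem y (hsub hy)), h⟩
  have hzm : z ∈ F₁ '' ball 0 δ' := by
    refine ⟨0, mem_ball_self hδ0, ?_⟩
    show (S₁ 0).1 = z
    rw [s₁.ini 0 (mem_ball_self s₁.pos) (map_zero l)]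
    exact hσ0
  obtain ⟨ε, hε, hb⟩ := Metric.isOpen_iff.1 c1 z hzm
  set ρ := min ε R with hρ
  have hρ0 : 0 < ρ := lt_min hε hR
  have hρ1 : HB z ρ ⊆ F₁ '' ball 0 δ' ∩ Hs n := fun x hx =>
    ⟨hb (ball_subset_ball (min_le_left _ _) hx.1), hx.2⟩
  have hρR : HB z ρ ⊆ HB z R := inter_subset_inter_left _ (ball_subset_ball (min_le_right _ _))
  refine ⟨ρ, hρ0, min_le_right _ _, ?_⟩
  refine li_bd (j0 := j0) ⟨_, c1, rfl⟩ ⟨_, c1', rfl⟩ (IsMod.mono m₁ hF₁D) (IsMod.mono m₂ hF₂D) P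
    hρ0 hz hρ1 ?_ ?_
  · intro x hx hx0
    obtain ⟨⟨y, hy, rfl⟩, hyH⟩ := hρ1 hx
    have hly : l y = 0 := by
      rcases lt_trichotomy (l y) 0 with h | h | h
      · exact absurd hyH (hnHs y (hsub hy) h)
      · exact h
      · exact absurd hx0 ((hpos s₁ p₁ y (hsub hy)).1 h).ne'
    have hS := hneg y (hsub hy) hly.le
    obtain ⟨f1, f2⟩ := T.fd_neg (hsub hy) hly.le
    have hi := s₁.ini y (hsub hy) hly
    have hi2 := s₂.ini y (hsub hy) hly
    have hFd : ∀ y ∈ ball (0 : EYM.E n) δ', DifferentiableAt ℝ (fun z => (S₁ z).1) y :=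
      fun y hy => (s₁.df (hsub hy)).fst
    refine ⟨?_, ?_, ?_, ?_⟩
    · show (S₂ (I₁ (F₁ y))).1 = F₁ y
      rw [c2 y hy, ← hS]
    · show (S₁ (I₁ (F₁ y))).2.2.2 * Ring.inverse (S₂ (I₁ (F₁ y))).2.2.2 = 1
      rw [c2 y hy, ← hS]
      exact Ring.mul_inverse_cancel _ (s₁.unP y (hsub hy))
    · ext i j
      have h1 : DifferentiableAt ℝ (fun z => (S₂ z).1) y := (s₂.df (hsub hy)).fst
      have h2 : HasFDerivAt (fun x => (S₂ (I₁ x)).1)
          ((fderiv ℝ (fun z => (S₂ z).1) y).comp (fderiv ℝ I₁ (F₁ y))) (F₁ y) :=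
        i₁.fd_comp hy h1
      have h3 := ((pj i).hasFDerivAt.comp (F₁ y) h2)
      have h4 : EYM.pd j (fun x => (S₂ (I₁ x)).1 i) (F₁ y) = _ :=
        pd_of_has hyH h3.hasFDerivWithinAt j
      show EYM.pd j (fun x => (S₂ (I₁ x)).1 i) (F₁ y) = _
      rw [h4]
      simp only [ContinuousLinearMap.comp_apply]
      rw [← f1]
      have h5 := i₁.fd hFd hy (ev j)
      show pj i (fderiv ℝ (fun z => (S₁ z).1) y (fderiv ℝ I₁ (F₁ y) (ev j))) = _
      have h6 : fderiv ℝ (fun z => (S₁ z).1) y (fderiv ℝ I₁ (F₁ y) (ev j)) = ev j := h5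
      rw [h6]
      simp [ev, Matrix.one_apply]
    · intro j
      obtain ⟨k1, k2⟩ := fd_quot (P₁ := fun z => (S₁ z).2.2.2) (P₂ := fun z => (S₂ z).2.2.2)
        (y := y) (s₁.df (hsub hy)).snd.snd.snd (s₂.df (hsub hy)).snd.snd.snd (s₂.unP y (hsub hy))
      have h2 : HasFDerivAt (fun x => (S₁ (I₁ x)).2.2.2 * Ring.inverse (S₂ (I₁ x)).2.2.2)
          ((fderiv ℝ (fun z => (S₁ z).2.2.2 * Ring.inverse (S₂ z).2.2.2) y).comp
            (fderiv ℝ I₁ (F₁ y))) (F₁ y) :=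
        i₁.fd_comp (K := fun z => (S₁ z).2.2.2 * Ring.inverse (S₂ z).2.2.2) hy k1
      have h4 : EYM.pd j (fun x => (S₁ (I₁ x)).2.2.2 * Ring.inverse (S₂ (I₁ x)).2.2.2) (F₁ y) = _ :=
        pd_of_has hyH h2.hasFDerivWithinAt j
      rw [h4, ContinuousLinearMap.comp_apply, k2, ← f2]
      simp only [hi, hi2, Ring.inverse_one, mul_one, one_mul, sub_self]
  · intro x hx hx0 a
    exact ⟨djt_val (hj.c 1 a) (hρR hx) hx0, fun j => djt_val (djt_pd (cClosed_relOpen_HB z R)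
      (m₁.sol a).1 (m₂.sol a).1 (hj.c 2 a) j) (hρR hx) hx0⟩

/-- rigidity from the boundary -/
theorem rigBd (hQ : QAn 𝒬) {z : EYM.E n} {R : ℝ} (hR : 0 < R) (hz : z 0 = 0)
    (m₁ : IsMod j0 W₁ (HB z R)) (m₂ : IsMod j0 W₂ (HB z R)) (q₁ : QEq 𝒬 W₁.toLD (HB z R))
    (q₂ : QEq 𝒬 W₂.toLD (HB z R)) (hj : JetAll W₁ W₂ (HB z R)) : EqOnM W₁ W₂ (HB z R) := by
  have hbd : ∀ x ∈ HB z R, x 0 = 0 → ∃ r > 0, ball x r ⊆ ball z R ∧ EqOnM W₁ W₂ (HB x r) := by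
    intro x hx hx0
    have hρ : 0 < R - dist x z := by have := hx.1; rw [mem_ball] at this; linarith
    have hsub : ball x (R - dist x z) ⊆ ball z R := ball_subset_ball' (by linarith)
    have hsub' : HB x (R - dist x z) ⊆ HB z R := inter_subset_inter_left _ hsub
    obtain ⟨r, hr, hrR, he⟩ := bd_step hQ hρ hx0 (IsMod.mono m₁ hsub') (IsMod.mono m₂ hsub')
      (q₁.mono hsub') (q₂.mono hsub')
      ⟨fun k i j => Van.mono_set (hj.g k i j) hsub', fun k i => Van.mono_set (hj.B k i) hsub',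
        fun k => Van.mono_set (hj.h k) hsub', fun k a => Van.mono_set (hj.c k a) hsub'⟩
    exact ⟨r, hr, (ball_subset_ball hrR).trans hsub, he⟩
  have hpos : IsOpen {x : EYM.E n | 0 < x 0} :=
    isOpen_lt continuous_const (EuclideanSpace.proj (𝕜 := ℝ) (0 : Fin n)).continuous
  have hzB : z ∈ HB z R := ⟨mem_ball_self hR, by show 0 ≤ z 0; rw [hz]⟩
  obtain ⟨r, hr, hrR, he⟩ := hbd z hzB hz
  set D : Set (EYM.E n) := ball z R ∩ {x | 0 < x 0} with hD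
  have hDB : D ⊆ HB z R := fun x hx => ⟨hx.1, le_of_lt (show (0 : ℝ) < x 0 from hx.2)⟩
  have hconv : Convex ℝ D := (convex_ball z R).inter
    ((convex_Ioi (0 : ℝ)).is_linear_preimage (EuclideanSpace.proj (𝕜 := ℝ) (0 : Fin n)).isLinear)
  have hint := rigInt (j0 := j0) (D := D) (U := ball z r ∩ {x | 0 < x 0}) hQ
    (isOpen_ball.inter hpos) inter_subset_right hconv.isPreconnected (IsMod.mono m₁ hDB)
    (IsMod.mono m₂ hDB) (q₁.mono hDB) (q₂.mono hDB) (isOpen_ball.inter hpos)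
    (inter_subset_inter_left _ hrR)
    (by
      refine ⟨z + (r / 2) • (ev 0 : EYM.E n), ?_, ?_⟩
      · rw [mem_ball, dist_eq_norm, add_sub_cancel_left, norm_smul]
        simp only [ev, EuclideanSpace.norm_single, norm_one, mul_one, Real.norm_eq_abs]
        rw [abs_of_pos (half_pos hr)]
        exact half_lt_self hr
      · show 0 < (z + (r / 2) • (ev 0 : EYM.E n)) 0
        simp [ev, hz, hr])
    (by
      have hs : ball z r ∩ {x : EYM.E n | 0 < x 0} ⊆ HB z r :=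
        fun x hx => ⟨hx.1, le_of_lt (show (0 : ℝ) < x 0 from hx.2)⟩
      exact ⟨fun x hx => he.g x (hs hx), fun x hx => he.B x (hs hx), fun x hx => he.h x (hs hx),
        fun x hx => he.c x (hs hx)⟩)
  have hall : ∀ x ∈ HB z R, ∃ s : Set (EYM.E n), x ∈ s ∧ EqOnM W₁ W₂ s := by
    intro x hx
    rcases (show 0 ≤ x 0 from hx.2).lt_or_eq with h | h
    · exact ⟨D, ⟨hx.1, h⟩, hint⟩
    · obtain ⟨r, hr, -, h2⟩ := hbd x hx h.symm
      exact ⟨HB x r, ⟨mem_ball_self hr, hx.2⟩, h2⟩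
  refine ⟨fun x hx => ?_, fun x hx => ?_, fun x hx => ?_, fun x hx => ?_⟩ <;>
  obtain ⟨s, hs, h2⟩ := hall x hx
  · exact h2.g x hs
  · exact h2.B x hs
  · exact h2.h x hs
  · exact h2.c x hs

end Vale.Agent.P088.R2.H455
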