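import Vale.Agent.P088.R2.H455.Pull
import Vale.Agent.P088.R2.H455.RigB

/-!
# P088, quasi-analytic class: invariance under changes of coordinates and frames, the class
-/

open Set Filter Topology Metric
open scoped ContDiff

set_option linter.all false
set_option maxSynthPendingDepth 3

noncomputable section

namespace Vale.Agent.P088.R2.H455

open Vale.Agent.P088.EYM Vale.Agent.P088.EYM.H

variable {n N : ℕ} [NeZero n] {L L' : LD n N} {D D' : Set (EYM.E n)}
  {X Y : EYM.E n → EYM.E n} {S : EYM.E n → EndF N} {𝒬 : ℝ → (ℝ → ℂ) → Prop}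

/-- the second differential of `X` -/
def D2X (X : EYM.E n → EYM.E n) (x u v : EYM.E n) : EYM.E n :=
  WithLp.toLp 2 fun p => ∑ i, ∑ j, EYM.pd i (fun y => Jac X y p j) x * u i * v j

theorem hasDeriv_DX (hD : RelOpen D) (hX : ContDiffOn ℝ ∞ X D) {ℓ : ℝ} {γ v : ℝ → EYM.E n}
    {w' v' : EYM.E n} {s : ℝ} (hs : s ∈ Icc 0 ℓ) (hm : ∀ t ∈ Icc 0 ℓ, γ t ∈ D)
    (hγ : HasDerivWithinAt γ w' (Icc 0 ℓ) s) (hv : HasDerivWithinAt v v' (Icc 0 ℓ) s) :
    HasDerivWithinAt (fun s => DX X (γ s) (v s)) (D2X X (γ s) w' (v s) + DX X (γ s) v')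
      (Icc 0 ℓ) s := by
  have hsm := hD.fderiv_smooth hX
  have hK := hD.hasD (hm s hs) hsm (by simp)
  have h1 : HasDerivWithinAt (fun s => fderivWithin ℝ X (Hs n) (γ s))
      (fderivWithin ℝ (fun y => fderivWithin ℝ X (Hs n) y) (Hs n) (γ s) w') (Icc 0 ℓ) s :=
    HasFDerivWithinAt.comp_hasDerivWithinAt (l := fun y => fderivWithin ℝ X (Hs n) y) (t := Hs n)
      (f := γ) s hK hγ (fun t ht => hD.subset (hm t ht))
  have h2 := h1.clm_apply hv
  refine h2.congr_deriv ?_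
  congr 1
  ext p
  show _ = ∑ i, ∑ j, EYM.pd i (fun y => Jac X y p j) (γ s) * w' i * (v s) j
  rw [fderivWithin_eq_sum, sum_apply]
  have e1 : (∑ i, (w' i • EYM.pd i (fun y => fderivWithin ℝ X (Hs n) y) (γ s)) (v s)) p =
      ∑ i, w' i * (EYM.pd i (fun y => fderivWithin ℝ X (Hs n) y) (γ s) (v s)) p := by
    have := map_sum (pj p)
      (fun i => (w' i • EYM.pd i (fun y => fderivWithin ℝ X (Hs n) y) (γ s)) (v s)) Finset.univ
    exact this
  rw [e1]
  refine Finset.sum_congr rfl fun i _ => ?_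
  have e2 : (EYM.pd i (fun y => fderivWithin ℝ X (Hs n) y) (γ s) (v s)) p =
      ∑ j, (v s) j * (EYM.pd i (fun y => fderivWithin ℝ X (Hs n) y) (γ s) (ev j)) p := by
    conv_lhs => rw [sum_ev (v s), map_sum]
    have := map_sum (pj p)
      (fun j => EYM.pd i (fun y => fderivWithin ℝ X (Hs n) y) (γ s) ((v s) j • ev j)) Finset.univ
    refine this.trans (Finset.sum_congr rfl fun j _ => ?_)
    rw [map_smul]
    rfl
  rw [e2, Finset.mul_sum]
  refine Finset.sum_congr rfl fun j _ => ?_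
  have e3 : (EYM.pd i (fun y => fderivWithin ℝ X (Hs n) y) (γ s) (ev j)) p =
      EYM.pd i (fun y => Jac X y p j) (γ s) := by
    have h3 : EYM.pd i (fun y => ContinuousLinearMap.apply ℝ (EYM.E n) (ev j)
        (fderivWithin ℝ X (Hs n) y)) (γ s) = ContinuousLinearMap.apply ℝ (EYM.E n) (ev j)
          (EYM.pd i (fun y => fderivWithin ℝ X (Hs n) y) (γ s)) :=
      hD.pd_clm (ContinuousLinearMap.apply ℝ (EYM.E n) (ev j)) hsm (hm s hs) i
    have h4 : (EYM.pd i (fun y => fderivWithin ℝ X (Hs n) y) (γ s) (ev j)) =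
        EYM.pd i (EYM.pd j X) (γ s) := h3.symm
    rw [h4]
    have h5 : EYM.pd i (fun y => pj p (EYM.pd j X y)) (γ s) = pj p (EYM.pd i (EYM.pd j X) (γ s)) :=
      hD.pd_clm (pj p) (hD.pd_smooth hX j) (hm s hs) i
    have h6 : (EYM.pd i (EYM.pd j X) (γ s)) p = EYM.pd i (fun y => pj p (EYM.pd j X y)) (γ s) :=
      h5.symm
    rw [h6]
    refine hD.pd_congr (fun y hy => ?_) (hm s hs) i
    show pj p (EYM.pd j X y) = Jac X y p j
    exact (hD.pd_clm (pj p) hX hy j).symm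
  rw [e3]
  ring

theorem DX_chv (hD : RelOpen D) (hD' : RelOpen D') (ok : L.Ok D) (ok' : L'.Ok D')
    (h : IsPull L L' D D' X Y S) {x : EYM.E n} (hx : x ∈ D) (u v : EYM.E n) :
    D2X X x u v + DX X x (-chv L.g x u v) = -chv L'.g (X x) (DX X x u) (DX X x v) := by
  have h1 : DX X x (chv L.g x u v) = D2X X x u v + chv L'.g (X x) (DX X x u) (DX X x v) := by
    ext p
    exact chv_pull hD hD' ok ok' h hx u v p
  have h2 : DX X x (-chv L.g x u v) = -DX X x (chv L.g x u v) := by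
    unfold DX; rw [map_neg]
  rw [h2, h1]
  abel

theorem Par.pull {ℓ : ℝ} {γ w : ℝ → EYM.E n} {e : Fin n → ℝ → EYM.E n} {σ : ℝ → EndF N}
    (k : Par L D ℓ γ w e σ) (hD : RelOpen D) (hD' : RelOpen D') (ok : L.Ok D) (ok' : L'.Ok D')
    (h : IsPull L L' D D' X Y S) :
    Par L' D' ℓ (fun s => X (γ s)) (fun s => DX X (γ s) (w s)) (fun a s => DX X (γ s) (e a s))
      (fun s => Ring.inverse (S (γ s)) * σ s) := by
  have hX := h.diffeo.smX
  have hSi : ContDiffOn ℝ ∞ (fun x => Ring.inverse (S x)) D := smooth_ringInverse h.smS h.unit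
  refine ⟨fun s hs => h.diffeo.mapsX (k.mem s hs), fun s hs => ?_, fun s hs => ?_,
    fun s hs a => ?_, fun s hs => ?_, fun s hs a b => ?_, fun s hs => ?_⟩
  · exact HasFDerivWithinAt.comp_hasDerivWithinAt (l := X) (t := Hs n) (f := γ) s
      (hD.hasD (k.mem s hs) hX (by simp)) (k.dγ s hs) (fun t ht => hD.subset (k.mem t ht))
  · refine (hasDeriv_DX hD hX hs k.mem (k.dγ s hs) (k.dw s hs)).congr_deriv ?_
    exact DX_chv hD hD' ok ok' h (k.mem s hs) _ _
  · refine (hasDeriv_DX hD hX hs k.mem (k.dγ s hs) (k.de s hs a)).congr_deriv ?_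
    exact DX_chv hD hD' ok ok' h (k.mem s hs) _ _
  · -- the frame of the bundle
    have hx := k.mem s hs
    have hS' : HasDerivWithinAt (fun s => S (γ s)) (fderivWithin ℝ S (Hs n) (γ s) (w s))
        (Icc 0 ℓ) s :=
      HasFDerivWithinAt.comp_hasDerivWithinAt (l := S) (t := Hs n) (f := γ) s
        (hD.hasD hx h.smS (by simp)) (k.dγ s hs) (fun t ht => hD.subset (k.mem t ht))
    have e1 : fderivWithin ℝ S (Hs n) (γ s) (w s) = S (γ s) * Bv L'.B (X (γ s)) (DX X (γ s) (w s))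
        - Bv L.B (γ s) (w s) * S (γ s) := by
      rw [fderivWithin_eq_sum]
      have h2 : ∀ j, EYM.pd j S (γ s) = S (γ s) * (∑ m, Jac X (γ s) m j • L'.B m (X (γ s))) -
          L.B j (γ s) * S (γ s) := fun j => eq_sub_of_add_eq (h.B_eq _ hx j)
      simp only [h2, smul_sub, Finset.sum_sub_distrib]
      congr 1
      · unfold Bv
        rw [Finset.mul_sum]
        simp only [DX_comp hD hX hx, Finset.sum_smul, Finset.mul_sum, Finset.smul_sum,
          mul_smul_comm, smul_smul]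
        rw [Finset.sum_comm]
        refine Finset.sum_congr rfl fun i _ => Finset.sum_congr rfl fun j _ => ?_
        rw [mul_comm]
      · unfold Bv
        rw [Finset.sum_mul]
        exact Finset.sum_congr rfl fun i _ => (smul_mul_assoc _ _ _).symm
    obtain ⟨u, hu⟩ := h.unit _ hx
    have h3 : HasFDerivAt Ring.inverse
        (-ContinuousLinearMap.mulLeftRight ℝ (EndF N) ↑u⁻¹ ↑u⁻¹) (S (γ s)) := by
      rw [← hu]; exact hasFDerivAt_ringInverse u
    have h4 : HasDerivWithinAt (fun s => Ring.inverse (S (γ s)))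
        ((-ContinuousLinearMap.mulLeftRight ℝ (EndF N) ↑u⁻¹ ↑u⁻¹)
          (fderivWithin ℝ S (Hs n) (γ s) (w s))) (Icc 0 ℓ) s :=
      HasFDerivAt.comp_hasDerivWithinAt (l := Ring.inverse) (f := fun s => S (γ s)) s h3 hS'
    refine (h4.mul (k.dσ s hs)).congr_deriv ?_
    rw [e1]
    simp only [neg_apply, ContinuousLinearMap.mulLeftRight_apply]
    rw [← hu, Ring.inverse_unit]
    have h5 : (↑u⁻¹ : EndF N) * ↑u = 1 := u.inv_mul
    have h6 : (↑u : EndF N) * ↑u⁻¹ = 1 := u.mul_inv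
    set B' := Bv L'.B (X (γ s)) (DX X (γ s) (w s)) with hB'
    set B := Bv L.B (γ s) (w s) with hB
    calc -(↑u⁻¹ * (↑u * B' - B * ↑u) * ↑u⁻¹) * σ s + ↑u⁻¹ * -(B * σ s)
        = -((↑u⁻¹ * ↑u) * B' * (↑u⁻¹ * σ s)) + ↑u⁻¹ * B * (↑u * ↑u⁻¹) * σ s -
          ↑u⁻¹ * B * σ s := by noncomm_ring
      _ = -(B' * (↑u⁻¹ * σ s)) := by rw [h5, h6]; noncomm_ring
  · rw [gv_pull hD h (k.mem s hs)]
    exact k.on s hs a b
  · have hx := k.mem s hs
    have h1 := k.un s hs
    have h2 : S (γ s) * Ring.inverse (S (γ s)) = 1 := Ring.mul_inverse_cancel _ (h.unit _ hx)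
    have h3 : ContinuousLinearMap.adjoint (Ring.inverse (S (γ s))) *
        ContinuousLinearMap.adjoint (S (γ s)) = 1 := by
      rw [← adj_mulE, h2]; exact star_one (EndF N)
    rw [adj_mulE, ← h.h_eq _ hx]
    calc ContinuousLinearMap.adjoint (σ s) * ContinuousLinearMap.adjoint (Ring.inverse (S (γ s))) *
          (ContinuousLinearMap.adjoint (S (γ s)) * L.h (γ s) * S (γ s)) *
          (Ring.inverse (S (γ s)) * σ s)
        = ContinuousLinearMap.adjoint (σ s) * (ContinuousLinearMap.adjoint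
          (Ring.inverse (S (γ s))) * ContinuousLinearMap.adjoint (S (γ s))) * L.h (γ s) *
          (S (γ s) * Ring.inverse (S (γ s))) * σ s := by noncomm_ring
      _ = ContinuousLinearMap.adjoint (σ s) * L.h (γ s) * σ s := by
          rw [h3, h2, mul_one, mul_one]
      _ = 1 := h1

/-- invariance of the class -/
theorem QEq.pull (hD : RelOpen D) (hD' : RelOpen D') (ok : L.Ok D) (ok' : L'.Ok D')
    (h : IsPull L L' D D' X Y S) (hq : QEq 𝒬 L' D') : QEq 𝒬 L D := by
  constructor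
  · intro ℓ γ w e σ hℓ k a b c d
    obtain ⟨q, h1, h2⟩ := hq.rm ℓ _ _ _ _ hℓ (k.pull hD hD' ok ok' h) a b c d
    refine ⟨q, h1, fun s hs => ?_⟩
    rw [h2 hs]
    show ((rmv L'.g (X (γ s)) (DX X (γ s) (e a s)) (DX X (γ s) (e b s)) (DX X (γ s) (e c s))
      (DX X (γ s) (e d s)) : ℝ) : ℂ) = _
    rw [rmv_pull hD hD' ok ok' h (k.mem s hs)]
  · intro ℓ γ w e σ hℓ k a b p q
    obtain ⟨f, h1, h2⟩ := hq.cur ℓ _ _ _ _ hℓ (k.pull hD hD' ok ok' h) a b p q
    refine ⟨f, h1, fun s hs => ?_⟩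
    rw [h2 hs]
    have hx := k.mem s hs
    have h2 : S (γ s) * Ring.inverse (S (γ s)) = 1 := Ring.mul_inverse_cancel _ (h.unit _ hx)
    have h3 : ContinuousLinearMap.adjoint (Ring.inverse (S (γ s))) *
        ContinuousLinearMap.adjoint (S (γ s)) = 1 := by
      rw [← adj_mulE, h2]; exact star_one (EndF N)
    show (ContinuousLinearMap.adjoint (Ring.inverse (S (γ s)) * σ s) * L'.h (X (γ s)) *
      curv2 L'.B (X (γ s)) (DX X (γ s) (e a s)) (DX X (γ s) (e b s)) *
      (Ring.inverse (S (γ s)) * σ s)) (EuclideanSpace.single q (1 : ℂ)) p = _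
    beta_reduce
    rw [curv2_pull hD hD' ok' h hx, adj_mulE, ← h.h_eq _ hx]
    set C := curv2 L'.B (X (γ s)) (DX X (γ s) (e a s)) (DX X (γ s) (e b s)) with hC
    have h4 : ContinuousLinearMap.adjoint (σ s) * ContinuousLinearMap.adjoint
          (Ring.inverse (S (γ s))) *
          (ContinuousLinearMap.adjoint (S (γ s)) * L.h (γ s) * S (γ s)) * C *
          (Ring.inverse (S (γ s)) * σ s) =
        ContinuousLinearMap.adjoint (σ s) * L.h (γ s) * (S (γ s) * C * Ring.inverse (S (γ s))) *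
          σ s := by
      calc ContinuousLinearMap.adjoint (σ s) * ContinuousLinearMap.adjoint
            (Ring.inverse (S (γ s))) *
            (ContinuousLinearMap.adjoint (S (γ s)) * L.h (γ s) * S (γ s)) * C *
            (Ring.inverse (S (γ s)) * σ s)
          = ContinuousLinearMap.adjoint (σ s) * (ContinuousLinearMap.adjoint
            (Ring.inverse (S (γ s))) * ContinuousLinearMap.adjoint (S (γ s))) * L.h (γ s) *
            S (γ s) * C * Ring.inverse (S (γ s)) * σ s := by noncomm_ring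
        _ = _ := by rw [h3]; noncomm_ring
    rw [h4]

/-- The quasi-analytic class. -/
def qCls (n N : ℕ) [NeZero n] (𝒬 : ℝ → (ℝ → ℂ) → Prop) (hQ : QAn 𝒬) : Cls n N where
  eq L D := QEq 𝒬 L D
  mono h hD := h.mono hD
  push {L L' D D' X Y S} hD hD' ok ok' h hq :=
    QEq.pull hD' hD ok' ok (bSymm n N L L' D D' X Y S hD hD' h) hq
  rigInt j0 W₁ W₂ D _ ho hp hc m₁ m₂ q₁ q₂ U hU hUD hUn he :=
    rigInt hQ ho hp hc m₁ m₂ q₁ q₂ hU hUD hUn he
  rigBd j0 W₁ W₂ z r _ hr hz m₁ m₂ q₁ q₂ hj := rigBd hQ hr hz m₁ m₂ q₁ q₂ hj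

end Vale.Agent.P088.R2.H455
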