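import Vale.Agent.P088.R2.H455.Loc

/-!
# P088, quasi-analytic class: interior rigidity
-/

open Set Filter Topology Metric
open scoped ContDiff RealInnerProductSpace

set_option linter.all false
set_option maxSynthPendingDepth 3

noncomputable section

namespace Vale.Agent.P088.R2.H455

open Vale.Agent.P219.RG Vale.Agent.P088.EYM Vale.Agent.P088.EYM.H

section Geo

variable {E : Type} [NormedAddCommGroup E] [InnerProductSpace ℝ E]

theorem proj_le {ν : E} (hν : ‖ν‖ = 1) (y : E) : ‖y - innerSL ℝ ν y • ν‖ ≤ ‖y‖ := by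
  have h1 : ‖y - innerSL ℝ ν y • ν‖ ^ 2 = ‖y‖ ^ 2 - (innerSL ℝ ν y) ^ 2 := by
    rw [norm_sub_sq_real, norm_smul, hν, inner_smul_right, real_inner_comm]
    simp only [innerSL_apply_apply, Real.norm_eq_abs, mul_one, sq_abs]
    ring
  have h2 : ‖y - innerSL ℝ ν y • ν‖ ^ 2 ≤ ‖y‖ ^ 2 := by
    rw [h1]; nlinarith [sq_nonneg (innerSL ℝ ν y)]
  exact (sq_le_sq₀ (norm_nonneg _) (norm_nonneg _)).1 h2

/-- the touching hypersurface -/
def sg (p ν : E) (d : ℝ) (y : E) : E := p + y - (‖y‖ ^ 2 / d) • ν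

theorem sg_smooth (p ν : E) (d : ℝ) : ContDiff ℝ ∞ (sg p ν d) := by
  unfold sg
  exact (contDiff_const.add contDiff_id).sub (((contDiff_norm_sq ℝ).div_const d).smul contDiff_const)

theorem sg_fderiv (p ν : E) (d : ℝ) (v : E) : fderiv ℝ (sg p ν d) 0 v = v := by
  have h1 : HasFDerivAt (fun y : E => ‖y‖ ^ 2) (2 • innerSL ℝ (0 : E)) 0 :=
    (hasStrictFDerivAt_norm_sq (0 : E)).hasFDerivAt
  have h2 : HasFDerivAt (sg p ν d) (ContinuousLinearMap.id ℝ E -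
      (d⁻¹ • (2 • innerSL ℝ (0 : E))).smulRight ν) 0 := by
    have h3 : HasFDerivAt (fun y : E => ‖y‖ ^ 2 / d) (d⁻¹ • (2 • innerSL ℝ (0 : E))) 0 := by
      have := h1.const_smul d⁻¹
      refine this.congr_of_eventuallyEq (Eventually.of_forall fun y => ?_)
      show ‖y‖ ^ 2 / d = d⁻¹ • ‖y‖ ^ 2
      rw [smul_eq_mul, div_eq_inv_mul]
    exact ((hasFDerivAt_id (0 : E)).const_add p).sub (h3.smul_const ν)
  rw [h2.fderiv]
  simp

theorem sg_norm {p q ν : E} {d : ℝ} (hd : 0 < d) (hν : ‖ν‖ = 1) (hpq : p - q = d • ν) {y : E}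
    (hy : innerSL ℝ ν y = 0) (hyd : ‖y‖ ≤ d) : ‖sg p ν d y - q‖ ^ 2 - d ^ 2 ≤ 0 := by
  have h1 : sg p ν d y - q = y + (d - ‖y‖ ^ 2 / d) • ν := by
    unfold sg
    rw [sub_smul, ← hpq]
    abel
  rw [h1, norm_add_sq_real, inner_smul_right, norm_smul, hν, real_inner_comm]
  have h2 : inner ℝ ν y = 0 := hy
  rw [h2, mul_one, Real.norm_eq_abs, sq_abs]
  have h3 : (d - ‖y‖ ^ 2 / d) ^ 2 = d ^ 2 - 2 * ‖y‖ ^ 2 + (‖y‖ ^ 2) ^ 2 / d ^ 2 := by
    field_simp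
    ring
  have h4 : (‖y‖ ^ 2) ^ 2 / d ^ 2 ≤ ‖y‖ ^ 2 := by
    rw [div_le_iff₀ (by positivity)]
    have : ‖y‖ ^ 2 ≤ d ^ 2 := pow_le_pow_left₀ (norm_nonneg _) hyd 2
    nlinarith [sq_nonneg ‖y‖]
  rw [h3]
  nlinarith

end Geo

variable {n N : ℕ} [NeZero n] {j0 : Fin N} {W₁ W₂ : Model n N} {D : Set (EYM.E n)}
  {𝒬 : ℝ → (ℝ → ℂ) → Prop}

theorem toG_congr {g₁ g₂ : EYM.E n → Matrix (Fin n) (Fin n) ℝ} {x : EYM.E n} (h : g₁ x = g₂ x) :
    toG g₁ x = toG g₂ x := by unfold toG; rw [h]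

theorem toB_congr {B₁ B₂ : Fin n → EYM.E n → EndF N} {x : EYM.E n} (h : ∀ i, B₁ i x = B₂ i x) :
    toB B₁ x = toB B₂ x := by unfold toB; simp only [h]

theorem ext_self {L : LD n N} (hD : RelOpen D) (ho : IsOpen D) (ok : L.Ok D) :
    Ext L D D L.g L.B where
  op := ho
  rel := hD
  sub := subset_rfl
  smg := ok.g_smooth
  pos := ok.g_pos
  smB := ok.B_smooth
  geq _ _ := rfl
  Beq _ _ _ := rfl

/-- one step of the interior rigidity -/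
theorem int_step (hQ : QAn 𝒬) (ho : IsOpen D) (hp0 : D ⊆ {x | 0 < x 0}) (m₁ : IsMod j0 W₁ D)
    (m₂ : IsMod j0 W₂ D) (q₁ : QEq 𝒬 W₁.toLD D) (q₂ : QEq 𝒬 W₂.toLD D) {p q : EYM.E n} {d : ℝ}
    (hd : 0 < d) (hpD : p ∈ D) (hpq : ‖p - q‖ = d) (he : ∀ x ∈ ball q d, x ∈ D → W₁.g x = W₂.g x ∧
      (∀ j, W₁.B j x = W₂.B j x) ∧ W₁.h x = W₂.h x ∧ ∀ a, W₁.c a x = W₂.c a x) :
    ∃ ε > 0, ball p ε ⊆ D ∧ EqOnM W₁ W₂ (ball p ε) := by
  have hHs : D ⊆ Hs n := fun x hx => le_of_lt (show (0 : ℝ) < x 0 from hp0 hx)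
  have hR : RelOpen D := ⟨D, ho, (inter_eq_left.2 hHs).symm⟩
  set ν : EYM.E n := d⁻¹ • (p - q) with hν
  have hν1 : ‖ν‖ = 1 := by
    rw [hν, norm_smul, hpq, norm_inv, Real.norm_eq_abs, abs_of_pos hd, inv_mul_cancel₀ hd.ne']
  have hdν : p - q = d • ν := by rw [hν, smul_smul, mul_inv_cancel₀ hd.ne', one_smul]
  set l : EYM.E n →L[ℝ] ℝ := innerSL ℝ ν with hl
  have hlν : l ν = 1 := by
    rw [hl, innerSL_apply_apply, real_inner_self_eq_norm_sq, hν1, one_pow]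
  have hπ : ∀ y : EYM.E n, ‖y - l y • ν‖ ≤ ‖y‖ := proj_le hν1
  set σ := sg p ν d with hσ
  have hσ0 : σ 0 = p := by rw [hσ]; unfold sg; simp
  set r : EYM.E n → ℝ := fun x => ‖x - q‖ ^ 2 - d ^ 2 with hr
  have hrc : ContDiff ℝ 1 r := ((contDiff_norm_sq ℝ).comp (contDiff_id.sub contDiff_const)).sub
    contDiff_const
  have hrν : 0 < fderiv ℝ r (σ 0) ν := by
    have h1 : HasFDerivAt r (2 • innerSL ℝ (σ 0 - q)) (σ 0) := by
      have h2 : HasFDerivAt (fun x : EYM.E n => ‖x‖ ^ 2) (2 • innerSL ℝ (σ 0 - q)) (σ 0 - q) :=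
        (hasStrictFDerivAt_norm_sq (σ 0 - q)).hasFDerivAt
      have h3 : HasFDerivAt (fun x : EYM.E n => x - q) (ContinuousLinearMap.id ℝ _) (σ 0) :=
        (hasFDerivAt_id _).sub_const q
      have h4 := (h2.comp (σ 0) h3).sub_const (d ^ 2)
      exact h4
    rw [h1.fderiv, hσ0, hdν]
    simp only [smul_apply, map_smul, innerSL_apply_apply, real_inner_self_eq_norm_sq, hν1]
    simp
    exact hd
  have hrσ : ∀ᶠ y in 𝓝 (0 : EYM.E n), l y = 0 → r (σ y) ≤ 0 := by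
    filter_upwards [ball_mem_nhds (0 : EYM.E n) hd] with y hy hly
    exact sg_norm hd hν1 hdν hly (mem_ball_zero_iff.1 hy).le
  have hrm : ∀ x : EYM.E n, r x < 0 → x ∈ ball q d := by
    intro x hx
    rw [mem_ball, dist_eq_norm]
    have : ‖x - q‖ ^ 2 < d ^ 2 := by linarith [show ‖x - q‖ ^ 2 - d ^ 2 < 0 from hx]
    exact (sq_lt_sq₀ (norm_nonneg _) hd.le).1 this
  have e₁ := ext_self hR ho m₁.ok
  have e₂ := ext_self hR ho m₂.ok
  obtain ⟨δ, S₁, S₂, s₁, s₂, -, -, hneg, hrn, hz⟩ := exists_pair e₁.metric e₂.metric e₁.smB' e₂.smB'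
    hlν hπ (sg_smooth p ν d) (by rw [← hσ, hσ0]; exact hpD) hrc hrν hrσ
    (fun x hx hrx => ⟨toG_congr (he x (hrm x hrx) hx).1, toB_congr (he x (hrm x hrx) hx).2.1⟩)
  have hro : IsOpen {x : EYM.E n | r x < 0} := isOpen_lt hrc.continuous continuous_const
  have T : Two 𝒬 W₁.toLD W₂.toLD D D W₁.g W₂.g W₁.B W₂.B l ν σ δ S₁ S₂ := by
    refine ⟨hQ, e₁, e₂, m₁.ok, m₂.ok, q₁, q₂, s₁, s₂, hlν, hπ, fun y hy _ => s₁.mem y hy,
      fun y hy _ => s₂.mem y hy, hneg, fun y hy hly => ?_, fun y hy h0 => (hz y hy h0).1,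
      fun y hy h0 => (hz y hy h0).2.1, fun y hy h0 => (hz y hy h0).2.2, fun y hy h0 => ?_,
      fun y hy hly _ => (he _ (hrm _ (hrn y hy hly)) (s₁.mem y hy)).2.2.1⟩
    · have hev : ∀ᶠ x in 𝓝 (S₁ y).1, x ∈ D ∧ r x < 0 :=
        inter_mem (ho.mem_nhds (s₁.mem y hy)) (hro.mem_nhds (hrn y hy hly))
      constructor
      · filter_upwards [hev] with x hx using toG_congr (he x (hrm x hx.2) hx.1).1
      · filter_upwards [hev] with x hx using toB_congr (he x (hrm x hx.2) hx.1).2.1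
    · have h1 : W₁.h (S₁ y).1 = W₂.h (S₁ y).1 := by
        refine s₁.eq_zero_time hy ?_ ?_ ?_
        · exact (m₁.ok.h_smooth.contDiffAt (ho.mem_nhds (s₁.mem y hy))).continuousAt
        · exact (m₂.ok.h_smooth.contDiffAt (ho.mem_nhds (s₁.mem y hy))).continuousAt
        · have h1 : ∀ᶠ t : ℝ in 𝓝 0, y + t • ν ∈ ball (0 : EYM.E n) δ := by
            have hc : ContinuousAt (fun t : ℝ => y + t • ν) 0 := by fun_prop
            exact hc (isOpen_ball.mem_nhds (by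
              show y + (0 : ℝ) • ν ∈ ball (0 : EYM.E n) δ
              rwa [zero_smul, add_zero]))
          filter_upwards [mem_nhdsWithin_of_mem_nhds h1, self_mem_nhdsWithin] with t h2 h3
          have h4 : l (y + t • ν) < 0 := by
            rw [map_add, map_smul, hlν, smul_eq_mul, mul_one, h0, zero_add]; exact h3
          exact (he _ (hrm _ (hrn _ h2 h4)) (s₁.mem _ h2)).2.2.1
      rwa [s₁.ini y hy h0] at h1
  have hdσ : DifferentiableAt ℝ σ 0 := ((sg_smooth p ν d).differentiable (by simp)) 0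
  obtain ⟨δ₁, a1, a2, I₁, a3⟩ := loc_diffeo s₁.pos s₁.cd1
    (s₁.d0 hlν hdσ (fun v _ => sg_fderiv p ν d v))
  obtain ⟨δ₂, b1, b2, I₂, b3⟩ := loc_diffeo s₂.pos s₂.cd1
    (s₂.d0 hlν hdσ (fun v _ => sg_fderiv p ν d v))
  set δ' := min δ₁ δ₂ with hδ'
  have hδ0 : 0 < δ' := lt_min a1 b1
  obtain ⟨c1, c2, c3, c4⟩ := a3 δ' hδ0 (min_le_left _ _)
  obtain ⟨c1', c2', c3', c4'⟩ := b3 δ' hδ0 (min_le_right _ _)
  have hδδ : δ' ≤ δ := (min_le_left _ _).trans a2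
  have hsub : ball (0 : EYM.E n) δ' ⊆ ball 0 δ := ball_subset_ball hδδ
  have P := T.isPull (fun x hx _ => hx)
    (fun y hy => ⟨fun _ => hHs (s₂.mem y hy), fun _ => hHs (s₁.mem y hy)⟩) hδδ ⟨c1, c2, c3, c4⟩
    ⟨c1', c2', c3', c4'⟩
  set F₁ : EYM.E n → EYM.E n := fun z => (S₁ z).1 with hF₁
  set F₂ : EYM.E n → EYM.E n := fun z => (S₂ z).1 with hF₂
  have hF₁D : F₁ '' ball 0 δ' ⊆ D := by
    rintro _ ⟨y, hy, rfl⟩
    exact s₁.mem y (hsub hy)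
  have hF₂D : F₂ '' ball 0 δ' ⊆ D := by
    rintro _ ⟨y, hy, rfl⟩
    exact s₂.mem y (hsub hy)
  have hI1 : F₁ '' ball 0 δ' ∩ Hs n = F₁ '' ball 0 δ' := inter_eq_left.2 (hF₁D.trans hHs)
  have hI2 : F₂ '' ball 0 δ' ∩ Hs n = F₂ '' ball 0 δ' := inter_eq_left.2 (hF₂D.trans hHs)
  have hcont : ContinuousOn F₁ (ball 0 δ') := (s₁.cd1.continuousOn).mono hsub
  have hpre : IsPreconnected (F₁ '' ball 0 δ') :=
    ((convex_ball (0 : EYM.E n) δ').isPreconnected).image _ hcont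
  have hlo : IsOpen {y : EYM.E n | l y < 0} := isOpen_lt l.continuous continuous_const
  have hfin : EqOnM W₁ W₂ (F₁ '' ball 0 δ' ∩ Hs n) := by
    refine li_int (j0 := j0) (V := F₁ '' (ball 0 δ' ∩ {y | l y < 0})) ⟨_, c1, rfl⟩ ⟨_, c1', rfl⟩
      (by rw [hI1]; exact c1) (by rw [hI1]; exact hpre) (IsMod.mono m₁ (by rw [hI1]; exact hF₁D))
      (IsMod.mono m₂ (by rw [hI2]; exact hF₂D)) P
      (c4 _ (isOpen_ball.inter hlo) inter_subset_left) ?_ ?_ ?_ ?_ ?_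
    · rw [hI1]; exact image_mono inter_subset_left
    · refine ⟨F₁ (-(δ' / 2) • ν), -(δ' / 2) • ν, ⟨?_, ?_⟩, rfl⟩
      · rw [mem_ball_zero_iff, norm_smul, hν1, mul_one, norm_neg, Real.norm_eq_abs,
          abs_of_pos (half_pos hδ0)]
        exact half_lt_self hδ0
      · show l (-(δ' / 2) • ν) < 0
        rw [map_smul, hlν, smul_eq_mul, mul_one]
        linarith
    · rintro _ ⟨y, ⟨hy, hly⟩, rfl⟩
      show (S₂ (I₁ (F₁ y))).1 = F₁ y
      rw [c2 y hy, ← hneg y (hsub hy) (le_of_lt hly)]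
    · rintro _ ⟨y, ⟨hy, hly⟩, rfl⟩
      show (S₁ (I₁ (F₁ y))).2.2.2 * Ring.inverse (S₂ (I₁ (F₁ y))).2.2.2 = 1
      rw [c2 y hy, ← hneg y (hsub hy) (le_of_lt hly)]
      exact Ring.mul_inverse_cancel _ (s₁.unP y (hsub hy))
    · rintro _ ⟨y, ⟨hy, hly⟩, rfl⟩ a
      exact (he _ (hrm _ (hrn y (hsub hy) hly)) (s₁.mem y (hsub hy))).2.2.2 a
  rw [hI1] at hfin
  have hpm : p ∈ F₁ '' ball 0 δ' := by
    refine ⟨0, mem_ball_self hδ0, ?_⟩
    show (S₁ 0).1 = p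
    rw [s₁.ini 0 (mem_ball_self s₁.pos) (map_zero l)]
    exact hσ0
  obtain ⟨ε, hε, hb⟩ := Metric.isOpen_iff.1 c1 p hpm
  exact ⟨ε, hε, hb.trans hF₁D, ⟨fun x hx => hfin.g x (hb hx), fun x hx => hfin.B x (hb hx),
    fun x hx => hfin.h x (hb hx), fun x hx => hfin.c x (hb hx)⟩⟩

/-- interior rigidity -/
theorem rigInt (hQ : QAn 𝒬) (ho : IsOpen D) (hp0 : D ⊆ {x | 0 < x 0}) (hcon : IsPreconnected D)
    (m₁ : IsMod j0 W₁ D) (m₂ : IsMod j0 W₂ D) (q₁ : QEq 𝒬 W₁.toLD D) (q₂ : QEq 𝒬 W₂.toLD D)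
    {U : Set (EYM.E n)} (hU : IsOpen U) (hUD : U ⊆ D) (hUn : U.Nonempty) (he : EqOnM W₁ W₂ U) :
    EqOnM W₁ W₂ D := by
  set Z : Set (EYM.E n) := {x | ∃ ε > 0, ball x ε ⊆ D ∧ EqOnM W₁ W₂ (ball x ε)} with hZ
  have hZo : IsOpen Z := by
    rw [Metric.isOpen_iff]
    rintro x ⟨ε, hε, h1, h2⟩
    refine ⟨ε, hε, fun y hy => ?_⟩
    have hb : ball y (ε - dist y x) ⊆ ball x ε := ball_subset_ball' (by linarith)
    exact ⟨ε - dist y x, by rw [mem_ball] at hy; linarith, hb.trans h1,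
      ⟨fun z hz => h2.g z (hb hz), fun z hz => h2.B z (hb hz), fun z hz => h2.h z (hb hz),
        fun z hz => h2.c z (hb hz)⟩⟩
  have hUZ : U ⊆ Z := by
    intro x hx
    obtain ⟨ε, hε, hb⟩ := Metric.isOpen_iff.1 hU x hx
    exact ⟨ε, hε, hb.trans hUD, ⟨fun z hz => he.g z (hb hz), fun z hz => he.B z (hb hz),
      fun z hz => he.h z (hb hz), fun z hz => he.c z (hb hz)⟩⟩
  have hcl : closure Z ∩ D ⊆ Z := by
    rintro x ⟨hxZ, hxD⟩
    by_contra hx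
    obtain ⟨ρ, hρ, hb⟩ := Metric.isOpen_iff.1 ho x hxD
    obtain ⟨q, hq, hqx⟩ := Metric.mem_closure_iff.1 hxZ (ρ / 2) (half_pos hρ)
    have hne : (Zᶜ).Nonempty := ⟨x, hx⟩
    obtain ⟨p, hpZ, hpd⟩ := hZo.isClosed_compl.exists_infDist_eq_dist hne q
    have hd1 : infDist q Zᶜ ≤ dist q x := infDist_le_dist_of_mem hx
    have hd0 : 0 < infDist q Zᶜ :=
      (hZo.isClosed_compl.notMem_iff_infDist_pos hne).1 (fun h => h hq)
    have hpD : p ∈ D := by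
      apply hb
      rw [mem_ball]
      have h1 : dist p x ≤ dist p q + dist q x := dist_triangle _ _ _
      have h2 : dist p q = infDist q Zᶜ := by rw [hpd, dist_comm]
      have h3 : dist q x < ρ / 2 := by rw [dist_comm]; exact hqx
      linarith
    have hbq : ∀ z ∈ ball q (infDist q Zᶜ), z ∈ Z := by
      intro z hz
      by_contra hz'
      have h1 : infDist q Zᶜ ≤ dist q z := infDist_le_dist_of_mem hz'
      rw [mem_ball, dist_comm] at hz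
      linarith
    have hpq : ‖p - q‖ = infDist q Zᶜ := by rw [hpd, ← dist_eq_norm, dist_comm]
    obtain ⟨ε, hε, h1, h2⟩ := int_step hQ ho hp0 m₁ m₂ q₁ q₂ hd0 hpD hpq (fun z hz _ => by
      obtain ⟨ε, hε, h1, h2⟩ := hbq z hz
      have hz' := mem_ball_self (x := z) hε
      exact ⟨h2.g z hz', h2.B z hz', h2.h z hz', h2.c z hz'⟩)
    exact hpZ ⟨ε, hε, h1, h2⟩
  have hDZ : D ⊆ Z := hcon.subset_of_closure_inter_subset hZo
    (by
      obtain ⟨x, hx⟩ := hUn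
      exact ⟨x, hUD hx, hUZ hx⟩) hcl
  refine ⟨fun x hx => ?_, fun x hx => ?_, fun x hx => ?_, fun x hx => ?_⟩ <;>
  obtain ⟨ε, hε, h1, h2⟩ := hDZ hx
  · exact h2.g x (mem_ball_self hε)
  · exact h2.B x (mem_ball_self hε)
  · exact h2.h x (mem_ball_self hε)
  · exact h2.c x (mem_ball_self hε)

end Vale.Agent.P088.R2.H455
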