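import Vale.Agent.P088.R2.H455.Spec

/-!
# P088, quasi-analytic class: extension of smooth functions from a half ball

Seeley's extension theorem (the proof is copied from P098/Bdl/B24), for functions with values in
a finite dimensional space, on half balls; extension by zero of flat functions.
-/

open MeasureTheory Set Metric Filter
open scoped ContDiff RealInnerProductSpace Topology NNReal

set_option linter.all false

namespace Vale.Agent.P088.R2.H455

/-- Coefficients of the Seeley type extension. -/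
noncomputable def rG3_b : ℕ → ℝ
  | 0 => 1
  | k + 1 => -2 / (2 ^ (k + 1) - 1) * rG3_b k

theorem rG3_summable (m : ℕ) : Summable (fun k => rG3_b k * (2 ^ m) ^ k) := by
  refine summable_of_ratio_norm_eventually_le (r := 1 / 2) (by norm_num) ?_
  filter_upwards [eventually_ge_atTop (m + 2)] with k hk
  have h1 : (2 : ℝ) ^ (m + 3) ≤ 2 ^ (k + 1) := pow_le_pow_right₀ (by norm_num) (by omega)
  have h2 : (1 : ℝ) ≤ 2 ^ m := one_le_pow₀ (by norm_num)
  have h3 : (2 : ℝ) ^ (m + 3) = 8 * 2 ^ m := by ring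
  have h4 : (4 : ℝ) * 2 ^ m ≤ 2 ^ (k + 1) - 1 := by linarith only [h1, h2, h3]
  have h5 : (0 : ℝ) < 2 ^ (k + 1) - 1 := by linarith only [h1, h2, h3]
  have h6 : rG3_b (k + 1) * (2 ^ m) ^ (k + 1)
      = (-2 * 2 ^ m / (2 ^ (k + 1) - 1)) * (rG3_b k * (2 ^ m) ^ k) := by
    rw [rG3_b]; ring
  rw [h6, norm_mul]
  refine mul_le_mul_of_nonneg_right ?_ (norm_nonneg _)
  rw [norm_div, Real.norm_of_nonneg h5.le, div_le_div_iff₀ h5 (by norm_num)]
  have : ‖(-2 * 2 ^ m : ℝ)‖ = 2 * 2 ^ m := by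
    rw [norm_mul, Real.norm_of_nonneg (by positivity : (0 : ℝ) ≤ 2 ^ m)]; norm_num
  rw [this]; linarith only [h1, h2, h3]

theorem rG3_summable' (x : ℝ) (hx : 0 ≤ x) : Summable (fun k => rG3_b k * x ^ k) := by
  obtain ⟨m, hm⟩ := pow_unbounded_of_one_lt x (by norm_num : (1 : ℝ) < 2)
  refine Summable.of_norm_bounded ((rG3_summable m).norm) fun k => ?_
  rw [norm_mul, norm_mul, norm_pow, norm_pow, Real.norm_of_nonneg hx,
    Real.norm_of_nonneg (by positivity : (0 : ℝ) ≤ 2 ^ m)]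
  gcongr

theorem rG3_feq (x : ℝ) (hx : 0 ≤ x) :
    ∑' k, rG3_b k * (2 * x) ^ k = (1 - 2 * x) * ∑' k, rG3_b k * x ^ k := by
  have h1 := rG3_summable' x hx
  have h2 := rG3_summable' (2 * x) (by positivity)
  have h3 : ∑' k, (rG3_b k * (2 * x) ^ k - rG3_b k * x ^ k) = -2 * x * ∑' k, rG3_b k * x ^ k := by
    rw [(h2.sub h1).tsum_eq_zero_add, ← tsum_mul_left]
    simp only [pow_zero, sub_self, zero_add]
    refine tsum_congr fun k => ?_
    rw [rG3_b]
    have h5 : (2 : ℝ) ^ (k + 1) - 1 ≠ 0 := by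
      have : (1 : ℝ) < 2 ^ (k + 1) := one_lt_pow₀ (by norm_num) (by omega)
      linarith
    rw [mul_pow]
    field_simp
    ring
  rw [h2.tsum_sub h1] at h3
  linarith only [h3]

theorem rG3_zero (m : ℕ) : HasSum (fun k => rG3_b k * (2 ^ m) ^ k) 0 := by
  have h : ∑' k, rG3_b k * (2 ^ m) ^ k = 0 := by
    induction m with
    | zero =>
      have := rG3_feq (1 / 2) (by norm_num)
      simpa only [pow_zero, one_pow, mul_one, one_div, ne_eq, OfNat.ofNat_ne_zero, not_false_eq_true,     mul_inv_cancel₀, sub_self, inv_pow, zero_mul] using this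
    | succ m ih =>
      have := rG3_feq (2 ^ m) (by positivity)
      rw [ih, mul_zero] at this
      rw [← this]
      refine tsum_congr fun k => ?_
      rw [pow_succ']
  rw [← h]
  exact (rG3_summable m).hasSum

theorem rG3_poly (m : ℕ) : HasSum (fun k => rG3_b k * (3 - 2 * 2 ^ k) ^ m) 0 := by
  have h : HasSum (fun k => ∑ i ∈ Finset.range (m + 1),
      ((-2) ^ i * 3 ^ (m - i) * (m.choose i : ℝ)) * (rG3_b k * (2 ^ i) ^ k))
      (∑ i ∈ Finset.range (m + 1), ((-2) ^ i * 3 ^ (m - i) * (m.choose i : ℝ)) * 0) :=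
    hasSum_sum fun i _ => (rG3_zero i).mul_left _
  simp only [mul_zero, Finset.sum_const_zero] at h
  convert h using 2 with k
  have : (3 - 2 * 2 ^ k : ℝ) = (-2) * 2 ^ k + 3 := by ring
  rw [this, add_pow, Finset.mul_sum]
  refine Finset.sum_congr rfl fun i _ => ?_
  rw [mul_pow, ← pow_mul, ← pow_mul, mul_comm k i]
  ring

/-- The coefficients `a k` and the reflection factors `w k`. -/
noncomputable def rG3_a (k : ℕ) : ℝ := -rG3_b (k + 1)

noncomputable def rG3_w (k : ℕ) : ℝ := 4 * 2 ^ k - 3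

theorem rG3_w_one_le (k : ℕ) : 1 ≤ rG3_w k := by
  have : (1 : ℝ) ≤ 2 ^ k := one_le_pow₀ (by norm_num)
  rw [rG3_w]; linarith only [this]

theorem rG3_w_le (k : ℕ) : rG3_w k ≤ 4 * 2 ^ k := by
  rw [rG3_w]; linarith only []

theorem rG3_moment (m : ℕ) : HasSum (fun k => rG3_a k * (-rG3_w k) ^ m) 1 := by
  have h := (hasSum_nat_add_iff' 1).mpr (rG3_poly m)
  have h2 := h.neg
  have h3 : (-(0 - ∑ i ∈ Finset.range 1, rG3_b i * (3 - 2 * 2 ^ i) ^ m) : ℝ) = 1 := by
    simp only [Finset.range_one, Finset.sum_singleton, rG3_b, pow_zero, mul_one, one_mul, zero_sub, neg_neg]; norm_num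
  rw [h3] at h2
  refine h2.congr_fun fun k => ?_
  simp only [rG3_a, rG3_w, pow_succ]
  have h4 : (3 - 2 * (2 ^ k * 2) : ℝ) = -(4 * 2 ^ k - 3) := by ring
  rw [h4]; ring

theorem rG3_abs_summable (C : ℝ) (m : ℕ) : Summable (fun k => ‖rG3_a k‖ * (C * 2 ^ k) ^ m) := by
  have h := ((summable_nat_add_iff 1).mpr (rG3_summable m)).norm.mul_left (|C| ^ m)
  refine Summable.of_norm_bounded h fun k => ?_
  rw [norm_mul, norm_norm, norm_pow, norm_mul, mul_pow]
  have h1 : ‖rG3_b (k + 1) * (2 ^ m) ^ (k + 1)‖ = ‖rG3_b (k + 1)‖ * (2 ^ m) ^ (k + 1) := by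
    rw [norm_mul, Real.norm_of_nonneg (by positivity : (0 : ℝ) ≤ (2 ^ m) ^ (k + 1))]
  have h2 : ‖(2 : ℝ) ^ k‖ = 2 ^ k := Real.norm_of_nonneg (by positivity)
  rw [h1, h2, rG3_a, norm_neg, Real.norm_eq_abs C]
  have h3 : ((2 : ℝ) ^ k) ^ m ≤ (2 ^ m) ^ (k + 1) := by
    rw [← pow_mul, ← pow_mul]
    exact pow_le_pow_right₀ (by norm_num) (by linarith)
  calc ‖rG3_b (k + 1)‖ * (|C| ^ m * (2 ^ k) ^ m)
      = |C| ^ m * (‖rG3_b (k + 1)‖ * (2 ^ k) ^ m) := by ring
    _ ≤ _ := by (clear * - h3; gcongr)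


section general

variable {V : Type*} [NormedAddCommGroup V] [NormedSpace ℝ V]

theorem rG3_tsum_step {W : Type*} [NormedAddCommGroup W] [NormedSpace ℝ W] [CompleteSpace W]
    {s : Set V} (hs : Convex ℝ s) (ho : IsOpen s) {f : ℕ → V → W} {f' : ℕ → V → V →L[ℝ] W}
    (h : ∀ i, ∀ x ∈ closure s, HasFDerivWithinAt (f i) (f' i x) (closure s) x)
    (hc' : ∀ i, ContinuousOn (f' i) (closure s))
    {u u' : ℕ → ℝ} (hu : Summable u) (hu' : Summable u')
    (hb : ∀ i, ∀ x ∈ closure s, ‖f i x‖ ≤ u i) (hb' : ∀ i, ∀ x ∈ closure s, ‖f' i x‖ ≤ u' i)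
    {x : V} (hx : x ∈ closure s) :
    HasFDerivWithinAt (fun y => ∑' i, f i y) (∑' i, f' i x) (closure s) x := by
  have hcont : ContinuousOn (fun x => ∑' i, f i x) (closure s) :=
    continuousOn_tsum (fun i => fun y hy => (h i y hy).continuousWithinAt) hu hb
  have hcont' : ContinuousOn (fun x => ∑' i, f' i x) (closure s) :=
    continuousOn_tsum hc' hu' hb'
  have hd : ∀ y ∈ s, HasFDerivAt (fun y => ∑' i, f i y) (∑' i, f' i y) y := by
    intro y hy
    refine hasFDerivAt_tsum_of_isPreconnected hu' ho hs.isPreconnected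
      (fun i z hz => (h i z (subset_closure hz)).hasFDerivAt
        (mem_of_superset (ho.mem_nhds hz) subset_closure))
      (fun i z hz => hb' i z (subset_closure hz)) hy
      (Summable.of_norm_bounded hu fun i => hb i y (subset_closure hy)) hy
  refine hasFDerivWithinAt_closure_of_tendsto_fderiv
    (fun y hy => (hd y hy).differentiableAt.differentiableWithinAt) hs ho
    (fun y hy => (hcont y hy).mono subset_closure) ?_
  refine ((hcont' x hx).mono_left (nhdsWithin_mono _ subset_closure)).congr' ?_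
  filter_upwards [self_mem_nhdsWithin] with y hy
  exact (hd y hy).fderiv.symm

theorem rG3_tsum {s : Set V} (hs : Convex ℝ s)
    (ho : IsOpen s) {g : ℕ → V → ℝ} {p : ℕ → V → FormalMultilinearSeries ℝ V ℝ}
    (h : ∀ i, HasFTaylorSeriesUpToOn ∞ (g i) (p i) (closure s)) {v : ℕ → ℕ → ℝ}
    (hv : ∀ m, Summable (v m)) (hb : ∀ m i, ∀ x ∈ closure s, ‖p i x m‖ ≤ v m i) :
    HasFTaylorSeriesUpToOn ∞ (fun x => ∑' i, g i x) (fun x m => ∑' i, p i x m) (closure s) := by
  have hc : ∀ m i, ContinuousOn (fun x => p i x m) (closure s) := fun m i =>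
    (h i).cont m (by exact_mod_cast le_top)
  refine ⟨?_, ?_, fun m _ => continuousOn_tsum (hc m) (hv m) (hb m)⟩
  · intro x hx
    have h0 := (continuousMultilinearCurryFin0 ℝ V ℝ).toContinuousLinearEquiv.map_tsum
      (f := fun i => p i x 0) (L := SummationFilter.unconditional ℕ)
    change (∑' i, p i x 0).curry0 = ∑' i, (p i x 0).curry0 at h0
    rw [h0]
    exact tsum_congr fun i => (h i).zero_eq x hx
  · intro m hm x hx
    have hL : (∑' i, p i x (m + 1)).curryLeft = ∑' i, (p i x (m + 1)).curryLeft := by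
      exact (continuousMultilinearCurryLeftEquiv ℝ (fun _ : Fin (m + 1) => V)
        ℝ).toContinuousLinearEquiv.map_tsum
        (f := fun i => p i x (m + 1)) (L := SummationFilter.unconditional ℕ)
    change HasFDerivWithinAt (fun y => ∑' i, p i y m) (∑' i, p i x (m + 1)).curryLeft
      (closure s) x
    rw [hL]
    refine rG3_tsum_step hs ho (f := fun i y => p i y m)
      (f' := fun i y => (p i y (m + 1)).curryLeft) (fun i y hy => (h i).fderivWithin m hm y hy)
      (fun i => ?_) (hv m) (hv (m + 1)) (hb m) (fun i y hy => ?_) hx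
    · exact (continuousMultilinearCurryLeftEquiv ℝ (fun _ : Fin (m + 1) => V)
        ℝ).continuous.comp_continuousOn (hc (m + 1) i)
    · have := (continuousMultilinearCurryLeftEquiv ℝ (fun _ : Fin (m + 1) => V)
          ℝ).norm_map (p i y (m + 1))
      change ‖(p i y (m + 1)).curryLeft‖ = _ at this
      rw [this]
      exact hb (m + 1) i y hy

theorem rG3_glue {s t : Set V} (hs : IsClosed s) (ht : IsClosed t) (hst : s ∪ t = univ)
    {f : V → ℝ} {p : V → FormalMultilinearSeries ℝ V ℝ}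
    (h1 : HasFTaylorSeriesUpToOn ∞ f p s) (h2 : HasFTaylorSeriesUpToOn ∞ f p t) :
    HasFTaylorSeriesUpTo ∞ f p := by
  rw [← hasFTaylorSeriesUpToOn_univ_iff, ← hst]
  refine ⟨?_, ?_, ?_⟩
  · rintro x (hx | hx)
    · exact h1.zero_eq x hx
    · exact h2.zero_eq x hx
  · intro m hm x hx
    refine HasFDerivWithinAt.union ?_ ?_
    · by_cases h : x ∈ s
      · exact h1.fderivWithin m hm x h
      · exact HasFDerivWithinAt.of_notMem_closure (by rwa [hs.closure_eq])
    · by_cases h : x ∈ t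
      · exact h2.fderivWithin m hm x h
      · exact HasFDerivWithinAt.of_notMem_closure (by rwa [ht.closure_eq])
  · intro m hm
    exact (h1.cont m hm).union_of_isClosed (h2.cont m hm) hs ht

/-- The reflection type maps. -/
noncomputable def rG3_A (ℓ : V →L[ℝ] ℝ) (e : V) (k : ℕ) : V →L[ℝ] V :=
  ContinuousLinearMap.id ℝ V - (1 + rG3_w k) • ℓ.smulRight e

theorem rG3_A_apply (ℓ : V →L[ℝ] ℝ) (e : V) (k : ℕ) (x : V) :
    rG3_A ℓ e k x = x - ((1 + rG3_w k) * ℓ x) • e := by
  simp only [rG3_A, sub_apply, ContinuousLinearMap.id_apply, smul_apply, ContinuousLinearMap.smulRight_apply, smul_smul]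

theorem rG3_A_norm (ℓ : V →L[ℝ] ℝ) (e : V) (k : ℕ) :
    ‖rG3_A ℓ e k‖ ≤ (1 + 5 * (‖ℓ‖ * ‖e‖)) * 2 ^ k := by
  have h1 : (1 : ℝ) ≤ 2 ^ k := one_le_pow₀ (by norm_num)
  have h2 := rG3_w_one_le k
  have h3 := rG3_w_le k
  calc ‖rG3_A ℓ e k‖ ≤ ‖ContinuousLinearMap.id ℝ V‖ + ‖(1 + rG3_w k) • ℓ.smulRight e‖ :=
        norm_sub_le _ _
    _ ≤ 1 + (5 * 2 ^ k) * (‖ℓ‖ * ‖e‖) := by
        refine add_le_add ContinuousLinearMap.norm_id_le ?_
        rw [norm_smul, ContinuousLinearMap.norm_smulRight_apply, Real.norm_of_nonneg (by linarith)]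
        exact mul_le_mul_of_nonneg_right (by linarith) (by (clear * -; positivity))
    _ ≤ _ := by nlinarith only [h1]

theorem rG3_match (ℓ : V →L[ℝ] ℝ) (e : V) {m : ℕ} (Q : V [×m]→L[ℝ] ℝ) (v : Fin m → V) :
    HasSum (fun k => rG3_a k * Q (fun j => rG3_A ℓ e k (v j))) (Q v) := by
  classical
  set u : Fin m → V := fun j => ℓ (v j) • e with hu
  set u' : Fin m → V := fun j => v j - ℓ (v j) • e with hu'
  have h1 : HasSum (fun k => ∑ S : Finset (Fin m), (rG3_a k * (-rG3_w k) ^ S.card) *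
      Q (S.piecewise u u')) (∑ S : Finset (Fin m), 1 * Q (S.piecewise u u')) :=
    hasSum_sum fun S _ => (rG3_moment S.card).mul_right _
  have h2 : ∑ S : Finset (Fin m), 1 * Q (S.piecewise u u') = Q v := by
    simp only [one_mul]
    rw [← Q.map_add_univ]
    congr 1
    ext j
    simp [hu, hu']
  rw [h2] at h1
  refine h1.congr_fun fun k => ?_
  have h3 : (fun j => rG3_A ℓ e k (v j)) = (fun j => (-rG3_w k) • u j) + u' := by
    ext j
    simp only [Pi.add_apply, hu, hu', rG3_A_apply, smul_smul]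
    module
  rw [h3, Q.map_add_univ, Finset.mul_sum]
  refine Finset.sum_congr rfl fun S _ => ?_
  have h4 : S.piecewise (fun j => (-rG3_w k) • u j) u' =
      S.piecewise (fun j => (-rG3_w k) • (S.piecewise u u') j) (S.piecewise u u') := by
    ext j
    by_cases hj : j ∈ S <;> simp [hj]
  rw [h4, Q.map_piecewise_smul (fun _ => -rG3_w k), Finset.prod_const, smul_eq_mul]
  ring

theorem rG3_closure (ℓ : V →L[ℝ] ℝ) {e : V} (he : ℓ e = 1) :
    closure {x | ℓ x < 0} = {x | ℓ x ≤ 0} := by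
  have ho : IsOpenMap ℓ := ℓ.isOpenMap_of_ne_zero (by rintro rfl; simp at he)
  have := ho.preimage_closure_eq_closure_preimage ℓ.continuous (Iio 0)
  rw [closure_Iio] at this
  exact this.symm

theorem rG3_unique (ℓ : V →L[ℝ] ℝ) {e : V} (he : ℓ e = 1) :
    UniqueDiffOn ℝ {x | 0 ≤ ℓ x} := by
  refine uniqueDiffOn_convex ?_ ⟨e, ?_⟩
  · exact (convex_Ici (0 : ℝ)).is_linear_preimage ℓ.isLinear
  · have ho : IsOpen {x | 0 < ℓ x} := isOpen_lt continuous_const ℓ.continuous
    have hsub : {x | 0 < ℓ x} ⊆ {x | 0 ≤ ℓ x} := fun x hx => by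
      have hx' : 0 < ℓ x := hx
      exact hx'.le
    have hmem : e ∈ {x | 0 < ℓ x} := by change 0 < ℓ e; rw [he]; exact one_pos
    exact interior_maximal hsub ho hmem

theorem rG3_seeley (ℓ : V →L[ℝ] ℝ) {e : V} (he : ℓ e = 1) {f : V → ℝ}
    (hf : ContDiffOn ℝ ∞ f {x | 0 ≤ ℓ x})
    (hb : ∀ m : ℕ, ∃ C, ∀ x, 0 ≤ ℓ x → ‖iteratedFDerivWithin ℝ m f {x | 0 ≤ ℓ x} x‖ ≤ C) :
    ∃ F : V → ℝ, ContDiff ℝ ∞ F ∧ ∀ x, 0 ≤ ℓ x → F x = f x := by
  classical
  choose C hC using hb
  set H : Set V := {x | 0 ≤ ℓ x} with hH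
  set P := ftaylorSeriesWithin ℝ f H with hP
  have hT : HasFTaylorSeriesUpToOn ∞ f P H := hf.ftaylorSeriesWithin (rG3_unique ℓ he)
  have hcl := rG3_closure ℓ he
  have hA : ∀ k x, ℓ (rG3_A ℓ e k x) = -rG3_w k * ℓ x := by
    intro k x
    rw [rG3_A_apply, map_sub, map_smul, he]; simp only [smul_eq_mul, mul_one, neg_mul]; ring
  have hAH : ∀ k, ∀ x ∈ closure {x | ℓ x < 0}, rG3_A ℓ e k x ∈ H := by
    intro k x hx
    rw [hcl] at hx
    have hx' : ℓ x ≤ 0 := hx
    change 0 ≤ ℓ _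
    rw [hA]
    have := rG3_w_one_le k
    nlinarith only [hx', this]
  let g : ℕ → V → ℝ := fun k => (rG3_a k • ContinuousLinearMap.id ℝ ℝ) ∘ (f ∘ rG3_A ℓ e k)
  let p : ℕ → V → FormalMultilinearSeries ℝ V ℝ := fun k x m =>
    (rG3_a k • ContinuousLinearMap.id ℝ ℝ).compContinuousMultilinearMap
      ((P (rG3_A ℓ e k x) m).compContinuousLinearMap fun _ => rG3_A ℓ e k)
  have hg : ∀ k, HasFTaylorSeriesUpToOn ∞ (g k) (p k) (closure {x | ℓ x < 0}) := by
    intro k
    have h1 := hT.compContinuousLinearMap (rG3_A ℓ e k)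
    exact (h1.mono (hAH k)).continuousLinearMap_comp (rG3_a k • ContinuousLinearMap.id ℝ ℝ)
  let K := 1 + 5 * (‖ℓ‖ * ‖e‖)
  have hbd : ∀ m k, ∀ x ∈ closure {x | ℓ x < 0},
      ‖p k x m‖ ≤ C m * (‖rG3_a k‖ * (K * 2 ^ k) ^ m) := fun m k x hx => by
      have h1 : ‖(P (rG3_A ℓ e k x) m).compContinuousLinearMap fun _ => rG3_A ℓ e k‖
          ≤ C m * (K * 2 ^ k) ^ m := by
        refine (ContinuousMultilinearMap.norm_compContinuousLinearMap_le _ _).trans ?_
        rw [Finset.prod_const, Finset.card_univ, Fintype.card_fin]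
        have h2 : ‖P (rG3_A ℓ e k x) m‖ ≤ C m := hC m _ (hAH k x hx)
        have h3 := rG3_A_norm ℓ e k
        have h4 : 0 ≤ C m := (norm_nonneg _).trans h2
        (clear * - h2 h3 h4; gcongr)
      refine (ContinuousLinearMap.norm_compContinuousMultilinearMap_le _ _).trans ?_
      have h5 : ‖rG3_a k • ContinuousLinearMap.id ℝ ℝ‖ ≤ ‖rG3_a k‖ := by
        rw [norm_smul]
        exact mul_le_of_le_one_right (norm_nonneg _) ContinuousLinearMap.norm_id_le
      calc _ ≤ ‖rG3_a k‖ * (C m * (K * 2 ^ k) ^ m) := by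
            (clear * - h5 h1; gcongr)
        _ = _ := by ring
  have hsum := rG3_tsum (s := {x | ℓ x < 0})
    ((convex_Iio (0 : ℝ)).is_linear_preimage ℓ.isLinear)
    (isOpen_lt ℓ.continuous continuous_const) hg
    (v := fun m k => C m * (‖rG3_a k‖ * (K * 2 ^ k) ^ m))
    (fun m => (rG3_abs_summable K m).mul_left _) hbd
  rw [hcl] at hsum
  -- matching
  have hm : ∀ x, ℓ x = 0 → ∀ m, ∑' k, p k x m = P x m := by
    intro x hx m
    have hAx : ∀ k, rG3_A ℓ e k x = x := fun k => by rw [rG3_A_apply, hx]; simp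
    have hs : Summable (fun k => p k x m) := by
      refine Summable.of_norm_bounded ((rG3_abs_summable K m).mul_left (C m)) fun k => ?_
      exact hbd m k x (by rw [hcl]; exact hx.le)
    ext v
    have h1 := (ContinuousMultilinearMap.apply ℝ (fun _ : Fin m => V) ℝ v).map_tsum hs
    change (∑' k, p k x m) v = ∑' k, (p k x m) v at h1
    rw [h1]
    have h2 := (rG3_match ℓ e (P x m) v).tsum_eq
    rw [← h2]
    refine tsum_congr fun k => ?_
    simp [p, hAx]
  let q : V → FormalMultilinearSeries ℝ V ℝ := fun x m => if 0 ≤ ℓ x then P x m else ∑' k, p k x m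
  let F : V → ℝ := fun x => if 0 ≤ ℓ x then f x else ∑' k, g k x
  have h1 : HasFTaylorSeriesUpToOn ∞ F q H := by
    refine (hT.congr fun x hx => ?_).congr_series fun m _ x hx => ?_
    · have hx' : 0 ≤ ℓ x := hx
      simp only [hx', ↓reduceIte, F]
    · have hx' : 0 ≤ ℓ x := hx
      simp only [hx', ↓reduceIte, q]
  have h2 : HasFTaylorSeriesUpToOn ∞ F q {x | ℓ x ≤ 0} := by
    refine (hsum.congr fun x hx => ?_).congr_series fun m _ x hx => ?_
    · have hx' : ℓ x ≤ 0 := hx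
      rcases hx'.lt_or_eq with h | h
      · simp only [not_le.mpr h, ↓reduceIte, F]
      · have h3 := hm x h 0
        have h4 := hsum.zero_eq x hx
        have h5 := hT.zero_eq x (by change 0 ≤ ℓ x; rw [h])
        simp only [h, le_refl, if_true, F]
        rw [← h4, ← h5, h3]
    · have hx' : ℓ x ≤ 0 := hx
      rcases hx'.lt_or_eq with h | h
      · simp only [not_le.mpr h, ↓reduceIte, q]
      · simp only [hm x h m, h, Std.le_refl, ↓reduceIte, q]
  have h3 := rG3_glue (isClosed_le continuous_const ℓ.continuous)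
    (isClosed_le ℓ.continuous continuous_const) (by
      ext x; simp only [mem_union, mem_ofPred_eq, le_total, mem_univ]) h1 h2
  refine ⟨F, ?_, fun x hx => by simp only [hx, ↓reduceIte, F]⟩
  exact h3.contDiff

end general


end Vale.Agent.P088.R2.H455
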