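import Vale.Agent.P088.H4.Spec

/-!
# P088, quasi-analytic class: definitions for local data

The curvature of the metric and of the connection, in frames which are parallel along geodesic
segments, belongs to a quasi-analytic class of functions of one variable.
-/

open Set Filter Topology
open scoped ContDiff

set_option linter.all false

noncomputable section

namespace Vale.Agent.P088.R2.H455

open Vale.Agent.P088.EYM

variable {n N : ℕ} [NeZero n]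

/-- the vector with components `∑ Γ^k_{ij} u_i v_j` -/
def chv (g : EYM.E n → Matrix (Fin n) (Fin n) ℝ) (x u v : EYM.E n) : EYM.E n :=
  WithLp.toLp 2 fun k => ∑ i, ∑ j, EYM.chr g k i j x * u i * v j

/-- the connection matrix in the direction `v` -/
def Bv (B : Fin n → EYM.E n → EndF N) (x v : EYM.E n) : EndF N := ∑ i, v i • B i x

/-- the inner product of two vectors -/
def gv (g : EYM.E n → Matrix (Fin n) (Fin n) ℝ) (x u v : EYM.E n) : ℝ :=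
  ∑ i, ∑ j, g x i j * u i * v j

/-- the component `R(a, b, c, d)` of the curvature tensor -/
def rmv (g : EYM.E n → Matrix (Fin n) (Fin n) ℝ) (x a b c d : EYM.E n) : ℝ :=
  ∑ i, ∑ j, ∑ k, ∑ m, H.rm g i j k m x * a i * b j * c k * d m

/-- the component `F(a, b)` of the curvature of the connection -/
def curv2 (B : Fin n → EYM.E n → EndF N) (x a b : EYM.E n) : EndF N :=
  ∑ i, ∑ j, (a i * b j) • cur B i j x

/-- `γ` is a geodesic segment in `D` with velocity `w`, `e` is a parallel orthonormal frame and `σ`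
a parallel unitary frame along `γ`. -/
structure Par (L : LD n N) (D : Set (EYM.E n)) (ℓ : ℝ) (γ w : ℝ → EYM.E n)
    (e : Fin n → ℝ → EYM.E n) (σ : ℝ → EndF N) : Prop where
  mem : ∀ s ∈ Icc 0 ℓ, γ s ∈ D
  dγ : ∀ s ∈ Icc 0 ℓ, HasDerivWithinAt γ (w s) (Icc 0 ℓ) s
  dw : ∀ s ∈ Icc 0 ℓ, HasDerivWithinAt w (-chv L.g (γ s) (w s) (w s)) (Icc 0 ℓ) s
  de : ∀ s ∈ Icc 0 ℓ, ∀ a, HasDerivWithinAt (e a) (-chv L.g (γ s) (w s) (e a s)) (Icc 0 ℓ) s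
  dσ : ∀ s ∈ Icc 0 ℓ, HasDerivWithinAt σ (-(Bv L.B (γ s) (w s) * σ s)) (Icc 0 ℓ) s
  on : ∀ s ∈ Icc 0 ℓ, ∀ a b, gv L.g (γ s) (e a s) (e b s) = if a = b then 1 else 0
  un : ∀ s ∈ Icc 0 ℓ, ContinuousLinearMap.adjoint (σ s) * L.h (γ s) * σ s = 1

/-- `𝒬 ℓ` is, for each `ℓ`, a class of functions on `[0, ℓ]`; two smooth functions of the class
with the same derivatives at `0` are equal. -/
def QAn (𝒬 : ℝ → (ℝ → ℂ) → Prop) : Prop :=
  ∀ ℓ : ℝ, 0 < ℓ → ∀ f g : ℝ → ℂ, 𝒬 ℓ f → 𝒬 ℓ g → ContDiffOn ℝ ∞ f (Icc 0 ℓ) →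
    ContDiffOn ℝ ∞ g (Icc 0 ℓ) →
    (∀ k : ℕ, iteratedDerivWithin k f (Icc 0 ℓ) 0 = iteratedDerivWithin k g (Icc 0 ℓ) 0) →
    EqOn f g (Icc 0 ℓ)

/-- `f` agrees on `[0, ℓ]` with a function of the class. -/
def InQ (𝒬 : ℝ → (ℝ → ℂ) → Prop) (ℓ : ℝ) (f : ℝ → ℂ) : Prop := ∃ q, 𝒬 ℓ q ∧ EqOn q f (Icc 0 ℓ)

/-- The components of the curvatures of the data in parallel frames along geodesic segments belong
to the class `𝒬`. -/
structure QEq (𝒬 : ℝ → (ℝ → ℂ) → Prop) (L : LD n N) (D : Set (EYM.E n)) : Prop where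
  rm : ∀ (ℓ : ℝ) (γ w : ℝ → EYM.E n) (e : Fin n → ℝ → EYM.E n) (σ : ℝ → EndF N), 0 < ℓ →
    Par L D ℓ γ w e σ → ∀ a b c d : Fin n,
    InQ 𝒬 ℓ fun s => (rmv L.g (γ s) (e a s) (e b s) (e c s) (e d s) : ℂ)
  cur : ∀ (ℓ : ℝ) (γ w : ℝ → EYM.E n) (e : Fin n → ℝ → EYM.E n) (σ : ℝ → EndF N), 0 < ℓ →
    Par L D ℓ γ w e σ → ∀ (a b : Fin n) (p q : Fin N),
    InQ 𝒬 ℓ fun s => (ContinuousLinearMap.adjoint (σ s) * L.h (γ s) *
      curv2 L.B (γ s) (e a s) (e b s) * σ s) (EuclideanSpace.single q (1 : ℂ)) p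

theorem QEq.mono {𝒬 : ℝ → (ℝ → ℂ) → Prop} {L : LD n N} {D D' : Set (EYM.E n)} (h : QEq 𝒬 L D)
    (hD : D' ⊆ D) : QEq 𝒬 L D' := by
  have hp : ∀ {ℓ : ℝ} {γ w : ℝ → EYM.E n} {e : Fin n → ℝ → EYM.E n} {σ : ℝ → EndF N},
      Par L D' ℓ γ w e σ → Par L D ℓ γ w e σ := fun k =>
    ⟨fun s hs => hD (k.mem s hs), k.dγ, k.dw, k.de, k.dσ, k.on, k.un⟩
  exact ⟨fun ℓ γ w e σ hl k => h.rm ℓ γ w e σ hl (hp k), fun ℓ γ w e σ hl k =>
    h.cur ℓ γ w e σ hl (hp k)⟩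

end Vale.Agent.P088.R2.H455
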