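import Vale.Agent.P088.H4.St4

/-!
# P088: pairs whose curvature is quasi-analytic along geodesics
-/

open Manifold MeasureTheory Set Vale.Agent.P088.B
open scoped ContDiff Matrix

noncomputable section

namespace Vale.Agent.P088.BQ

universe u

variable {n N : ℕ} {M : Type u} {Z : At n M}

/-- For each `ℓ > 0`, `𝒬 ℓ` is a set of functions on `[0, ℓ]`. The family is quasi-analytic: two
smooth functions of `𝒬 ℓ` with the same derivatives of all orders at `0` are equal on `[0, ℓ]`. -/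
def Quasi (𝒬 : ℝ → (ℝ → ℂ) → Prop) : Prop :=
  ∀ ℓ : ℝ, 0 < ℓ → ∀ f g : ℝ → ℂ, 𝒬 ℓ f → 𝒬 ℓ g → ContDiffOn ℝ ∞ f (Icc 0 ℓ) →
    ContDiffOn ℝ ∞ g (Icc 0 ℓ) →
    (∀ k : ℕ, iteratedDerivWithin k f (Icc 0 ℓ) 0 = iteratedDerivWithin k g (Icc 0 ℓ) 0) →
    EqOn f g (Icc 0 ℓ)

/-- The Denjoy-Carleman class: the smooth functions on `[0, ℓ]` with `|f^(k)| ≤ C R^k m_k` for all
`k`, where `C` and `R` depend on `f`. -/
def DC (m : ℕ → ℝ) (ℓ : ℝ) (f : ℝ → ℂ) : Prop :=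
  ContDiffOn ℝ ∞ f (Icc 0 ℓ) ∧ ∃ C R : ℝ, ∀ k : ℕ, ∀ s ∈ Icc 0 ℓ,
    ‖iteratedDerivWithin k f (Icc 0 ℓ) s‖ ≤ C * R ^ k * m k

/-- `γ : [0, ℓ] → O` is a geodesic segment of `g` with velocity `w`, the `e a` form a parallel
orthonormal frame of tangent vectors and the columns of `σ` a parallel orthonormal frame of `ℂ^N`
along `γ`: `γ' = w`, `X' = -∑ w_i Γ_i X` for `X = w` and `X = e a`, `σ' = -∑ w_i A_i σ`. -/
structure Seg (g : V n → Matrix (Fin n) (Fin n) ℝ)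
    (A : Fin n → V n → Matrix (Fin N) (Fin N) ℂ) (O : Set (V n)) (ℓ : ℝ) (γ w : ℝ → V n)
    (e : Fin n → ℝ → V n) (σ : ℝ → Matrix (Fin N) (Fin N) ℂ) : Prop where
  mem : ∀ s ∈ Icc 0 ℓ, γ s ∈ O
  dγ : ∀ s ∈ Icc 0 ℓ, HasDerivWithinAt γ (w s) (Icc 0 ℓ) s
  dw : ∀ s ∈ Icc 0 ℓ, HasDerivWithinAt w (-((∑ i, w s i • lc g i (γ s)) *ᵥ w s)) (Icc 0 ℓ) s
  de : ∀ s ∈ Icc 0 ℓ, ∀ a,
    HasDerivWithinAt (e a) (-((∑ i, w s i • lc g i (γ s)) *ᵥ e a s)) (Icc 0 ℓ) s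
  dσ : ∀ s ∈ Icc 0 ℓ, ∀ k l,
    HasDerivWithinAt (fun t => σ t k l) (-((∑ i, w s i • A i (γ s)) * σ s) k l) (Icc 0 ℓ) s
  on : ∀ s ∈ Icc 0 ℓ, ∀ a b, e a s ⬝ᵥ g (γ s) *ᵥ e b s = if a = b then 1 else 0
  un : ∀ s ∈ Icc 0 ℓ, (σ s)ᴴ * σ s = 1

/-- At the points of `G`, in every chart: in parallel frames along geodesic segments
`γ : [0, ℓ] → G`, the components `R(e_a, e_b, e_c, e_d)` of the curvature tensor and the entries of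
the curvature `F(e_a, e_b)` agree on `[0, ℓ]` with functions of `𝒬 ℓ`. -/
def QOn (𝒬 : ℝ → (ℝ → ℂ) → Prop) (G : Set M) (P : Pair Z N) : Prop :=
  ∀ p ℓ γ w e σ, 0 < ℓ →
    Seg (gch Z P.g p) (ach Z P.A p) (Z.ch p '' (Z.src p ∩ G)) ℓ γ w e σ → ∀ a b,
      (∀ c d, ∃ q, 𝒬 ℓ q ∧ ∀ s ∈ Icc 0 ℓ, q s =
        (∑ i, ∑ j, e a s i * e b s j * (e c s ⬝ᵥ Rm (gch Z P.g p) i j (γ s) *ᵥ e d s) : ℝ)) ∧
      ∀ k l, ∃ q, 𝒬 ℓ q ∧ ∀ s ∈ Icc 0 ℓ, q s =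
        ((σ s)ᴴ * (∑ i, ∑ j, (e a s i * e b s j) • curv (ach Z P.A p) i j (γ s)) * σ s) k l

variable (Z) in
/-- The complement of `G` is thin in `W`: `G` is open and, for each connected open subset `O` of `W`
without boundary points, `O ∩ G` is connected (and not empty). -/
def Thick (G W : Set M) : Prop :=
  @IsOpen M Z.top G ∧ ∀ O ⊆ W \ bd Z, @IsOpen M Z.top O → @IsConnected M Z.top O →
    @IsConnected M Z.top (O ∩ G)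

end Vale.Agent.P088.BQ
end
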