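import Vale.Agent.P088.R2.H455.StQ
import Vale.Agent.P088.H4.St5

/-!
# P088: quasi-analytic pairs, the hypotheses of the main theorem
-/

open Manifold MeasureTheory Set Vale.Agent.P088.B
open scoped ContDiff Matrix

noncomputable section

namespace Vale.Agent.P088.BQ

universe u

variable {n N : ℕ} {M₁ M₂ : Type u} {Z₁ : At n M₁} {Z₂ : At n M₂}

/-- The hypothesis near the patch: `(g₁, A₁)` on `W₁` and `(g₂, A₂)` on `W₂` belong to the same
quasi-analytic class, or they solve the same natural equation of the fourth order. -/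
def Near (W₁ : Set M₁) (W₂ : Set M₂) (P : Pair Z₁ N) (Q : Pair Z₂ N) : Prop :=
  (∃ 𝒬, Quasi 𝒬 ∧ QOn 𝒬 W₁ P ∧ QOn 𝒬 W₂ Q) ∨ Same4 W₁ W₂ P Q

/-- The hypothesis inside: off thin sets, `(g₁, A₁)` in the interior of `M₁` and `(g₂, A₂)` in the
interior of `W` belong to the same quasi-analytic class. -/
def Inner (W : Set M₂) (P : Pair Z₁ N) (Q : Pair Z₂ N) : Prop :=
  ∃ 𝒬, Quasi 𝒬 ∧ ∃ (G₁ : Set M₁) (G₂ : Set M₂), Thick Z₁ G₁ univ ∧ Thick Z₂ G₂ W ∧
    QOn 𝒬 G₁ P ∧ QOn 𝒬 G₂ Q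

end Vale.Agent.P088.BQ
end
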